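import Vale.Agent.P114.Main

/-! The entropy part. -/

namespace Vale.Agent.P114

open MeasureTheory Finset
open scoped ENNReal

variable {W : Type} [Fintype W] {a b p : W → ℝ} {μ : Measure ℝ}

open Classical in
theorem EE_single {n : ℕ} {l : List W} (hl : l.length = n) (c : ℝ) :
    EE p n (fun l' => if l' = l then c else 0) = (l.map p).prod * c := by
  induction n generalizing l with
  | zero => rw [List.length_eq_zero_iff.1 hl]; simp [EE_zero]
  | succ n ih =>
    obtain ⟨i, l, rfl⟩ := List.exists_cons_of_length_eq_add_one hl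
    rw [EE_succ, sum_eq_single i, List.map_cons, List.prod_cons, mul_assoc,
      ← ih (Nat.succ.inj hl)]
    · simp
    · intro j _ hj
      have := EE_mul (p := p) (n := n) 0 fun _ => 0
      simp only [zero_mul] at this
      simp [hj, this]
    · simp

open Classical in
/-- The set of slopes. -/
abbrev Ty (a : W → ℝ) : Type := ↥(univ.image a)

/-- The slope of a letter. -/
noncomputable def ty (a : W → ℝ) (w : W) : Ty a :=
  ⟨a w, by classical exact mem_image_of_mem _ (mem_univ w)⟩

open Classical in
/-- The probability of a slope. -/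
noncomputable def tP (a p : W → ℝ) (τ : Ty a) : ℝ := ∑ w with ty a w = τ, p w

open Classical in
/-- The conditional law of the translation given the slope. -/
noncomputable def tL (a b p : W → ℝ) (τ : Ty a) : Lw :=
  ∑ w with ty a w = τ, (p w / tP a p τ) • dl (b w)

theorem ty_surj (τ : Ty a) : ∃ w, ty a w = τ := by
  classical
  obtain ⟨w, -, hw⟩ := mem_image.1 τ.2
  exact ⟨w, Subtype.ext hw⟩

theorem tP_pos (hp : PV p) (τ : Ty a) : 0 < tP a p τ := by
  classical
  obtain ⟨w, hw⟩ := ty_surj τ
  exact sum_pos (fun w _ => hp.pos w) ⟨w, mem_filter.2 ⟨mem_univ _, hw⟩⟩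

theorem sum_tP (f : Ty a → ℝ) : ∑ τ, tP a p τ * f τ = ∑ w, p w * f (ty a w) := by
  classical
  rw [← sum_fiberwise univ (ty a)]
  refine sum_congr rfl fun τ _ => ?_
  rw [tP, sum_mul]
  exact sum_congr rfl fun w hw => by rw [(mem_filter.1 hw).2]

theorem md_of (h : SS a b p μ) {K : ℝ} (hK1 : 1 ≤ K) (hK : ∀ i, |b i| + |a i| * K ≤ K) :
    Md (tP a p) (fun τ : Ty a => τ.1) (tL a b p) K (Fintype.card W) := by
  classical
  refine ⟨⟨tP_pos h.pv, ?_⟩, fun τ => ?_, fun τ => ?_, fun τ => ?_, fun τ x hx => ?_, hK1,
    fun τ => ?_⟩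
  · simpa [h.pv.sum] using sum_tP (a := a) (p := p) fun _ => 1
  · obtain ⟨w, rfl⟩ := ty_surj τ
    exact h.a0 w
  · obtain ⟨w, rfl⟩ := ty_surj τ
    exact h.a1 w
  · refine pb_sum (fun w _ => div_nonneg (h.pv.pos w).le (tP_pos h.pv τ).le) ?_ fun _ _ => pb_dl _
    rw [← sum_div]
    exact div_self (tP_pos h.pv τ).ne'
  · obtain ⟨w, hw, rfl⟩ := mem_sp_sum hx
    rw [← (mem_filter.1 hw).2]
    exact hK w
  · refine le_trans (card_le_card fun x hx => ?_) (card_image_le (s := univ) (f := b))
    obtain ⟨w, -, rfl⟩ := mem_sp_sum hx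
    exact mem_image_of_mem _ (mem_univ w)

theorem EE_law (hp : PV p) (n : ℕ) (G : List (Ty a) → ℝ → ℝ) :
    EE p n (fun l => G (l.map (ty a)) (wordMap a b l 0)) =
      EE (tP a p) n fun ω => ex (law (fun τ : Ty a => τ.1) (tL a b p) ω) (G ω) := by
  classical
  induction n generalizing G with
  | zero => simp only [EE_zero, law, ← dl_zero, ex_dl]; rfl
  | succ n ih =>
    rw [EE_succ, EE_succ, ← sum_fiberwise univ (ty a)]
    refine sum_congr rfl fun τ _ => ?_
    simp only [law, ex_mul, ex_sc]
    simp only [tL.eq_1 a b p τ, ex_sum, ex_smul, ex_dl, EE_sum, EE_mul, mul_sum]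
    refine sum_congr rfl fun w hw => ?_
    rw [← mul_assoc, mul_div_cancel₀ _ (tP_pos hp τ).ne', ← (mem_filter.1 hw).2,
      ← ih fun ω x => G (ty a w :: ω) (b w + (ty a w).1 * x)]
    simp only [List.map_cons, wordMap, Function.comp, add_comm (b w)]
    rfl

theorem prod_ty (l : List W) : ((l.map (ty a)).map fun τ : Ty a => τ.1).prod = (l.map a).prod := by
  rw [List.map_map]; rfl

theorem ent_link (h : SS a b p μ) {K : ℝ} (hK1 : 1 ≤ K) (hK : ∀ i, |b i| + |a i| * K ≤ K)
    (n : ℕ) : EE p n (fun l => -Real.log (same a b p n l)) ≤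
      n * Real.log (Fintype.card (Ty a)) +
        EE (tP a p) n fun ω => Sh (law (fun τ : Ty a => τ.1) (tL a b p) ω) := by
  classical
  have hm := md_of h hK1 hK
  have h1 : EE p n (fun l => -Real.log (same a b p n l)) ≤ EE p n fun l =>
      ((l.map (ty a)).map fun τ => -Real.log (tP a p τ)).sum + -Real.log
        ((law (fun τ : Ty a => τ.1) (tL a b p) (l.map (ty a))).coeff (wordMap a b l 0)) := by
    refine EE_mono h.pv fun l hl => ?_
    have e1 := EE_law (b := b) h.pv n fun ω x =>
      if ω = l.map (ty a) then (if x = wordMap a b l 0 then 1 else 0) else 0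
    have e2 : EE (tP a p) n (fun ω => ex (law (fun τ : Ty a => τ.1) (tL a b p) ω) fun x =>
        if ω = l.map (ty a) then (if x = wordMap a b l 0 then 1 else 0) else 0) =
        ((l.map (ty a)).map (tP a p)).prod *
          (law (fun τ : Ty a => τ.1) (tL a b p) (l.map (ty a))).coeff (wordMap a b l 0) := by
      rw [← EE_single (by simpa using hl)]
      refine EE_congr fun ω _ => ?_
      by_cases hω : ω = l.map (ty a)
      · simp only [hω, if_true, coeff_eq_ex]
      · simp only [hω, if_false, (hm.pb_law ω).const]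
    rw [e2] at e1
    have e3 : (l.map p).prod * 1 ≤ EE p n fun l' => if l'.map (ty a) = l.map (ty a) then
        (if wordMap a b l' 0 = wordMap a b l 0 then (1 : ℝ) else 0) else 0 := by
      rw [← EE_single hl]
      refine EE_mono h.pv fun l' _ => ?_
      by_cases hl' : l' = l
      · simp [hl']
      · rw [if_neg hl']; split_ifs <;> norm_num
    have e4 : (EE p n fun l' => if l'.map (ty a) = l.map (ty a) then
        (if wordMap a b l' 0 = wordMap a b l 0 then (1 : ℝ) else 0) else 0) ≤ same a b p n l := by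
      refine EE_mono h.pv fun l' _ => ?_
      split_ifs with h1 h2 h3 <;> try norm_num
      refine h3 (funext fun x => ?_)
      rw [wordMap_apply l', wordMap_apply l, ← prod_ty l', ← prod_ty l, h1, h2]
    have e5 : 0 < (l.map p).prod := List.prod_pos fun x hx => by
      obtain ⟨w, -, rfl⟩ := List.mem_map.1 hx
      exact h.pv.pos w
    rw [e1] at e3 e4
    have e6 := (mul_pos e5 one_pos).trans_le e3
    have e7 := Real.log_le_log e6 e4
    rw [Real.log_mul (left_ne_zero_of_mul e6.ne') (right_ne_zero_of_mul e6.ne')] at e7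
    have e8 : ∀ ω : List (Ty a),
        (ω.map fun τ => -Real.log (tP a p τ)).sum = -Real.log (ω.map (tP a p)).prod := by
      intro ω
      induction ω with
      | nil => simp
      | cons τ ω ih =>
        rw [List.map_cons, List.sum_cons, List.map_cons, List.prod_cons, ih,
          Real.log_mul (hm.pv.pos τ).ne' (List.prod_pos fun x hx => by
            obtain ⟨w, -, rfl⟩ := List.mem_map.1 hx
            exact hm.pv.pos w).ne', neg_add]
    rw [e8]
    linarith
  refine h1.trans ?_
  rw [EE_law (b := b) h.pv n fun ω x => (ω.map fun τ => -Real.log (tP a p τ)).sum +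
    -Real.log ((law (fun τ : Ty a => τ.1) (tL a b p) ω).coeff x)]
  simp only [ex_add', (hm.pb_law _).const, EE_add, EE_map_sum hm.pv]
  refine add_le_add (mul_le_mul_of_nonneg_left ?_ (Nat.cast_nonneg n)) le_rfl
  have := hm.pv.nonempty
  have hc : (0 : ℝ) < Fintype.card (Ty a) := by exact_mod_cast Fintype.card_pos
  have e1 := sum_le_sum fun τ (_ : τ ∈ univ) => nml_le (t := (Fintype.card (Ty a) : ℝ)⁻¹)
    (hm.pv.pos τ).le (by positivity) fun _ => by positivity
  simp only [sum_sub_distrib, sum_add_distrib, Real.log_inv, mul_neg, neg_neg, ← sum_mul,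
    hm.pv.sum, sum_const, card_univ, nsmul_eq_mul, mul_inv_cancel₀ hc.ne', Real.negMulLog] at e1
  simp only [mul_neg, ← neg_mul]
  linarith

theorem ball_integral (ν : Measure ℝ) [IsProbabilityMeasure ν] {r : ℝ} (hr : 0 ≤ r) :
    Integrable (fun s => ν.real (Metric.ball s r)) ∧
      ∫ s, ν.real (Metric.ball s r) = 2 * r := by
  have hS : MeasurableSet {z : ℝ × ℝ | dist z.2 z.1 < r} :=
    measurableSet_lt (by fun_prop) measurable_const
  have h1 := measurable_measure_prodMk_left (ν := ν) hS
  have h2 : ∫⁻ s, ν (Metric.ball s r) = ENNReal.ofReal (2 * r) := by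
    have e1 := (Measure.prod_apply (μ := volume) (ν := ν) hS).symm.trans
      (Measure.prod_apply_symm hS)
    refine e1.trans ?_
    have e2 : ∀ x : ℝ, volume ((fun s => (s, x)) ⁻¹' {z : ℝ × ℝ | dist z.2 z.1 < r}) =
        ENNReal.ofReal (2 * r) := fun x => by
      rw [← Real.volume_ball x r]
      congr 1
      ext s
      simp [dist_comm]
    simp only [e2, lintegral_const, measure_univ, mul_one]
  refine ⟨integrable_toReal_of_lintegral_ne_top h1.aemeasurable
    (h2.trans_ne ENNReal.ofReal_ne_top), ?_⟩
  refine (integral_toReal h1.aemeasurable (.of_forall fun s => measure_lt_top _ _)).trans ?_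
  exact (congrArg ENNReal.toReal h2).trans (ENNReal.toReal_ofReal (by positivity))

open Classical in
theorem core (h : SS a b p μ) {K s h' : ℝ} (hK1 : 1 ≤ K) (hK : ∀ i, |b i| + |a i| * K ≤ K)
    (hs1 : s < 1) (hs : s * ∑ i, p i * -Real.log |a i| < h')
    (hh : ∀ n : ℕ, n * (h' + Real.log (univ.image a).card) ≤
      EE p n fun l => -Real.log (same a b p n l)) : Cross a b p K s := by
  have hm := md_of h hK1 hK
  intro C
  obtain ⟨δ, h0, h1, M, hM⟩ := hm.exists_scale (h' := h') hs1
    (by rw [sum_tP fun τ : Ty a => -Real.log |τ.1|]; exact hs) (fun n => by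
      have e1 := (hh n).trans (ent_link h hK1 hK n)
      rw [Fintype.card_coe] at e1
      linarith) (C + (2 * K + 2))
  refine ⟨δ, h0, h1, M, fun y hy ν hν => ?_⟩
  have e1 := EE_law (b := b) h.pv M fun ω x => -Real.log (ν.real (Metric.ball
    (x + (ω.map fun τ : Ty a => τ.1).prod * y) δ) + δ)
  simp only [prod_ty, add_comm (wordMap a b _ 0), ← wordMap_apply] at e1
  rw [e1]
  have e2 : FF (tP a p) (fun τ : Ty a => τ.1) (tL a b p) M δ ≤ EE (tP a p) M (fun ω =>
      ex (law (fun τ : Ty a => τ.1) (tL a b p) ω) fun x => -Real.log (ν.real (Metric.ball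
        (x + (ω.map fun τ : Ty a => τ.1).prod * y) δ) + δ)) + (2 * K + 2) := by
    rw [FF, ← EE_const hm.pv (n := M) (2 * K + 2), ← EE_add]
    exact EE_mono hm.pv fun ω _ => by
      set R := (ω.map fun τ : Ty a => τ.1).prod
      have hl := hm.pb_law ω
      obtain ⟨i1, i2⟩ := ball_integral ν (r := 2 * δ) (by positivity)
      have i3 := (integrable_bx (2 * K + 1) 0).const_mul δ
      have f1 := ((pb_dl (R * y)).mul hl).gibbs h0
        (g := fun s => ν.real (Metric.ball s (2 * δ)) + δ * bx (2 * K + 1) s 0)
        (c := fun x => ν.real (Metric.ball x δ) + δ) (i1.add i3)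
        (fun s => add_nonneg measureReal_nonneg (mul_nonneg h0.le (bx_nonneg _ _ _)))
        (fun x _ => add_pos_of_nonneg_of_pos measureReal_nonneg h0) fun x hx s hs => by
          refine add_le_add (measureReal_mono (Metric.ball_subset_ball' ?_)) ?_
          · rw [Real.dist_eq]; linarith
          · obtain ⟨u, hu, v, hv, rfl⟩ := mem_sp_mul hx
            have g1 : u = R * y := mem_sp_of_ex (P := fun x => x = R * y) hu fun F hF => by
              rw [ex_dl, hF _ rfl]
            have g2 : |u| ≤ K := by
              rw [g1, abs_mul]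
              exact (mul_le_of_le_one_left (abs_nonneg _) (hm.prod_le ω)).trans hy
            have g3 := abs_add_le u v
            have g4 := abs_sub_le 0 (u + v) s
            rw [zero_sub (u + v), abs_neg] at g4
            rw [bx_pos (by linarith [hm.abs_le ω v hv]), mul_one]
      rw [(good_HH h0).tr _ _ hl, ex_mul, ex_dl, integral_add i1 i3, i2, integral_const_mul,
        integral_bx (by linarith)] at f1
      simp only [add_comm (R * y)] at f1
      refine f1.trans (add_le_add_right (le_of_eq ?_) _)
      field_simp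
      ring
  linarith

end Vale.Agent.P114
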