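import Vale.Agent.P114.Gain

/-! Local couplings and the count of active scales. -/

namespace Vale.Agent.P114

open Finset MeasureTheory Real

variable {m Y Z : Lw} {r d κ : ℝ}

/-- The coupling by conditional resampling inside a random interval. -/
noncomputable def cp (m : Lw) (r x y : ℝ) : ℝ :=
  (2 * r)⁻¹ * ∫ s, m.coeff x * m.coeff y * (bx r s x * bx r s y / ms m r s)

/-- The probability that the coupled points are not too close. -/
noncomputable def qq (m : Lw) (r κ : ℝ) : ℝ :=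
  ∑ z ∈ sp m ×ˢ sp m, cp m r z.1 z.2 * if κ * r ≤ |z.1 - z.2| then 1 else 0

theorem Pb.cp_nonneg' (h : Pb m) (r s x y : ℝ) :
    0 ≤ m.coeff x * m.coeff y * (bx r s x * bx r s y / ms m r s) :=
  mul_nonneg (mul_nonneg (h.nn x) (h.nn y))
    (div_nonneg (mul_nonneg (bx_nonneg _ _ _) (bx_nonneg _ _ _)) (h.ms_nonneg _ _))

theorem Pb.integrable_cp (h : Pb m) (r x y : ℝ) :
    Integrable fun s => m.coeff x * m.coeff y * (bx r s x * bx r s y / ms m r s) := by
  refine ((integrable_bx r x).const_mul (m.coeff x)).mono'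
    ((((measurable_bx r x).mul (measurable_bx r y)).div
      (measurable_ms m r)).const_mul _).aestronglyMeasurable (.of_forall fun s => ?_)
  rw [Real.norm_of_nonneg (h.cp_nonneg' r s x y)]
  have h1 : m.coeff y * bx r s y / ms m r s ≤ 1 :=
    div_le_one_of_le₀ (h.single_le (bx_nonneg r s) y) (h.ms_nonneg _ _)
  have := mul_le_of_le_one_right (mul_nonneg (h.nn x) (bx_nonneg r s x)) h1
  refine le_trans (le_of_eq ?_) this
  ring

theorem Pb.cpl (h : Pb m) (hr : 0 < r) : Cpl m (cp m r) := by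
  refine ⟨fun x y => mul_nonneg (by positivity) (integral_nonneg fun s => h.cp_nonneg' r s x y),
    fun x y => by simp only [cp, mul_comm (m.coeff x), mul_comm (bx r _ x)], fun x hx => ?_⟩
  simp only [cp]
  rw [← mul_sum, ← integral_finsetSum _ fun y _ => h.integrable_cp r x y]
  have : ∀ s, ∑ y ∈ sp m, m.coeff x * m.coeff y * (bx r s x * bx r s y / ms m r s) =
      m.coeff x * bx r s x := fun s => by
    have h1 : ∑ y ∈ sp m, m.coeff x * m.coeff y * (bx r s x * bx r s y / ms m r s) =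
        m.coeff x * bx r s x * (ms m r s / ms m r s) := by
      conv_rhs => rw [ms, ex, sum_div, mul_sum]
      exact sum_congr rfl fun y _ => by rw [ms, ex]; ring
    rw [h1]
    by_cases hs : |x - s| < r
    · rw [div_self (h.ms_pos hx hs).ne', mul_one]
    · rw [bx_neg hs, mul_zero, zero_mul]
  simp only [this]
  rw [integral_const_mul, integral_bx hr.le]
  field_simp

theorem cp_far {x y : ℝ} (h : 2 * r ≤ |x - y|) : cp m r x y = 0 := by
  have : ∀ s, bx r s x * bx r s y = 0 := fun s => by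
    by_cases hs : |x - s| < r
    · rw [bx_neg (x := y), mul_zero]
      intro hy
      have := abs_sub_le x s y
      rw [abs_sub_comm s y] at this
      linarith
    · rw [bx_neg hs, zero_mul]
  simp [cp, this]

theorem Pb.qq_nonneg (h : Pb m) (hr : 0 < r) (κ : ℝ) : 0 ≤ qq m r κ :=
  sum_nonneg fun z _ => mul_nonneg ((h.cpl hr).nn _ _) (by split_ifs <;> norm_num)

theorem Pb.qq_le_one (h : Pb m) (hr : 0 < r) (κ : ℝ) : qq m r κ ≤ 1 := by
  rw [← (h.cpl hr).sum h]
  exact sum_le_sum fun z _ =>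
    mul_le_of_le_one_right ((h.cpl hr).nn _ _) (by split_ifs <;> norm_num)

theorem Good.gain {D : Lw → ℝ} (hD : Good D) (h : Pb m) (hr : 0 < r) {c : ℝ}
    (hc : ∀ d, κ * r ≤ d → d < 2 * r → c ≤ D (bb d) - D 1) : c * qq m r κ ≤ D m - D 1 := by
  have h1 := hD.cpl (h.cpl hr) h pb_one
  simp only [mul_one] at h1
  refine le_trans ?_ (sub_le_sub_right h1 _)
  rw [← one_mul (D 1), ← (h.cpl hr).sum h, sum_mul, ← sum_sub_distrib, qq, mul_sum]
  refine sum_le_sum fun z _ => ?_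
  rw [← mul_sub, mul_left_comm]
  rcases le_or_gt (2 * r) |z.1 - z.2| with h2 | h2
  · simp [cp_far h2]
  refine mul_le_mul_of_nonneg_left ?_ ((h.cpl hr).nn _ _)
  split_ifs with h3
  · rw [mul_one]; exact hc _ h3 h2
  · have := hD.le_mul (pb_bb |z.1 - z.2|) pb_one
    rw [mul_one] at this
    linarith

theorem Pb.half_le_qq (h : Pb m) (hr : 0 < r) (hκ : 0 ≤ κ) {τ : ℝ} (hτ : 0 < τ) :
    HH (r / 2) m - HH r m ≤ 2 * τ + 2 / τ * (qq m r κ + κ) := by
  have i1 : ∀ z : ℝ × ℝ, Integrable fun s =>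
      m.coeff z.1 * m.coeff z.2 * (bx r s z.1 * bx r s z.2 / ms m r s) *
        if κ * r ≤ |z.1 - z.2| then 1 else 0 := fun z => (h.integrable_cp r _ _).mul_const _
  have i2 := integrable_finsetSum (sp m ×ˢ sp m) fun z _ => i1 z
  have i3 : Integrable fun s => (∑ z ∈ sp m ×ˢ sp m,
      m.coeff z.1 * m.coeff z.2 * (bx r s z.1 * bx r s z.2 / ms m r s) *
        if κ * r ≤ |z.1 - z.2| then 1 else 0) + ms m (κ * r) s := i2.add (integrable_ms _ _)
  have i4 := (integrable_ms m r).const_mul (2 * τ)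
  have key : ∀ s, psi (ms m (r / 2) (s - r / 2)) (ms m (r / 2) (s - -(r / 2))) ≤
      2 * τ * ms m r s + 2 / τ * ((∑ z ∈ sp m ×ˢ sp m,
      m.coeff z.1 * m.coeff z.2 * (bx r s z.1 * bx r s z.2 / ms m r s) *
        if κ * r ≤ |z.1 - z.2| then 1 else 0) + ms m (κ * r) s) := fun s => by
    refine (psi_le_quad (M := ms m r s) (h.ms_nonneg _ _) (h.ms_nonneg _ _) ?_ hτ).trans ?_
    · rw [ms, ms, ← ex_add']
      refine h.mono fun x _ => ?_
      simp only [bx, abs_lt]
      split_ifs with h1 h2 h3 h4 h5 h6 h7 <;> try norm_num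
      · linarith [h1.2, h2.1]
      · linarith [h1.2, h2.1]
      · exact h4 ⟨by linarith [h1.1], by linarith [h1.2]⟩
      · exact h6 ⟨by linarith [h5.1], by linarith [h5.2]⟩
    refine add_le_add_right (mul_le_mul_of_nonneg_left ?_ (by positivity)) _
    have h2 : ms m (κ * r) s * (ms m r s / ms m r s) ≤ ms m (κ * r) s :=
      mul_le_of_le_one_right (h.ms_nonneg _ _) (div_self_le_one _)
    refine le_trans ?_ (add_le_add_right h2 _)
    have e1 : ∀ F G : ℝ → ℝ, ex m F * ex m G / ms m r s =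
        ∑ z ∈ sp m ×ˢ sp m, m.coeff z.1 * m.coeff z.2 * (F z.1 * G z.2 / ms m r s) := by
      intro F G
      rw [ex, ex, sum_mul_sum, sum_product, sum_div]
      refine sum_congr rfl fun x _ => ?_
      rw [sum_div]
      exact sum_congr rfl fun y _ => by ring
    rw [← mul_div_assoc, ms.eq_1 m (κ * r), ms.eq_1 m (r / 2), ms.eq_1 m (r / 2), e1]
    conv_rhs => rw [ms.eq_1 m r s, ← ms.eq_1 m r s]
    have e2 := e1 (bx (κ * r) s) (bx r s)
    rw [← ms.eq_1 m r s] at e2
    rw [e2, ← sum_add_distrib]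
    refine sum_le_sum fun z _ => ?_
    rw [mul_assoc _ (_ / _), ← mul_add, div_mul_eq_mul_div, ← add_div]
    refine mul_le_mul_of_nonneg_left (div_le_div_of_nonneg_right ?_ (h.ms_nonneg _ _))
      (mul_nonneg (h.nn _) (h.nn _))
    have n1 : 0 ≤ bx r s z.1 * bx r s z.2 * if κ * r ≤ |z.1 - z.2| then (1 : ℝ) else 0 :=
      mul_nonneg (mul_nonneg (bx_nonneg _ _ _) (bx_nonneg _ _ _)) (by split_ifs <;> norm_num)
    have n2 := mul_nonneg (bx_nonneg (κ * r) s z.1) (bx_nonneg r s z.2)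
    by_cases h3 : |z.1 - (s - r / 2)| < r / 2
    · by_cases h4 : |z.2 - (s - -(r / 2))| < r / 2
      · rw [bx_pos h3, bx_pos h4]
        rw [abs_lt] at h3 h4
        have h5 : |z.1 - s| < r := abs_lt.2 ⟨by linarith, by linarith⟩
        have h6 : |z.2 - s| < r := abs_lt.2 ⟨by linarith, by linarith⟩
        rw [bx_pos h5, bx_pos h6] at *
        split_ifs with h7
        · linarith
        · rw [not_le, abs_lt] at h7
          rw [bx_pos (abs_lt.2 ⟨by linarith, by linarith⟩)]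
          norm_num
      · rw [bx_neg h4, mul_zero]; linarith
    · rw [bx_neg h3, zero_mul]; linarith
  have h1 := integral_mono (h.integrable_psi _ _ _) (i4.add (i3.const_mul (2 / τ))) key
  simp only [Pi.add_apply] at h1
  rw [integral_add i4 (i3.const_mul _), integral_const_mul, integral_const_mul,
    integral_add i2 (integrable_ms _ _), h.integral_ms hr.le, h.integral_ms (by positivity),
    integral_finsetSum _ fun z _ => i1 z] at h1
  rw [h.HH_half hr]
  refine (mul_le_mul_of_nonneg_left h1 (by positivity)).trans_eq ?_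
  have h2 : qq m r κ = (2 * r)⁻¹ * ∑ z ∈ sp m ×ˢ sp m, ∫ s,
      m.coeff z.1 * m.coeff z.2 * (bx r s z.1 * bx r s z.2 / ms m r s) *
        if κ * r ≤ |z.1 - z.2| then 1 else 0 := by
    rw [qq, mul_sum]
    exact sum_congr rfl fun z _ => by rw [integral_mul_const, cp, mul_assoc]
  rw [h2]
  field_simp

theorem Good.pow_gain {D : Lw → ℝ} (hD : Good D) (h0 : 0 ≤ D 1) (h : Pb m) (hr : 0 < r) {c : ℝ}
    (hc : ∀ d, κ * r ≤ d → d < 2 * r → c ≤ D (bb d)) (J : ℕ) :
    c * (1 - (1 - qq m r κ) ^ J) ≤ D (m ^ J) := by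
  induction J with
  | zero => simpa using h0
  | succ J ih =>
    have h1 := (hD.mul_right (h.pow J)).gain h hr (κ := κ) (c := c - D (m ^ J))
      fun d h1 h2 => by
        have := hD.le_mul' (pb_bb d) (h.pow J)
        have := hc d h1 h2
        simp only [one_mul]
        linarith
    simp only [one_mul] at h1
    have h2 := mul_le_mul_of_nonneg_left ih (sub_nonneg.2 (h.qq_le_one hr κ))
    rw [pow_succ' m, pow_succ]
    linarith

theorem Pb.count (h : Pb m) {N r₀ : ℝ} (hN0 : 0 ≤ N) (hr : 0 < r₀)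
    (hN : ∀ J : ℕ, log (sp (m ^ J)).card ≤ N * log (J + 1)) (I t : ℕ) :
    ∑ j ∈ range I, (if (1 / 4 ^ t : ℝ) ≤ qq m (r₀ / 2 ^ j) (1 / 4 ^ t) then (1 : ℝ) else 0) ≤
      8 * ((2 * t + 5) * ((2 * t + 1) * N)) := by
  set γ : ℕ → ℝ := fun j => HH (16 * r₀ / 2 ^ j) (m ^ 4 ^ t) with hγ
  have hp := h.pow (4 ^ t)
  have hmono : Monotone γ := monotone_nat_of_le_succ fun j => by
    have := hp.half_nonneg (r := 16 * r₀ / 2 ^ j) (by positivity)
    simp only [hγ, pow_succ, ← div_div]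
    linarith
  have h1 := sum_window hmono I (2 * t + 5)
  have h2 : γ (I + (2 * t + 5)) ≤ (2 * t + 1) * N := by
    refine (hp.HH_le_card (by positivity)).trans ((hN _).trans ?_)
    rw [mul_comm]
    refine mul_le_mul_of_nonneg_right ?_ hN0
    have e1 : (((4 ^ t : ℕ) : ℝ) + 1) ≤ 2 ^ (2 * t + 1) := by
      have : (1 : ℝ) ≤ 4 ^ t := one_le_pow₀ (by norm_num)
      rw [pow_succ, pow_mul]
      push_cast
      norm_num
      linarith
    refine (log_le_log (by positivity) e1).trans ?_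
    rw [log_pow]
    push_cast
    exact mul_le_of_le_one_right (by positivity) (by linarith [log_two_lt_d9])
  have h3 : 0 ≤ γ 0 := hp.HH_nonneg (by positivity)
  have h4 : ∀ j, (if (1 / 4 ^ t : ℝ) ≤ qq m (r₀ / 2 ^ j) (1 / 4 ^ t) then (1 : ℝ) else 0) ≤
      8 * (γ (j + (2 * t + 5)) - γ j) := fun j => by
    split_ifs with hq
    · have hR : 0 < 16 * r₀ / 2 ^ j := by positivity
      have e4 : (2 : ℝ) ^ (2 * t + 5) = 4 ^ t * 32 := by rw [pow_add, pow_mul]; norm_num
      have e1 := (good_win hR (2 * t + 5)).pow_gain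
        (sub_nonneg.2 (pb_one.win_nonneg hR _)) h (r := r₀ / 2 ^ j) (κ := 1 / 4 ^ t)
        (by positivity) (c := 1 / 4) (fun d h1 h2 => by
          have hd : 0 < d := lt_of_lt_of_le (by positivity) h1
          have f1 := le_HH_bb (r := 16 * r₀ / 2 ^ j / 2 ^ (2 * t + 5)) (d := d) (by positivity)
            (le_trans (le_of_eq (by rw [e4]; field_simp; norm_num)) h1)
          have f2 := HH_bb_le hR hd
          have f3 : 2 * d / (16 * r₀ / 2 ^ j) ≤ 1 / 4 := by
            rw [div_le_iff₀ hR, mul_div_assoc]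
            linarith
          linarith [log_two_gt_d9]) (4 ^ t)
      have e2 : (1 - qq m (r₀ / 2 ^ j) (1 / 4 ^ t)) ^ 4 ^ t ≤ 1 / 2 := by
        have f1 : 1 - qq m (r₀ / 2 ^ j) (1 / 4 ^ t) ≤ exp (-(1 / 4 ^ t)) := by
          linarith [add_one_le_exp (-(1 / 4 ^ t : ℝ))]
        refine (pow_le_pow_left₀ (sub_nonneg.2 (h.qq_le_one (by positivity) _)) f1 _).trans ?_
        rw [← exp_nat_mul]
        push_cast
        rw [mul_neg, mul_one_div_cancel (by positivity), exp_neg, one_div]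
        exact inv_anti₀ (by norm_num) (by linarith [add_one_le_exp (1 : ℝ)])
      simp only [hγ, pow_add _ j, ← div_div]
      linarith
    · linarith [hmono (Nat.le_add_right j (2 * t + 5))]
  refine (sum_le_sum fun j _ => h4 j).trans ?_
  rw [← mul_sum]
  refine mul_le_mul_of_nonneg_left (h1.trans ?_) (by norm_num)
  push_cast
  exact mul_le_mul_of_nonneg_left (by linarith) (by positivity)

theorem Pb.layer (h : Pb m) (hr : 0 < r) (t₀ T : ℕ) :
    HH (r / 2) m - HH r m ≤ 4 ^ t₀ * qq m r (1 / 4 ^ t₀) +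
      ∑ i ∈ range T, 6 / 2 ^ (i + t₀) *
        (if (1 / 4 ^ (i + t₀ + 1) : ℝ) ≤ qq m r (1 / 4 ^ (i + t₀ + 1)) then (1 : ℝ) else 0) +
      6 / 2 ^ (T + t₀) := by
  have small : ∀ t : ℕ, qq m r (1 / 4 ^ t) < 1 / 4 ^ t → HH (r / 2) m - HH r m ≤ 6 / 2 ^ t := by
    intro t ht
    refine (h.half_le_qq hr (κ := 1 / 4 ^ t) (τ := 1 / 2 ^ t) (by positivity)
      (by positivity)).trans ?_
    have e1 : (4 : ℝ) ^ t = 2 ^ t * 2 ^ t := by rw [← mul_pow]; norm_num
    have e2 : 2 / (1 / 2 ^ t : ℝ) * (1 / 4 ^ t + 1 / 4 ^ t) = 4 / 2 ^ t := by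
      rw [e1]; field_simp; norm_num
    have e3 : 2 / (1 / 2 ^ t : ℝ) * (qq m r (1 / 4 ^ t) + 1 / 4 ^ t) ≤
        2 / (1 / 2 ^ t : ℝ) * (1 / 4 ^ t + 1 / 4 ^ t) := by gcongr
    have e4 : (6 : ℝ) / 2 ^ t = 2 * (1 / 2 ^ t) + 4 / 2 ^ t := by ring
    linarith
  have q0 : 0 ≤ 4 ^ t₀ * qq m r (1 / 4 ^ t₀) := mul_nonneg (by positivity) (h.qq_nonneg hr _)
  have nn : ∀ i : ℕ, 0 ≤ 6 / 2 ^ (i + t₀) *
      (if (1 / 4 ^ (i + t₀ + 1) : ℝ) ≤ qq m r (1 / 4 ^ (i + t₀ + 1)) then (1 : ℝ) else 0) :=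
    fun i => mul_nonneg (by positivity) (by split_ifs <;> norm_num)
  have key : ∀ T : ℕ, HH (r / 2) m - HH r m ≤ 4 ^ t₀ * qq m r (1 / 4 ^ t₀) +
      ∑ i ∈ range T, 6 / 2 ^ (i + t₀) *
        (if (1 / 4 ^ (i + t₀ + 1) : ℝ) ≤ qq m r (1 / 4 ^ (i + t₀ + 1)) then (1 : ℝ) else 0) ∨
      qq m r (1 / 4 ^ (T + t₀)) < 1 / 4 ^ (T + t₀) := by
    intro T
    induction T with
    | zero =>
      rw [zero_add]
      rcases le_or_gt (1 / 4 ^ t₀) (qq m r (1 / 4 ^ t₀)) with h1 | h1
      · rw [div_le_iff₀' (by positivity)] at h1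
        exact .inl (by simpa using (h.half_le hr).trans h1)
      · exact .inr h1
    | succ T ih =>
      rw [sum_range_succ, Nat.add_right_comm T 1 t₀]
      rcases ih with ih | ih
      · exact .inl (by linarith [nn T])
      · rcases le_or_gt (1 / 4 ^ (T + t₀ + 1)) (qq m r (1 / 4 ^ (T + t₀ + 1))) with h1 | h1
        · rw [if_pos h1]
          exact .inl (by linarith [small _ ih, sum_nonneg fun i (_ : i ∈ range T) => nn i])
        · exact .inr h1
  rcases key T with h1 | h1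
  · have : (0 : ℝ) ≤ 6 / 2 ^ (T + t₀) := by positivity
    linarith
  · linarith [small _ h1, sum_nonneg fun i (_ : i ∈ range T) => nn i]

theorem count_main {ε : ℝ} (hε : 0 < ε) : ∃ t₀ : ℕ, ∀ (m : Lw) (N r₀ : ℝ) (I : ℕ), Pb m →
    0 ≤ N → 0 < r₀ → (∀ J : ℕ, log (sp (m ^ J)).card ≤ N * log (J + 1)) →
    HH (r₀ / 2 ^ I) m - HH r₀ m ≤
      4 ^ t₀ * ∑ j ∈ range I, qq m (r₀ / 2 ^ j) (1 / 4 ^ t₀) + ε * N + 1 := by
  set c : ℕ → ℝ := fun t => 6 / 2 ^ t * (8 * ((2 * (t + 1) + 5) * (2 * (t + 1) + 1))) with hc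
  have hc0 : ∀ t, 0 ≤ c t := fun t => by positivity
  have hs : Summable c := by
    have h1 : ‖(1 / 2 : ℝ)‖ < 1 := by norm_num
    have h0 := summable_pow_mul_geometric_of_norm_lt_one 0 h1
    have h2 := summable_pow_mul_geometric_of_norm_lt_one 1 h1
    have h3 := summable_pow_mul_geometric_of_norm_lt_one 2 h1
    refine (((h0.mul_left 1008).add (h2.mul_left 960)).add (h3.mul_left 192)).congr fun t => ?_
    simp only [hc, one_div, inv_pow]
    ring
  obtain ⟨t₀, ht₀⟩ := ((tendsto_sum_nat_add c).eventually (gt_mem_nhds hε)).exists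
  refine ⟨t₀, fun m N r₀ I h hN0 hr hN => ?_⟩
  obtain ⟨T, hT⟩ := pow_unbounded_of_one_lt (6 * I : ℝ) (show (1 : ℝ) < 2 by norm_num)
  have h1 := sum_range_sub (fun j => HH (r₀ / 2 ^ j) m) I
  simp only [pow_zero, div_one, pow_succ, ← div_div] at h1
  rw [← h1]
  refine (sum_le_sum fun j _ => h.layer (r := r₀ / 2 ^ j) (by positivity) t₀ T).trans ?_
  rw [sum_add_distrib, sum_add_distrib, ← mul_sum, sum_comm]
  refine add_le_add (add_le_add_right ?_ _) ?_
  · have h3 : ∑ i ∈ range T, c (i + t₀) ≤ ε :=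
      (((summable_nat_add_iff t₀).2 hs).sum_le_tsum _ fun i _ => hc0 _).trans ht₀.le
    refine le_trans ?_ (mul_le_mul_of_nonneg_right h3 hN0)
    rw [sum_mul]
    refine sum_le_sum fun i _ => ?_
    rw [← mul_sum]
    refine (mul_le_mul_of_nonneg_left (h.count hN0 hr hN I (i + t₀ + 1))
      (by positivity)).trans_eq ?_
    simp only [hc]
    push_cast
    ring
  · rw [sum_const, card_range, nsmul_eq_mul, ← mul_div_assoc, div_le_one (by positivity), pow_add]
    have : (1 : ℝ) ≤ 2 ^ t₀ := one_le_pow₀ (by norm_num)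
    nlinarith [pow_pos (show (0 : ℝ) < 2 by norm_num) T]

end Vale.Agent.P114
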