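import Mathlib

/-! Self-similar measures on the line: the objects of the entropy-rate dimension conjecture. -/

namespace Vale.Agent.P114

open MeasureTheory
open scoped ENNReal

variable {Λ : Type} [Fintype Λ]

/-- The composition of the maps `x ↦ r i * x + t i` along a word, first letter outermost. -/
def wordMap (r t : Λ → ℝ) : List Λ → ℝ → ℝ
  | [] => id
  | i :: w => (fun x => r i * x + t i) ∘ wordMap r t w

open Classical in
/-- The probability that the random composition of `n` maps equals the map `g`. -/
noncomputable def mapProb (r t p : Λ → ℝ) (n : ℕ) (g : ℝ → ℝ) : ℝ :=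
  ∑ w ∈ Finset.univ.filter (fun w : Fin n → Λ => wordMap r t (List.ofFn w) = g), ∏ k, p (w k)

open Classical in
/-- Shannon entropy, in bits, of the random composition of `n` maps. -/
noncomputable def walkEntropy (r t p : Λ → ℝ) (n : ℕ) : ℝ :=
  ∑ g ∈ Finset.univ.image (fun w : Fin n → Λ => wordMap r t (List.ofFn w)),
    -(mapProb r t p n g * Real.logb 2 (mapProb r t p n g))

/-- The random-walk entropy rate: the infimum of `H(G_n) / n` over `n ≥ 1`. -/
noncomputable def entropyRate (r t p : Λ → ℝ) : ℝ :=
  ⨅ n : ℕ, walkEntropy r t p (n + 1) / ((n + 1 : ℕ) : ℝ)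

/-- The Lyapunov exponent, in bits. -/
noncomputable def lyapunov (r p : Λ → ℝ) : ℝ := -∑ i, p i * Real.logb 2 |r i|

/-- The lower Hausdorff dimension of a measure on the line. -/
noncomputable def measureDim (μ : Measure ℝ) : ℝ≥0∞ :=
  ⨅ (E : Set ℝ) (_ : MeasurableSet E) (_ : 0 < μ E), dimH E

end Vale.Agent.P114
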