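import Vale.Agent.P114.EE

/-! From cross-entropy to a lower bound for the dimension. -/

namespace Vale.Agent.P114

open MeasureTheory Finset Filter Topology
open scoped ENNReal

variable {W : Type} [Fintype W] {a b p : W → ℝ} {μ : Measure ℝ}

theorem dl_moment (hp : PV p) {M : ℕ} {δ A : ℝ} (hδ : 0 < δ) (hδ1 : δ < 1) {c : List W → ℝ}
    (h0 : ∀ l, 0 ≤ c l) (h1 : ∀ l, c l ≤ 1) (h : A ≤ EE p M fun l => -Real.log (c l + δ)) :
    (EE p M fun l => c l ^ ((1 - Real.log δ) ^ 2)⁻¹) ≤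
      Real.exp (((1 - Real.log δ) ^ 2)⁻¹ * (1 - A)) := by
  have hL : 1 ≤ 1 - Real.log δ := by linarith [Real.log_nonpos hδ.le hδ1.le]
  set L := 1 - Real.log δ with hLd
  have hτ : 0 < (L ^ 2)⁻¹ := by positivity
  have h2 : ∀ l, c l ^ (L ^ 2)⁻¹ ≤ (1 + (L ^ 2)⁻¹) - (L ^ 2)⁻¹ * -Real.log (c l + δ) := by
    intro l
    have h3 : 0 < c l + δ := by linarith [h0 l]
    have h4 : |Real.log (c l + δ)| ≤ L := by
      have h5 := Real.log_le_log hδ (show δ ≤ c l + δ by linarith [h0 l])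
      have h6 := Real.log_le_sub_one_of_pos h3
      rw [abs_le]
      constructor <;> linarith [h1 l]
    have h7 : |Real.log (c l + δ) * (L ^ 2)⁻¹| ≤ L⁻¹ := by
      rw [abs_mul, abs_of_pos hτ]
      refine (mul_le_mul_of_nonneg_right h4 hτ.le).trans (le_of_eq ?_)
      field_simp
    have h8 := (abs_le.1 (Real.abs_exp_sub_one_sub_id_le (h7.trans (inv_le_one_of_one_le₀ hL)))).2
    have h9 : (Real.log (c l + δ) * (L ^ 2)⁻¹) ^ 2 ≤ (L ^ 2)⁻¹ := by
      rw [← sq_abs, ← inv_pow]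
      exact pow_le_pow_left₀ (abs_nonneg _) (by rwa [inv_pow]) 2
    refine (Real.rpow_le_rpow (h0 l) (show c l ≤ c l + δ by linarith) hτ.le).trans ?_
    rw [Real.rpow_def_of_pos h3]
    linarith
  refine (EE_mono hp fun l _ => h2 l).trans ?_
  rw [EE_sub, EE_mul, EE_const hp]
  have h10 := mul_le_mul_of_nonneg_left h hτ.le
  linarith [Real.add_one_le_exp ((L ^ 2)⁻¹ * (1 - A))]

/-- A small power of the mass of a ball. -/
noncomputable def dlF (μ : Measure ℝ) (τ r x : ℝ) : ℝ := μ.real (Metric.ball x r) ^ τ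

theorem dl_meas_ball (μ : Measure ℝ) [IsProbabilityMeasure μ] (r : ℝ) :
    Measurable fun x => μ.real (Metric.ball x r) :=
  (measurable_measure_prodMk_left (ν := μ) (s := {q : ℝ × ℝ | dist q.2 q.1 < r})
    (measurableSet_lt (by fun_prop) measurable_const)).ennreal_toReal

theorem dlF_meas (μ : Measure ℝ) [IsProbabilityMeasure μ] (τ r : ℝ) : Measurable (dlF μ τ r) :=
  (dl_meas_ball μ r).pow_const τ

theorem dlF_nonneg (μ : Measure ℝ) (τ r x : ℝ) : 0 ≤ dlF μ τ r x :=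
  Real.rpow_nonneg measureReal_nonneg τ

theorem dlF_le (μ : Measure ℝ) [IsProbabilityMeasure μ] {τ : ℝ} (hτ : 0 ≤ τ) (r x : ℝ) :
    |dlF μ τ r x| ≤ 1 := by
  rw [abs_of_nonneg (dlF_nonneg μ τ r x)]
  exact Real.rpow_le_one measureReal_nonneg measureReal_le_one hτ

theorem dlF_int (μ : Measure ℝ) [IsProbabilityMeasure μ] {τ : ℝ} (hτ : 0 ≤ τ) (r : ℝ)
    {φ : ℝ → ℝ} (hφ : Measurable φ) : Integrable (fun x => dlF μ τ r (φ x)) μ :=
  Integrable.of_bound ((dlF_meas μ τ r).comp hφ).aestronglyMeasurable 1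
    (.of_forall fun _ => dlF_le μ hτ r _)

theorem dl_swap (n : ℕ) {G : List W → ℝ → ℝ} (hG : ∀ l, Integrable (G l) μ) :
    (EE p n fun l => ∫ x, G l x ∂μ) = ∫ x, EE p n (fun l => G l x) ∂μ := by
  simp only [EE_ofFn]
  rw [integral_finsetSum _ fun w _ => (hG _).const_mul _]
  simp only [integral_const_mul]

/-- The moment bound which is deduced from the cross-entropy bound. -/
def DlMom (a b p : W → ℝ) (K δ τ θ : ℝ) (M : ℕ) : Prop :=
  ∀ y : ℝ, |y| ≤ K → ∀ ν : Measure ℝ, IsProbabilityMeasure ν →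
    (EE p M fun l => ν.real (Metric.ball (wordMap a b l y) δ) ^ τ) ≤ θ

theorem dl_base (h : SS a b p μ) {K δ τ θ σ R α γ : ℝ} {M : ℕ}
    (hK : ∀ i, |b i| + |a i| * K ≤ K) (hδ : 0 < δ) (hδ1 : δ < 1) (hτ : 0 < τ) (hθ : 0 ≤ θ)
    (hσ : 0 < σ) (hσ1 : σ ≤ 1) (H : DlMom a b p K δ τ θ M) (hR : 0 < R) (h1 : σ * R ≤ |α|)
    (h2 : |α| ≤ R) : ∫ x, dlF μ τ (δ * σ * R) (α * x + γ) ∂μ ≤
      θ * ∫ x, dlF μ τ ((2 * K + 1) * R) (α * x + γ) ∂μ := by
  have := h.prob
  have hα : 0 < |α| := (mul_pos hσ hR).trans_le h1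
  have hα' : α ≠ 0 := abs_pos.1 hα
  set B := Metric.ball γ ((K + 1) * R) with hB
  have h3 : ∀ x, |x| ≤ K → dist (α * x + γ) γ ≤ K * R := fun x hx => by
    rw [Real.dist_eq, add_sub_cancel_right, abs_mul, mul_comm K]
    exact mul_le_mul h2 hx (abs_nonneg _) hR.le
  have h4 : ∀ x, |x| ≤ K → Metric.ball (α * x + γ) (δ * σ * R) ⊆ B := fun x hx => by
    refine Metric.ball_subset_ball' ?_
    have h5 : δ * σ ≤ 1 := mul_le_one₀ hδ1.le hσ.le hσ1
    linarith [h3 x hx, mul_le_mul_of_nonneg_right h5 hR.le]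
  have h6 : ∀ x, |x| ≤ K → B ⊆ Metric.ball (α * x + γ) ((2 * K + 1) * R) := fun x hx => by
    refine Metric.ball_subset_ball' ?_
    rw [dist_comm]
    linarith [h3 x hx]
  have h7 : μ.real B ^ τ ≤ ∫ x, dlF μ τ ((2 * K + 1) * R) (α * x + γ) ∂μ := by
    refine le_trans (le_of_eq (by simp)) (integral_mono_ae (integrable_const (μ.real B ^ τ))
      (dlF_int μ hτ.le _ (by fun_prop)) ?_)
    filter_upwards [h.supp hK] with x hx
    exact Real.rpow_le_rpow measureReal_nonneg (measureReal_mono (h6 x hx)) hτ.le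
  refine le_trans ?_ (mul_le_mul_of_nonneg_left h7 hθ)
  obtain ⟨ν, hν, h8⟩ : ∃ ν : Measure ℝ, IsProbabilityMeasure ν ∧ ∀ x, |x| ≤ K →
      μ.real (Metric.ball (α * x + γ) (δ * σ * R)) ≤ μ.real B * ν.real (Metric.ball x δ) := by
    by_cases h0 : μ B = 0
    · refine ⟨μ, this, fun x hx => (measureReal_mono (h4 x hx)).trans ?_⟩
      simp [Measure.real, h0]
    have hm : Measurable fun z : ℝ => (z - γ) / α := by fun_prop
    have := ProbabilityTheory.cond_isProbabilityMeasure h0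
    refine ⟨(ProbabilityTheory.cond μ B).map fun z => (z - γ) / α,
      Measure.isProbabilityMeasure_map hm.aemeasurable, fun x hx => ?_⟩
    rw [Measure.real, Measure.real, Measure.real, ← ENNReal.toReal_mul,
      Measure.map_apply hm Metric.isOpen_ball.measurableSet,
      ProbabilityTheory.cond_apply Metric.isOpen_ball.measurableSet, ← mul_assoc,
      ENNReal.mul_inv_cancel h0 (measure_ne_top _ _), one_mul]
    refine ENNReal.toReal_mono (measure_ne_top _ _) (measure_mono fun z hz => ⟨h4 x hx hz, ?_⟩)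
    rw [Metric.mem_ball, Real.dist_eq] at hz
    have h9 : (z - γ) / α - x = (z - (α * x + γ)) / α := by field_simp; ring
    rw [Set.mem_preimage, Metric.mem_ball, Real.dist_eq, h9, abs_div, div_lt_iff₀ hα]
    linarith [mul_le_mul_of_nonneg_left h1 hδ.le]
  rw [h.integral_eq M (F := fun x => dlF μ τ (δ * σ * R) (α * x + γ))
    ((dlF_meas μ τ _).comp (by fun_prop)) fun _ => dlF_le μ hτ.le _ _,
    dl_swap M fun l => dlF_int μ hτ.le _
      (((measurable_wordMap l).const_mul α).add_const γ)]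
  refine (integral_mono_of_nonneg (.of_forall fun x => le_EE h.pv fun _ _ => dlF_nonneg _ _ _ _)
    (integrable_const (θ * μ.real B ^ τ)) ?_).trans (le_of_eq (by simp))
  filter_upwards [h.supp hK] with x hx
  refine (EE_mono h.pv (g := fun l => μ.real B ^ τ *
    ν.real (Metric.ball (wordMap a b l x) δ) ^ τ) fun l _ => ?_).trans ?_
  · rw [← Real.mul_rpow measureReal_nonneg measureReal_nonneg]
    exact Real.rpow_le_rpow measureReal_nonneg (h8 _ (abs_wordMap_le hK l hx)) hτ.le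
  · rw [EE_mul, mul_comm θ]
    exact mul_le_mul_of_nonneg_left (H x hx ν hν) (Real.rpow_nonneg measureReal_nonneg τ)

theorem dl_step (h : SS a b p μ) {K δ τ θ σ ρ R : ℝ} {M : ℕ}
    (hK : ∀ i, |b i| + |a i| * K ≤ K) (hδ : 0 < δ) (hδ1 : δ < 1) (hτ : 0 < τ) (hθ : 0 ≤ θ)
    (hσ : 0 < σ) (hσ1 : σ ≤ 1) (hρ : ∀ i, σ ≤ |a i| ∧ |a i| ≤ ρ) (H : DlMom a b p K δ τ θ M)
    (hR : 0 < R) (n : ℕ) : ∀ α γ : ℝ, σ * R ≤ |α| → |α| * ρ ^ n ≤ R →
      ∫ x, dlF μ τ (δ * σ * R) (α * x + γ) ∂μ ≤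
        θ * ∫ x, dlF μ τ ((2 * K + 1) * R) (α * x + γ) ∂μ := by
  have := h.prob
  induction n with
  | zero => exact fun α γ h1 h2 => dl_base h hK hδ hδ1 hτ hθ hσ hσ1 H hR h1 (by simpa using h2)
  | succ n ih =>
    intro α γ h1 h2
    rcases le_or_gt |α| R with h3 | h3
    · exact dl_base h hK hδ hδ1 hτ hθ hσ hσ1 H hR h1 h3
    have h4 : ∀ r, ∫ x, dlF μ τ r (α * x + γ) ∂μ =
        ∑ i, p i * ∫ x, dlF μ τ r (α * a i * x + (α * b i + γ)) ∂μ := fun r => by
      rw [h.integral_step (F := fun x => dlF μ τ r (α * x + γ))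
        ((dlF_meas μ τ _).comp (by fun_prop)) fun _ => dlF_le μ hτ.le _ _]
      simp only [mul_add, mul_assoc, add_assoc]
    rw [h4, h4, mul_sum]
    refine sum_le_sum fun i _ => ?_
    rw [mul_left_comm]
    refine mul_le_mul_of_nonneg_left (ih _ _ ?_ ?_) (h.pv.pos i).le
    · rw [abs_mul, mul_comm σ]
      exact mul_le_mul h3.le (hρ i).1 hσ.le (abs_nonneg _)
    · refine le_trans ?_ h2
      rw [abs_mul, pow_succ', mul_assoc]
      exact mul_le_mul_of_nonneg_left (mul_le_mul_of_nonneg_right (hρ i).2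
        (pow_nonneg ((abs_nonneg _).trans (hρ i).2) n)) (abs_nonneg _)

theorem dl_mass [IsProbabilityMeasure μ] {κ s : ℝ} (hκ : 0 < κ) (hκ1 : κ < 1) (hs : 0 < s)
    (h : ∀ᵐ x ∂μ, ∀ᶠ k : ℕ in atTop, μ.real (Metric.ball x (κ ^ k)) < (κ ^ k) ^ s) :
    ENNReal.ofReal s ≤ measureDim μ := by
  refine le_iInf fun E => le_iInf fun hE => le_iInf fun hE0 => ?_
  let G : ℕ → Set ℝ := fun k₀ => E ∩ ⋂ k, ⋂ _ : k₀ ≤ k,
    {x | μ.real (Metric.ball x (κ ^ k)) < (κ ^ k) ^ s}
  have hG : ∀ k₀, MeasurableSet (G k₀) := fun k₀ => hE.inter (.iInter fun k => .iInter fun _ =>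
    measurableSet_lt (dl_meas_ball μ _) measurable_const)
  have h1 : μ (⋃ k₀, G k₀) ≠ 0 := by
    refine (hE0.trans_le (measure_mono_ae ?_)).ne'
    filter_upwards [h] with x hx hxE
    obtain ⟨k₀, hk⟩ := eventually_atTop.1 hx
    exact Set.mem_iUnion.2 ⟨k₀, hxE, Set.mem_iInter₂.2 hk⟩
  obtain ⟨k₀, hk₀⟩ := exists_measure_pos_of_not_measure_iUnion_null h1
  have h2 := Measure.le_hausdorffMeasure s (ENNReal.ofReal ((κ ^ 2) ^ s) • μ.restrict (G k₀))
    (ENNReal.ofReal (κ ^ (k₀ + 1))) (ENNReal.ofReal_pos.2 (by positivity)) fun S hS => by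
      rw [Measure.smul_apply, Measure.restrict_apply' (hG k₀), smul_eq_mul]
      rcases (S ∩ G k₀).eq_empty_or_nonempty with h0 | ⟨x, hxS, hxG⟩
      · simp [h0]
      have hfin : Metric.ediam S ≠ ∞ := ne_top_of_le_ne_top ENNReal.ofReal_ne_top hS
      have hD : Metric.diam S ≤ κ ^ (k₀ + 1) := ENNReal.toReal_le_of_le_ofReal (by positivity) hS
      have h3 : ∀ k, k₀ ≤ k → Metric.diam S < κ ^ k → μ.real (S ∩ G k₀) ≤ (κ ^ k) ^ s :=
        fun k hk hk' => (measureReal_mono fun y hy =>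
          (Metric.dist_le_diam_of_mem' hfin hy.1 hxS).trans_lt hk').trans
            (Set.mem_iInter₂.1 hxG.2 k hk).le
      rw [← ofReal_measureReal (μ := μ), ← ENNReal.ofReal_mul (by positivity),
        ← ENNReal.ofReal_toReal hfin, ENNReal.ofReal_rpow_of_nonneg ENNReal.toReal_nonneg hs.le]
      refine ENNReal.ofReal_le_ofReal ?_
      change _ ≤ Metric.diam S ^ s
      rcases (Metric.diam_nonneg (s := S)).eq_or_lt with h4 | h4
      · have h5 : Tendsto (fun k : ℕ => (κ ^ k) ^ s) atTop (𝓝 0) :=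
          (tendsto_pow_atTop_nhds_zero_of_lt_one hκ.le hκ1).rpow_const_nhds_zero hs
        have h6 : μ.real (S ∩ G k₀) ≤ 0 := ge_of_tendsto h5 (eventually_atTop.2
          ⟨k₀, fun k hk => h3 k hk (by rw [← h4]; positivity)⟩)
        exact (mul_nonpos_of_nonneg_of_nonpos (by positivity) h6).trans
          (Real.rpow_nonneg Metric.diam_nonneg s)
      · have h5 : Metric.diam S / κ ≤ 1 := by
          rw [div_le_one hκ]
          exact hD.trans (pow_le_of_le_one hκ.le hκ1.le (by omega))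
        obtain ⟨n, h6, h7⟩ := exists_nat_pow_near_of_lt_one (div_pos h4 hκ) h5 hκ hκ1
        rw [lt_div_iff₀ hκ, ← pow_succ] at h6
        rw [div_le_iff₀ hκ] at h7
        have h8 : k₀ + 1 < n + 1 + 1 := (pow_lt_pow_iff_right_of_lt_one₀ hκ hκ1).1 (h6.trans_le hD)
        have h9 := h3 n (by omega) (h7.trans_lt (mul_lt_of_lt_one_right (by positivity) hκ1))
        refine (mul_le_mul_of_nonneg_left h9 (by positivity)).trans ?_
        rw [← Real.mul_rpow (by positivity) (by positivity), ← pow_add, add_comm]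
        exact Real.rpow_le_rpow (by positivity) h6.le hs.le
  by_contra h10
  lift s to NNReal using hs.le
  rw [ENNReal.ofReal_coe_nnreal, not_le] at h10
  have h11 := (Measure.le_iff'.1 h2 (G k₀)).trans (measure_mono (Set.inter_subset_left))
  rw [hausdorffMeasure_of_dimH_lt h10, Measure.smul_apply, Measure.restrict_apply_self,
    smul_eq_mul, nonpos_iff_eq_zero] at h11
  exact mul_ne_zero (ENNReal.ofReal_pos.2 (by positivity)).ne' hk₀.ne' h11

theorem dim_lower (h : SS a b p μ) {K s : ℝ} (hK1 : 1 ≤ K) (hK : ∀ i, |b i| + |a i| * K ≤ K)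
    (hs : 0 < s) (H : Cross a b p K s) : ENNReal.ofReal s ≤ measureDim μ := by
  have := h.prob
  obtain ⟨ρ, σ, hσ, hρ, hρσ⟩ := h.exists_rho
  obtain ⟨i₀⟩ := h.pv.nonempty
  have hσ1 : σ ≤ 1 := (hρσ i₀).1.trans (h.a1 i₀).le
  have hK2 : 0 < 2 * K + 1 := by linarith
  obtain ⟨δ, hδ, hδ1, M, hM⟩ := H (s * -Real.log (σ / (2 * K + 1)) + 3 / 2)
  set τ := ((1 - Real.log δ) ^ 2)⁻¹ with hτd
  have hτ : 0 < τ := by
    have : 0 < 1 - Real.log δ := by linarith [Real.log_nonpos hδ.le hδ1.le]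
    positivity
  set κ := δ * (σ / (2 * K + 1)) with hκd
  have hκ : 0 < κ := by positivity
  have hκ1 : κ < 1 := mul_lt_one_of_nonneg_of_lt_one_left hδ.le hδ1
    ((div_le_one hK2).2 (by linarith))
  have hmom : DlMom a b p K δ τ (Real.exp (τ * (Real.log κ * s - 1 / 2))) M := by
    intro y hy ν hν
    refine (dl_moment h.pv hδ hδ1 (fun _ => measureReal_nonneg) (fun _ => measureReal_le_one)
      (hM y hy ν hν)).trans (le_of_eq ?_)
    rw [hκd, Real.log_mul hδ.ne' (by positivity)]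
    congr 2
    ring
  have h1 : ∀ k : ℕ, ∫ x, dlF μ τ (κ ^ k) x ∂μ ≤ Real.exp (τ * (Real.log κ * s - 1 / 2)) ^ k := by
    intro k
    induction k with
    | zero =>
      refine (integral_mono (dlF_int μ hτ.le _ measurable_id) (integrable_const 1)
        fun x => (le_abs_self _).trans (dlF_le μ hτ.le _ _)).trans (le_of_eq (by simp))
    | succ k ih =>
      have hR : 0 < κ ^ k / (2 * K + 1) := by positivity
      have hR1 : κ ^ k / (2 * K + 1) ≤ 1 :=
        (div_le_one hK2).2 ((pow_le_one₀ hκ.le hκ1.le).trans (by linarith))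
      obtain ⟨n, hn⟩ := exists_pow_lt_of_lt_one hR hρ
      have h2 := dl_step h hK hδ hδ1 hτ (Real.exp_pos _).le hσ hσ1 hρσ hmom hR n 1 0
        (by rw [abs_one]; exact mul_le_one₀ hσ1 hR.le hR1) (by simpa using hn.le)
      have h3 : δ * σ * (κ ^ k / (2 * K + 1)) = κ ^ (k + 1) := by
        rw [pow_succ, hκd]
        ring
      rw [h3, mul_div_cancel₀ _ hK2.ne'] at h2
      simp only [one_mul, add_zero] at h2
      rw [pow_succ' (Real.exp _)]
      exact h2.trans (mul_le_mul_of_nonneg_left ih (Real.exp_pos _).le)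
  have h4 : ∀ k : ℕ, μ {x | (κ ^ k) ^ s ≤ μ.real (Metric.ball x (κ ^ k))} ≤
      ENNReal.ofReal (Real.exp (-(τ / 2)) ^ k) := fun k => by
    rw [← ofReal_measureReal (μ := μ)]
    refine ENNReal.ofReal_le_ofReal ?_
    have h5 := (mul_meas_ge_le_integral_of_nonneg (.of_forall (dlF_nonneg μ τ (κ ^ k)))
      (dlF_int μ hτ.le _ measurable_id) (((κ ^ k) ^ s) ^ τ)).trans (h1 k)
    have h6 : Real.exp (τ * (Real.log κ * s - 1 / 2)) ^ k =
        ((κ ^ k) ^ s) ^ τ * Real.exp (-(τ / 2)) ^ k := by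
      rw [← Real.rpow_mul (by positivity), Real.rpow_def_of_pos (by positivity), Real.log_pow,
        ← Real.exp_nat_mul, ← Real.exp_nat_mul, ← Real.exp_add]
      congr 1
      ring
    rw [h6] at h5
    refine le_trans (measureReal_mono fun x hx => ?_) (le_of_mul_le_mul_left h5 (by positivity))
    exact Real.rpow_le_rpow (by positivity) hx hτ.le
  have h7 : ∑' k : ℕ, μ {x | (κ ^ k) ^ s ≤ μ.real (Metric.ball x (κ ^ k))} ≠ ∞ := by
    refine ne_top_of_le_ne_top ?_ (ENNReal.tsum_le_tsum h4)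
    rw [← ENNReal.ofReal_tsum_of_nonneg (fun _ => by positivity) (summable_geometric_of_lt_one
      (Real.exp_pos _).le (Real.exp_lt_one_iff.2 (by linarith)))]
    exact ENNReal.ofReal_ne_top
  refine dl_mass hκ hκ1 hs ?_
  filter_upwards [ae_eventually_notMem h7] with x hx
  exact hx.mono fun k hk => not_le.1 hk

end Vale.Agent.P114
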