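import Vale.Agent.P114.EE

/-! The upper bound for the dimension of a self-similar measure. -/

namespace Vale.Agent.P114

open MeasureTheory Finset Filter Topology
open scoped ENNReal

variable {W : Type} [Fintype W] {a b p : W → ℝ} {μ : Measure ℝ}

open Classical in
theorem du_same (hp : PV p) {q : W → ℝ} (hq0 : ∀ i, 0 < q i)
    (hq : ∀ i, q i ≤ ∑ j with a j = a i ∧ b j = b i, p j) (l : List W) :
    (l.map q).prod ≤ EE p l.length fun l' => if wordMap a b l' = wordMap a b l then 1 else 0 := by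
  induction l with
  | nil => simp [EE_zero]
  | cons i l ih =>
    have h0 : 0 ≤ (l.map q).prod := List.prod_nonneg fun x hx => by
      obtain ⟨j, -, rfl⟩ := List.mem_map.1 hx
      exact (hq0 j).le
    rw [List.map_cons, List.prod_cons, List.length_cons, EE_succ]
    refine (mul_le_mul_of_nonneg_right (hq i) h0).trans ?_
    rw [sum_mul]
    refine le_trans (sum_le_sum fun j hj => mul_le_mul_of_nonneg_left ?_ (hp.pos j).le)
      (sum_le_sum_of_subset_of_nonneg (filter_subset _ _) fun j _ _ =>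
        mul_nonneg (hp.pos j).le (le_EE hp fun l' _ => by split_ifs <;> norm_num))
    refine ih.trans (EE_mono hp fun l' _ => ?_)
    obtain ⟨h1, h2⟩ := (mem_filter.1 hj).2
    by_cases h3 : wordMap a b l' = wordMap a b l
    · rw [if_pos h3, if_pos (by simp only [wordMap, h1, h2, h3])]
    · rw [if_neg h3]
      split_ifs <;> norm_num

omit [Fintype W] in
theorem du_exp (ha : ∀ i, a i ≠ 0) {q : W → ℝ} (hq0 : ∀ i, 0 < q i) (d : ℝ) (l : List W) :
    Real.exp (l.map fun i => Real.log (q i) - d * Real.log |a i|).sum * |(l.map a).prod| ^ d =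
      (l.map q).prod := by
  induction l with
  | nil => simp
  | cons i l ih =>
    have h1 : 0 < |a i| := abs_pos.2 (ha i)
    have h2 : Real.exp (Real.log (q i) - d * Real.log |a i|) * |a i| ^ d = q i := by
      rw [Real.rpow_def_of_pos h1, ← Real.exp_add, mul_comm d, sub_add_cancel,
        Real.exp_log (hq0 i)]
    simp only [List.map_cons, List.sum_cons, List.prod_cons]
    rw [Real.exp_add, abs_mul, Real.mul_rpow h1.le (abs_nonneg _), ← ih, ← h2]
    rw [h2]
    linear_combination (Real.exp (l.map fun i => Real.log (q i) - d * Real.log |a i|).sum *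
      |(l.map a).prod| ^ d) * h2

omit [Fintype W] in
theorem du_prod_le {ρ : ℝ} (h : ∀ i, |a i| ≤ ρ) (l : List W) :
    |(l.map a).prod| ≤ ρ ^ l.length := by
  induction l with
  | nil => simp
  | cons i l ih =>
    rw [List.map_cons, List.prod_cons, abs_mul, List.length_cons, pow_succ']
    exact mul_le_mul (h i) ih (abs_nonneg _) ((abs_nonneg _).trans (h i))

/-- The interval attached to an affine map. -/
def duI (K : ℝ) (g : ℝ → ℝ) : Set ℝ :=
  Set.Icc (g 0 - |g 1 - g 0| * K) (g 0 + |g 1 - g 0| * K)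

theorem du_ediam (K : ℝ) (g : ℝ → ℝ) :
    Metric.ediam (duI K g) = ENNReal.ofReal (|g 1 - g 0| * (2 * K)) := by
  rw [duI, Real.ediam_Icc]
  congr 1
  ring

omit [Fintype W] in
theorem du_slope (l : List W) : wordMap a b l 1 - wordMap a b l 0 = (l.map a).prod := by
  rw [wordMap_apply l 1]
  ring

omit [Fintype W] in
theorem du_mem {K x : ℝ} (hx : |x| ≤ K) (l : List W) : wordMap a b l x ∈ duI K (wordMap a b l) := by
  have h1 : |(l.map a).prod * x| ≤ |(l.map a).prod| * K := by
    rw [abs_mul]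
    exact mul_le_mul_of_nonneg_left hx (abs_nonneg _)
  rw [duI, du_slope, wordMap_apply l x]
  constructor <;> linarith [(abs_le.1 h1).1, (abs_le.1 h1).2]

open Classical in
/-- The distinct maps given by the typical words of length `n`. -/
noncomputable def duG (a b u : W → ℝ) (n : ℕ) : Finset (ℝ → ℝ) :=
  (univ.filter fun w : Fin n → W => 0 ≤ ((List.ofFn w).map u).sum).image
    fun w => wordMap a b (List.ofFn w)

theorem du_mem_G {u : W → ℝ} {n : ℕ} {g : ℝ → ℝ} : g ∈ duG a b u n ↔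
    ∃ l : List W, l.length = n ∧ 0 ≤ (l.map u).sum ∧ wordMap a b l = g := by
  simp only [duG, mem_image, mem_filter, mem_univ, true_and]
  constructor
  · rintro ⟨w, h1, h2⟩
    exact ⟨_, List.length_ofFn, h1, h2⟩
  · rintro ⟨l, rfl, h1, h2⟩
    exact ⟨l.get, by rwa [List.ofFn_get], by rwa [List.ofFn_get]⟩

theorem du_compl (h : SS a b p μ) {K : ℝ} (hK : ∀ i, |b i| + |a i| * K ≤ K) {u : W → ℝ}
    (hc : 0 < ∑ i, p i * u i) {n : ℕ} (hn : 0 < n) :
    μ.real (⋃ g ∈ duG a b u n, duI K g)ᶜ ≤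
      (∑ i, p i * (u i - ∑ i, p i * u i) ^ 2) / (∑ i, p i * u i) ^ 2 / n := by
  have := h.prob
  set c := ∑ i, p i * u i with hcd
  have hn' : (0 : ℝ) < n := Nat.cast_pos.2 hn
  have hnc : 0 < n * c := mul_pos hn' hc
  have hm : MeasurableSet (⋃ g ∈ duG a b u n, duI K g) :=
    Finset.measurableSet_biUnion _ fun _ _ => measurableSet_Icc
  rw [h.real_eq n hm.compl]
  refine (EE_mono h.pv (g := fun l => ((n * c) ^ 2)⁻¹ * ((l.map u).sum - n * c) ^ 2)
    fun l hl => ?_).trans (le_of_eq ?_)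
  · by_cases h1 : 0 ≤ (l.map u).sum
    · have h2 : μ (wordMap a b l ⁻¹' (⋃ g ∈ duG a b u n, duI K g)ᶜ) = 0 := by
        refine measure_mono_null (fun x hx => ?_) (ae_iff.1 (h.supp hK))
        exact fun hx' : |x| ≤ K =>
          hx (Set.mem_biUnion (du_mem_G.2 ⟨l, hl, h1, rfl⟩) (du_mem hx' l))
      rw [Measure.real, h2, ENNReal.toReal_zero]
      positivity
    · refine measureReal_le_one.trans ?_
      rw [inv_mul_eq_div, one_le_div (by positivity)]
      nlinarith [not_le.1 h1]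
  · rw [EE_mul, EE_var h.pv, ← hcd]
    field_simp

open Classical in
theorem du_sum (h : SS a b p μ) {q : W → ℝ} (hq0 : ∀ i, 0 < q i)
    (hq : ∀ i, q i ≤ ∑ j with a j = a i ∧ b j = b i, p j) {d : ℝ} (hd0 : 0 ≤ d) {K : ℝ}
    (hK : 0 ≤ K) (n : ℕ) :
    ∑ g : duG a b (fun i => Real.log (q i) - d * Real.log |a i|) n,
      Metric.ediam (duI K g) ^ d ≤ ENNReal.ofReal ((2 * K) ^ d) := by
  set G := duG a b (fun i => Real.log (q i) - d * Real.log |a i|) n
  have h1 : ∀ g ∈ G, |g 1 - g 0| ^ d ≤ EE p n fun l' => if wordMap a b l' = g then 1 else 0 := by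
    intro g hg
    obtain ⟨l, rfl, h2, rfl⟩ := du_mem_G.1 hg
    refine le_trans ?_ (du_same h.pv hq0 hq l)
    rw [du_slope, ← du_exp h.a0 hq0 d l]
    exact le_mul_of_one_le_left (by positivity) (Real.one_le_exp h2)
  have h2 : ∑ g ∈ G, |g 1 - g 0| ^ d ≤ 1 := by
    refine (sum_le_sum h1).trans ?_
    rw [← EE_sum]
    refine EE_le h.pv fun l _ => ?_
    rw [sum_ite_eq]
    split_ifs <;> norm_num
  rw [sum_coe_sort G fun g => Metric.ediam (duI K g) ^ d]
  simp only [du_ediam]
  rw [sum_congr rfl fun g _ => ENNReal.ofReal_rpow_of_nonneg (by positivity) hd0,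
    ← ENNReal.ofReal_sum_of_nonneg fun g _ => by positivity]
  refine ENNReal.ofReal_le_ofReal ?_
  rw [sum_congr rfl fun g _ => Real.mul_rpow (abs_nonneg _) (by positivity), ← sum_mul]
  exact mul_le_of_le_one_left (by positivity) h2

open Classical in
theorem dim_upper (h : SS a b p μ) {q : W → ℝ} (hq0 : ∀ i, 0 < q i)
    (hq : ∀ i, q i ≤ ∑ j with a j = a i ∧ b j = b i, p j) {d : ℝ} (hd0 : 0 ≤ d)
    (hd : ∑ i, p i * -Real.log (q i) < d * ∑ i, p i * -Real.log |a i|) :
    measureDim μ ≤ ENNReal.ofReal d := by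
  have := h.prob
  obtain ⟨K, hK1, hK⟩ := h.exists_K
  obtain ⟨ρ, σ, hσ, hρ, hρσ⟩ := h.exists_rho
  obtain ⟨i₀⟩ := h.pv.nonempty
  have hρ0 : 0 ≤ ρ := (abs_nonneg _).trans (hρσ i₀).2
  set u : W → ℝ := fun i => Real.log (q i) - d * Real.log |a i| with hu
  have hc : 0 < ∑ i, p i * u i := by
    have h1 : ∑ i, p i * u i =
        d * ∑ i, p i * -Real.log |a i| - ∑ i, p i * -Real.log (q i) := by
      rw [mul_sum, ← sum_sub_distrib]
      exact sum_congr rfl fun i _ => by ring
    linarith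
  set V := (∑ i, p i * (u i - ∑ i, p i * u i) ^ 2) / (∑ i, p i * u i) ^ 2
  have h1 : ∀ k : ℕ, ∃ n : ℕ, k < n ∧ V / n ≤ 1 / 2 / 2 / 2 ^ k := fun k => by
    have h2 := (tendsto_const_div_atTop_nhds_zero_nat V).eventually_le_const
      (show (0 : ℝ) < 1 / 2 / 2 / 2 ^ k by positivity)
    exact ((eventually_gt_atTop k).and h2).exists
  choose n hn hn' using h1
  let E : ℕ → Set ℝ := fun k => ⋃ g ∈ duG a b u (n k), duI K g
  have hE : ∀ k, MeasurableSet (E k) := fun k =>
    Finset.measurableSet_biUnion _ fun _ _ => measurableSet_Icc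
  have h3 : μ (⋂ k, E k)ᶜ ≤ ENNReal.ofReal (1 / 2) := by
    rw [Set.compl_iInter, ← tsum_geometric_two' (1 / 2),
      ENNReal.ofReal_tsum_of_nonneg (fun _ => by positivity) (summable_geometric_two' _)]
    refine (measure_iUnion_le _).trans (ENNReal.tsum_le_tsum fun k => ?_)
    rw [← ofReal_measureReal (μ := μ)]
    exact ENNReal.ofReal_le_ofReal
      ((du_compl h hK hc ((Nat.zero_le k).trans_lt (hn k))).trans (hn' k))
  have h4 : 0 < μ (⋂ k, E k) := by
    refine pos_iff_ne_zero.2 fun h0 => ?_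
    rw [prob_compl_eq_one_sub (MeasurableSet.iInter hE), h0, tsub_zero, ENNReal.one_le_ofReal] at h3
    norm_num at h3
  refine (iInf₂_le_of_le (⋂ k, E k) (MeasurableSet.iInter hE) (iInf_le _ h4)).trans ?_
  have h5 : Tendsto (fun k : ℕ => ENNReal.ofReal (ρ ^ k * (2 * K))) atTop (𝓝 0) := by
    have h6 := ENNReal.tendsto_ofReal
      ((tendsto_pow_atTop_nhds_zero_of_lt_one hρ0 hρ).mul_const (2 * K))
    rwa [zero_mul, ENNReal.ofReal_zero] at h6
  have h7 := Measure.hausdorffMeasure_le_liminf_sum (ι := fun k => duG a b u (n k)) d (⋂ k, E k)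
    _ h5 (fun k g => duI K g) (.of_forall fun k g => by
      obtain ⟨l, hl, -, hg⟩ := du_mem_G.1 g.2
      rw [du_ediam, ← hg, du_slope]
      refine ENNReal.ofReal_le_ofReal (mul_le_mul_of_nonneg_right ?_ (by linarith))
      refine (du_prod_le (fun i => (hρσ i).2) l).trans ?_
      exact pow_le_pow_of_le_one hρ0 hρ.le (hl ▸ (hn k).le))
    (.of_forall fun k x hx => by
      obtain ⟨g, hg, hx'⟩ := Set.mem_iUnion₂.1 (Set.mem_iInter.1 hx k)
      exact Set.mem_iUnion.2 ⟨⟨g, hg⟩, hx'⟩)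
  have h8 := h7.trans (liminf_le_of_frequently_le' (.of_forall fun k =>
    du_sum h hq0 hq hd0 (by linarith) (n k)))
  lift d to NNReal using hd0
  rw [ENNReal.ofReal_coe_nnreal]
  exact dimH_le_of_hausdorffMeasure_ne_top (ne_top_of_le_ne_top ENNReal.ofReal_ne_top h8)

end Vale.Agent.P114
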