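import Vale.Agent.P114.Defs

/-! Expectations over random words. -/

namespace Vale.Agent.P114

open MeasureTheory Finset
open scoped ENNReal

variable {W : Type} [Fintype W]

/-- Expectation over words of length `n` with independent letters. -/
noncomputable def EE (p : W → ℝ) : ℕ → (List W → ℝ) → ℝ
  | 0, f => f []
  | n + 1, f => ∑ i, p i * EE p n fun l => f (i :: l)

/-- Positive probability vectors. -/
structure PV (p : W → ℝ) : Prop where
  pos : ∀ i, 0 < p i
  sum : ∑ i, p i = 1

/-- The standing hypotheses: a contracting system and its self-similar measure. -/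
structure SS (a b p : W → ℝ) (μ : Measure ℝ) : Prop where
  pv : PV p
  a0 : ∀ i, a i ≠ 0
  a1 : ∀ i, |a i| < 1
  prob : IsProbabilityMeasure μ
  eq : μ = ∑ i, ENNReal.ofReal (p i) • μ.map fun x => a i * x + b i

variable {p : W → ℝ} {n : ℕ} {f g : List W → ℝ}

theorem EE_zero (f : List W → ℝ) : EE p 0 f = f [] := rfl

theorem EE_succ (n : ℕ) (f : List W → ℝ) :
    EE p (n + 1) f = ∑ i, p i * EE p n fun l => f (i :: l) := rfl

theorem EE_add (f g : List W → ℝ) : EE p n (fun l => f l + g l) = EE p n f + EE p n g := by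
  induction n generalizing f g with
  | zero => rfl
  | succ n ih => simp only [EE_succ, ih, mul_add, sum_add_distrib]

theorem EE_mul (c : ℝ) (f : List W → ℝ) : EE p n (fun l => c * f l) = c * EE p n f := by
  induction n generalizing f with
  | zero => rfl
  | succ n ih => simp only [EE_succ, ih, mul_sum, mul_left_comm]

theorem EE_neg (f : List W → ℝ) : EE p n (fun l => -f l) = -EE p n f := by
  simpa using EE_mul (p := p) (n := n) (-1) f

theorem EE_sub (f g : List W → ℝ) : EE p n (fun l => f l - g l) = EE p n f - EE p n g := by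
  simp only [sub_eq_add_neg, EE_add, EE_neg]

theorem EE_sum {ι : Type*} (s : Finset ι) (f : ι → List W → ℝ) :
    EE p n (fun l => ∑ j ∈ s, f j l) = ∑ j ∈ s, EE p n (f j) := by
  induction n generalizing f with
  | zero => rfl
  | succ n ih => simp only [EE_succ, ih, mul_sum]; rw [sum_comm]

theorem EE_congr (h : ∀ l, l.length = n → f l = g l) : EE p n f = EE p n g := by
  induction n generalizing f g with
  | zero => exact h [] rfl
  | succ n ih =>
    exact sum_congr rfl fun i _ => by rw [ih fun l hl => h (i :: l) (by simp [hl])]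

theorem EE_mono (hp : PV p) (h : ∀ l, l.length = n → f l ≤ g l) : EE p n f ≤ EE p n g := by
  induction n generalizing f g with
  | zero => exact h [] rfl
  | succ n ih =>
    exact sum_le_sum fun i _ => mul_le_mul_of_nonneg_left
      (ih fun l hl => h (i :: l) (by simp [hl])) (hp.pos i).le

theorem EE_const (hp : PV p) (c : ℝ) : EE p n (fun _ => c) = c := by
  induction n with
  | zero => rfl
  | succ n ih => simp only [EE_succ, ih, ← sum_mul, hp.sum, one_mul]

theorem EE_le (hp : PV p) {c : ℝ} (h : ∀ l, l.length = n → f l ≤ c) : EE p n f ≤ c :=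
  (EE_mono hp h).trans_eq (EE_const hp c)

theorem le_EE (hp : PV p) {c : ℝ} (h : ∀ l, l.length = n → c ≤ f l) : c ≤ EE p n f :=
  (EE_const hp c).symm.trans_le (EE_mono hp h)

theorem EE_append (n m : ℕ) (f : List W → ℝ) :
    EE p (n + m) f = EE p n fun l => EE p m fun l' => f (l ++ l') := by
  induction n generalizing f with
  | zero => simp [EE_zero]
  | succ n ih => rw [Nat.add_right_comm, EE_succ, EE_succ]; simp only [ih, List.cons_append]

theorem EE_ofFn (n : ℕ) (f : List W → ℝ) :
    EE p n f = ∑ w : Fin n → W, (∏ k, p (w k)) * f (List.ofFn w) := by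
  induction n generalizing f with
  | zero => simp [EE_zero]
  | succ n ih =>
    rw [EE_succ, ← (Fin.consEquiv fun _ : Fin (n + 1) => W).sum_comp, Fintype.sum_prod_type]
    refine sum_congr rfl fun i _ => ?_
    rw [ih, mul_sum]
    refine sum_congr rfl fun w _ => ?_
    simp [Fin.consEquiv, Fin.prod_univ_succ, mul_assoc]

theorem EE_block (m n : ℕ) (f : List W → ℝ) :
    EE p (n * m) f = EE (fun w : Fin m → W => ∏ k, p (w k)) n
      fun L => f (L.map List.ofFn).flatten := by
  induction n generalizing f with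
  | zero => simp [EE_zero]
  | succ n ih =>
    rw [Nat.succ_mul, Nat.add_comm, EE_append, EE_ofFn, EE_succ]
    simp only [ih, List.map_cons, List.flatten_cons]

theorem EE_map_sum (hp : PV p) (u : W → ℝ) :
    EE p n (fun l => (l.map u).sum) = n * ∑ i, p i * u i := by
  induction n with
  | zero => simp [EE_zero]
  | succ n ih =>
    simp only [EE_succ, List.map_cons, List.sum_cons, EE_add, EE_const hp, ih, mul_add,
      sum_add_distrib, ← sum_mul, hp.sum]
    push_cast
    ring

theorem EE_var (hp : PV p) (u : W → ℝ) :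
    EE p n (fun l => ((l.map u).sum - n * ∑ i, p i * u i) ^ 2) =
      n * ∑ i, p i * (u i - ∑ i, p i * u i) ^ 2 := by
  set c := ∑ i, p i * u i with hc
  induction n with
  | zero => simp [EE_zero]
  | succ n ih =>
    have h1 : ∀ (i : W) (l : List W), (((i :: l).map u).sum - ((n + 1 : ℕ) : ℝ) * c) ^ 2 =
        ((l.map u).sum - n * c) ^ 2 + ((2 * (u i - c)) * (l.map u).sum +
          ((u i - c) ^ 2 - 2 * (u i - c) * (n * c))) := fun i l => by
      simp only [List.map_cons, List.sum_cons]
      push_cast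
      ring
    simp only [EE_succ, h1, EE_add, EE_mul, EE_const hp, ih, EE_map_sum hp, ← hc]
    have h2 : ∀ i, p i * (n * ∑ i, p i * (u i - c) ^ 2 + (2 * (u i - c) * (n * c) +
        ((u i - c) ^ 2 - 2 * (u i - c) * (n * c)))) =
        p i * (n * ∑ i, p i * (u i - c) ^ 2) + p i * (u i - c) ^ 2 := fun i => by ring
    simp only [h2, sum_add_distrib, ← sum_mul, hp.sum]
    push_cast
    ring

theorem PV.block (hp : PV p) (m : ℕ) : PV fun w : Fin m → W => ∏ k, p (w k) := by
  refine ⟨fun w => prod_pos fun k _ => hp.pos _, ?_⟩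
  have := EE_ofFn (p := p) m fun _ => 1
  rw [EE_const hp] at this
  simpa using this.symm

theorem PV.nonempty (hp : PV p) : Nonempty W := by
  by_contra h
  rw [not_nonempty_iff] at h
  have := hp.sum
  simp at this

variable {a b : W → ℝ}

omit [Fintype W] in
theorem wordMap_apply (l : List W) (x : ℝ) :
    wordMap a b l x = (l.map a).prod * x + wordMap a b l 0 := by
  induction l with
  | nil => simp [wordMap]
  | cons i l ih =>
    simp only [wordMap, Function.comp, List.map_cons, List.prod_cons]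
    rw [ih]
    ring

omit [Fintype W] in
theorem wordMap_append (l l' : List W) :
    wordMap a b (l ++ l') = wordMap a b l ∘ wordMap a b l' := by
  induction l with
  | nil => rfl
  | cons i l ih => simp only [List.cons_append, wordMap, ih]; rfl

omit [Fintype W] in
theorem measurable_wordMap (l : List W) : Measurable (wordMap a b l) := by
  rw [funext (wordMap_apply (a := a) (b := b) l)]
  fun_prop

omit [Fintype W] in
theorem abs_wordMap_le {K : ℝ} (hK : ∀ i, |b i| + |a i| * K ≤ K) (l : List W) {y : ℝ}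
    (hy : |y| ≤ K) : |wordMap a b l y| ≤ K := by
  induction l with
  | nil => exact hy
  | cons i l ih =>
    simp only [wordMap, Function.comp]
    refine (abs_add_le _ _).trans ?_
    rw [abs_mul]
    have := mul_le_mul_of_nonneg_left ih (abs_nonneg (a i))
    linarith [hK i]

variable {μ : Measure ℝ}

theorem SS.exists_rho (h : SS a b p μ) :
    ∃ ρ σ : ℝ, 0 < σ ∧ ρ < 1 ∧ ∀ i, σ ≤ |a i| ∧ |a i| ≤ ρ := by
  have := h.pv.nonempty
  obtain ⟨i, -, hi⟩ := exists_max_image univ (fun i => |a i|) univ_nonempty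
  obtain ⟨j, -, hj⟩ := exists_min_image univ (fun i => |a i|) univ_nonempty
  exact ⟨|a i|, |a j|, abs_pos.2 (h.a0 j), h.a1 i,
    fun k => ⟨hj k (mem_univ _), hi k (mem_univ _)⟩⟩

theorem SS.exists_K (h : SS a b p μ) : ∃ K : ℝ, 1 ≤ K ∧ ∀ i, |b i| + |a i| * K ≤ K := by
  obtain ⟨ρ, σ, -, h1, h2⟩ := h.exists_rho
  have h3 : 0 < 1 - ρ := by linarith
  have h4 : 0 ≤ (∑ i, |b i|) / (1 - ρ) := div_nonneg (sum_nonneg fun _ _ => abs_nonneg _) h3.le
  refine ⟨1 + (∑ i, |b i|) / (1 - ρ), by linarith, fun i => ?_⟩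
  have h5 : |b i| ≤ ∑ i, |b i| :=
    single_le_sum (f := fun i => |b i|) (fun _ _ => abs_nonneg _) (mem_univ i)
  have h6 := mul_le_mul_of_nonneg_right (h2 i).2 (by linarith : 0 ≤ 1 + (∑ i, |b i|) / (1 - ρ))
  have h7 : (1 - ρ) * ((∑ i, |b i|) / (1 - ρ)) = ∑ i, |b i| := mul_div_cancel₀ _ h3.ne'
  nlinarith

theorem SS.real_step (h : SS a b p μ) {S : Set ℝ} (hS : MeasurableSet S) :
    μ.real S = ∑ i, p i * μ.real ((fun x => a i * x + b i) ⁻¹' S) := by
  have := h.prob
  conv_lhs => rw [Measure.real, h.eq]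
  rw [Measure.coe_finsetSum, Finset.sum_apply, ENNReal.toReal_sum]
  · refine sum_congr rfl fun i _ => ?_
    rw [Measure.smul_apply, Measure.map_apply (by fun_prop) hS, smul_eq_mul, ENNReal.toReal_mul,
      ENNReal.toReal_ofReal (h.pv.pos i).le, Measure.real]
  · intro i _
    rw [Measure.smul_apply, smul_eq_mul]
    exact ENNReal.mul_ne_top ENNReal.ofReal_ne_top (measure_ne_top _ _)

theorem SS.real_eq (h : SS a b p μ) (n : ℕ) {S : Set ℝ} (hS : MeasurableSet S) :
    μ.real S = EE p n fun l => μ.real (wordMap a b l ⁻¹' S) := by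
  induction n generalizing S with
  | zero => rfl
  | succ n ih =>
    rw [h.real_step hS, EE_succ]
    refine sum_congr rfl fun i _ => ?_
    rw [ih (measurableSet_preimage (by fun_prop) hS)]
    rfl

theorem SS.integral_step (h : SS a b p μ) {F : ℝ → ℝ} (hF : Measurable F) {C : ℝ}
    (hC : ∀ x, |F x| ≤ C) : ∫ x, F x ∂μ = ∑ i, p i * ∫ x, F (a i * x + b i) ∂μ := by
  have := h.prob
  conv_lhs => rw [h.eq]
  rw [integral_finsetSum_measure]
  · refine sum_congr rfl fun i _ => ?_
    rw [integral_smul_measure, integral_map (by fun_prop) hF.aestronglyMeasurable,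
      ENNReal.toReal_ofReal (h.pv.pos i).le, smul_eq_mul]
  · intro i _
    refine Integrable.smul_measure ?_ ENNReal.ofReal_ne_top
    exact Integrable.of_bound hF.aestronglyMeasurable C (.of_forall hC)

theorem SS.integral_eq (h : SS a b p μ) (n : ℕ) {F : ℝ → ℝ} (hF : Measurable F) {C : ℝ}
    (hC : ∀ x, |F x| ≤ C) : ∫ x, F x ∂μ = EE p n fun l => ∫ x, F (wordMap a b l x) ∂μ := by
  induction n generalizing F with
  | zero => rfl
  | succ n ih =>
    rw [h.integral_step hF hC, EE_succ]
    refine sum_congr rfl fun i _ => ?_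
    rw [ih (F := fun x => F (a i * x + b i)) (by fun_prop) fun x => hC _]
    rfl

theorem SS.supp (h : SS a b p μ) {K : ℝ} (hK : ∀ i, |b i| + |a i| * K ≤ K) :
    ∀ᵐ x ∂μ, |x| ≤ K := by
  have := h.prob
  obtain ⟨ρ, σ, h0, h1, h2⟩ := h.exists_rho
  obtain ⟨i0⟩ := h.pv.nonempty
  have hρ : 0 < ρ := h0.trans_le ((h2 i0).1.trans (h2 i0).2)
  have hK0 : 0 ≤ K := by
    have := hK i0
    have h3 := h.a1 i0
    by_contra hn
    nlinarith [abs_nonneg (b i0), abs_nonneg (a i0)]
  have hm : ∀ y : ℝ, MeasurableSet {x : ℝ | K + y < |x|} := fun y =>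
    measurableSet_lt measurable_const (by fun_prop)
  have step : ∀ y : ℝ, 0 < y →
      μ.real {x | K + y < |x|} ≤ μ.real {x | K + y / ρ < |x|} := fun y hy => by
    rw [h.real_step (hm y), ← one_mul (μ.real {x | K + y / ρ < |x|}), ← h.pv.sum, sum_mul]
    refine sum_le_sum fun i _ => mul_le_mul_of_nonneg_left
      (measureReal_mono fun x hx => ?_) (h.pv.pos i).le
    simp only [Set.mem_preimage, Set.mem_ofPred_eq] at hx ⊢
    have h3 := abs_add_le (a i * x) (b i)
    rw [abs_mul] at h3
    have h4 : y < |a i| * (|x| - K) := by linarith [hK i]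
    have h5 : 0 < |x| - K := by
      by_contra hn
      nlinarith [abs_nonneg (a i)]
    have h6 := mul_le_mul_of_nonneg_right (h2 i).2 h5.le
    have h7 : y / ρ < |x| - K := by rw [div_lt_iff₀ hρ]; linarith
    linarith
  have iter : ∀ (n : ℕ) (y : ℝ), 0 < y →
      μ.real {x | K + y < |x|} ≤ μ.real {x | K + y / ρ ^ n < |x|} := by
    intro n
    induction n with
    | zero => simp
    | succ n ih =>
      intro y hy
      refine (ih y hy).trans ((step _ (by positivity)).trans_eq ?_)
      rw [pow_succ, div_div]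
  have zero : ∀ y : ℝ, 0 < y → μ {x | K + y < |x|} = 0 := fun y hy => by
    have ht : Filter.Tendsto (fun n : ℕ => μ {x : ℝ | (n : ℝ) < |x|}) Filter.atTop
        (nhds (μ (⋂ n : ℕ, {x : ℝ | (n : ℝ) < |x|}))) :=
      tendsto_measure_iInter_atTop
        (fun n => (measurableSet_lt measurable_const (by fun_prop)).nullMeasurableSet)
        (fun n m hnm x hx => lt_of_le_of_lt (b := (m : ℝ)) (Nat.cast_le.2 hnm) hx) ⟨0, measure_ne_top _ _⟩
    have he : (⋂ n : ℕ, {x : ℝ | (n : ℝ) < |x|}) = ∅ := by
      refine Set.eq_empty_of_forall_notMem fun x hx => ?_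
      obtain ⟨n, hn⟩ := exists_nat_gt |x|
      exact lt_asymm hn (Set.mem_iInter.1 hx n)
    rw [he, measure_empty] at ht
    refine le_antisymm (ge_of_tendsto' ht fun n => ?_) zero_le
    obtain ⟨k, hk⟩ := exists_pow_lt_of_lt_one (show 0 < y / (n + 1) by positivity) h1
    have h3 : (n : ℝ) ≤ K + y / ρ ^ k := by
      have : (n : ℝ) + 1 < y / ρ ^ k := by
        rw [lt_div_iff₀ (by positivity)]
        rw [lt_div_iff₀ (by positivity)] at hk
        linarith
      linarith
    have h4 := iter k y hy
    rw [Measure.real, Measure.real,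
      ENNReal.toReal_le_toReal (measure_ne_top _ _) (measure_ne_top _ _)] at h4
    exact h4.trans (measure_mono fun x hx => lt_of_le_of_lt h3 hx)
  rw [ae_iff]
  refine measure_mono_null (t := ⋃ n : ℕ, {x | K + 1 / ((n : ℝ) + 1) < |x|}) (fun x hx => ?_)
    (measure_iUnion_null fun n => zero _ (by positivity))
  simp only [Set.mem_ofPred_eq, not_le] at hx
  obtain ⟨n, hn⟩ := exists_nat_one_div_lt (sub_pos.2 hx)
  exact Set.mem_iUnion.2 ⟨n, by simp only [Set.mem_ofPred_eq]; linarith⟩

theorem SS.block (h : SS a b p μ) {m : ℕ} (hm : m ≠ 0) :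
    SS (fun w : Fin m → W => ∏ k, a (w k)) (fun w => wordMap a b (List.ofFn w) 0)
      (fun w => ∏ k, p (w k)) μ := by
  have := h.prob
  refine ⟨h.pv.block m, fun w => prod_ne_zero_iff.2 fun k _ => h.a0 _, fun w => ?_, h.prob, ?_⟩
  · obtain ⟨m, rfl⟩ := Nat.exists_eq_succ_of_ne_zero hm
    rw [Fin.prod_univ_succ, abs_mul, abs_prod]
    exact mul_lt_one_of_nonneg_of_lt_one_left (abs_nonneg _) (h.a1 _)
      (prod_le_one (fun _ _ => abs_nonneg _) fun _ _ => (h.a1 _).le)
  · ext S hS
    rw [← ofReal_measureReal (μ := μ), h.real_eq m hS, EE_ofFn, Measure.coe_finsetSum,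
      Finset.sum_apply,
      ENNReal.ofReal_sum_of_nonneg fun w _ =>
        mul_nonneg ((h.pv.block m).pos w).le measureReal_nonneg]
    refine sum_congr rfl fun w _ => ?_
    rw [ENNReal.ofReal_mul ((h.pv.block m).pos w).le, ofReal_measureReal, Measure.smul_apply,
      Measure.map_apply (by fun_prop) hS, smul_eq_mul]
    congr 3
    funext x
    rw [wordMap_apply, List.map_ofFn, List.prod_ofFn]
    rfl

open Classical in
/-- The probability that a random word of length `n` gives the same map as the word `l`. -/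
noncomputable def same (a b p : W → ℝ) (n : ℕ) (l : List W) : ℝ :=
  EE p n fun l' => if wordMap a b l' = wordMap a b l then 1 else 0

/-- The cross-entropy lower bound that links the entropy part with the dimension part. -/
def Cross (a b p : W → ℝ) (K s : ℝ) : Prop :=
  ∀ C : ℝ, ∃ δ : ℝ, 0 < δ ∧ δ < 1 ∧ ∃ M : ℕ, ∀ y : ℝ, |y| ≤ K → ∀ ν : Measure ℝ,
    IsProbabilityMeasure ν → s * -Real.log δ + C ≤
      EE p M fun l => -Real.log (ν.real (Metric.ball (wordMap a b l y) δ) + δ)

end Vale.Agent.P114
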