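import Vale.Agent.P114.Law

/-! Average entropy of a law at a given scale. -/

namespace Vale.Agent.P114

open Finset MeasureTheory Real

/-! ### Scalar inequalities -/

theorem nml_le {a t : ℝ} (ha : 0 ≤ a) (ht : 0 ≤ t) (h : 0 < a → 0 < t) :
    negMulLog a ≤ -(a * log t) + t - a := by
  rcases ha.eq_or_lt with rfl | ha
  · simpa using ht
  · have h1 := log_le_sub_one_of_pos (div_pos (h ha) ha)
    rw [log_div (h ha).ne' ha.ne'] at h1
    have h2 := mul_le_mul_of_nonneg_left h1 ha.le
    have h3 : a * (t / a - 1) = t - a := by field_simp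
    rw [negMulLog]
    linarith

/-- Unnormalised binary entropy. -/
noncomputable def psi (a b : ℝ) : ℝ := negMulLog a + negMulLog b - negMulLog (a + b)

theorem mul_log_mul {a s q : ℝ} (ha : 0 ≤ a) (hs : a ≤ s) (hq : 0 < a → 0 < q) :
    a * log (s * q) = a * log s + a * log q := by
  rcases ha.eq_or_lt with rfl | ha
  · simp
  · rw [log_mul (ha.trans_le hs).ne' (hq ha).ne', mul_add]

theorem psi_le {a b q q' : ℝ} (ha : 0 ≤ a) (hb : 0 ≤ b) (hq : 0 ≤ q) (hq' : 0 ≤ q')
    (h1 : q + q' ≤ 1) (h : 0 < a → 0 < q) (h' : 0 < b → 0 < q') :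
    psi a b ≤ -(a * log q) - b * log q' := by
  have e1 := nml_le ha (mul_nonneg (add_nonneg ha hb) hq) fun h0 => mul_pos (by linarith) (h h0)
  have e2 := nml_le hb (mul_nonneg (add_nonneg ha hb) hq') fun h0 =>
    mul_pos (by linarith) (h' h0)
  rw [mul_log_mul ha (by linarith) h] at e1
  rw [mul_log_mul hb (by linarith) h'] at e2
  have e3 := mul_le_mul_of_nonneg_left h1 (add_nonneg ha hb)
  rw [psi, negMulLog.eq_1 (a + b)]
  linarith

theorem psi_eq {a b : ℝ} (ha : 0 ≤ a) (hb : 0 ≤ b) :
    psi a b = -(a * log (a / (a + b))) - b * log (b / (a + b)) := by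
  have k : ∀ x : ℝ, 0 ≤ x → x ≤ a + b → x * log (x / (a + b)) = x * log x - x * log (a + b) := by
    intro x hx hx'
    rcases hx.eq_or_lt with rfl | hx
    · simp
    · rw [log_div hx.ne' (hx.trans_le hx').ne', mul_sub]
  rw [k a ha (by linarith), k b hb (by linarith), psi]
  simp only [negMulLog]
  ring

theorem psi_nonneg {a b : ℝ} (ha : 0 ≤ a) (hb : 0 ≤ b) : 0 ≤ psi a b := by
  rw [psi_eq ha hb]
  have h1 := mul_nonpos_of_nonneg_of_nonpos ha (log_nonpos (x := a / (a + b)) (by positivity)
    (div_le_one_of_le₀ (by linarith) (by linarith)))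
  have h2 := mul_nonpos_of_nonneg_of_nonpos hb (log_nonpos (x := b / (a + b)) (by positivity)
    (div_le_one_of_le₀ (by linarith) (by linarith)))
  linarith

theorem psi_le_log {a b : ℝ} (ha : 0 ≤ a) (hb : 0 ≤ b) : psi a b ≤ log 2 * (a + b) := by
  have := psi_le (q := 2⁻¹) (q' := 2⁻¹) ha hb (by norm_num) (by norm_num) (by norm_num)
    (fun _ => by norm_num) fun _ => by norm_num
  rw [log_inv] at this
  linarith

theorem psi_conc {a b a' b' w w' : ℝ} (ha : 0 ≤ a) (hb : 0 ≤ b) (ha' : 0 ≤ a') (hb' : 0 ≤ b')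
    (hw : 0 ≤ w) (hw' : 0 ≤ w') :
    w * psi a b + w' * psi a' b' ≤ psi (w * a + w' * a') (w * b + w' * b') := by
  have k : ∀ {x y v A B : ℝ}, 0 ≤ x → 0 ≤ y → 0 ≤ v → v * x ≤ A → v * y ≤ B →
      v * psi x y ≤ -(v * x * log (A / (A + B))) - v * y * log (B / (A + B)) := by
    intro x y v A B hx hy hv hA hB
    rcases hv.eq_or_lt with rfl | hv
    · simp
    have hA0 : 0 ≤ A := (mul_nonneg hv.le hx).trans hA
    have hB0 : 0 ≤ B := (mul_nonneg hv.le hy).trans hB
    have := mul_le_mul_of_nonneg_left (psi_le (q := A / (A + B)) (q' := B / (A + B)) hx hy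
      (by positivity) (by positivity) (by rw [← add_div]; exact div_self_le_one _)
      (fun h => by have := (mul_pos hv h).trans_le hA; positivity)
      fun h => by have := (mul_pos hv h).trans_le hB; positivity) hv.le
    linarith
  have h1 := k (A := w * a + w' * a') (B := w * b + w' * b') ha hb hw
    (le_add_of_nonneg_right (by positivity)) (le_add_of_nonneg_right (by positivity))
  have h2 := k (A := w * a + w' * a') (B := w * b + w' * b') ha' hb' hw'
    (le_add_of_nonneg_left (by positivity)) (le_add_of_nonneg_left (by positivity))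
  rw [psi_eq (a := w * a + w' * a') (by positivity) (by positivity)]
  linarith

theorem psi_le_sqrt {a b : ℝ} (ha : 0 ≤ a) (hb : 0 ≤ b) : psi a b ≤ 4 * (√a * √b) := by
  have k : ∀ x y : ℝ, 0 ≤ x → 0 ≤ y → -(x * log (x / (x + y))) ≤ 2 * (√x * √y) := by
    intro x y hx hy
    rcases hx.eq_or_lt with rfl | hx
    · simp
    obtain ⟨u, hu, rfl⟩ : ∃ u, 0 < u ∧ x = u ^ 2 := ⟨√x, sqrt_pos.2 hx, (sq_sqrt hx.le).symm⟩
    obtain ⟨v, hv, rfl⟩ : ∃ v, 0 ≤ v ∧ y = v ^ 2 := ⟨√y, sqrt_nonneg _, (sq_sqrt hy).symm⟩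
    rw [sqrt_sq hu.le, sqrt_sq hv]
    have h1 : log ((u / (u + v)) ^ 2) ≤ log (u ^ 2 / (u ^ 2 + v ^ 2)) := by
      refine log_le_log (by positivity) ?_
      rw [div_pow]
      gcongr
      nlinarith [mul_nonneg hu.le hv]
    have h2 := log_le_sub_one_of_pos (show 0 < (u + v) / u by positivity)
    rw [log_pow, ← inv_div, log_inv] at h1
    have h3 : (u + v) / u - 1 = v / u := by field_simp; ring
    have h4 : u ^ 2 * (v / u) = u * v := by field_simp
    push_cast at h1
    nlinarith [mul_le_mul_of_nonneg_left h1 hx.le, mul_le_mul_of_nonneg_left h2 hx.le]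
  have h1 := k a b ha hb
  have h2 := k b a hb ha
  rw [add_comm b a, mul_comm √b] at h2
  rw [psi_eq ha hb]
  linarith

theorem psi_le_quad {a b M τ : ℝ} (ha : 0 ≤ a) (hb : 0 ≤ b) (hM : a + b ≤ M) (hτ : 0 < τ) :
    psi a b ≤ 2 * τ * M + 2 / τ * (a * b / M) := by
  rcases (show 0 ≤ M by linarith).eq_or_lt with rfl | hM0
  · have h1 : a = 0 := by linarith
    have h2 : b = 0 := by linarith
    simp [psi, h1, h2]
  refine (psi_le_sqrt ha hb).trans ?_
  have h1 : a * b = (√a * √b) ^ 2 := by rw [mul_pow, sq_sqrt ha, sq_sqrt hb]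
  rw [h1]
  set z := √a * √b
  have : 2 * τ * M + 2 / τ * (z ^ 2 / M) - 4 * z = 2 * (τ * M - z) ^ 2 / (τ * M) := by
    field_simp
    ring
  have h2 : 0 ≤ 2 * (τ * M - z) ^ 2 / (τ * M) := by positivity
  linarith

/-! ### Masses of intervals -/

/-- Indicator of an open interval. -/
noncomputable def bx (r s x : ℝ) : ℝ := if |x - s| < r then 1 else 0

/-- Mass of an open interval. -/
noncomputable def ms (m : Lw) (r s : ℝ) : ℝ := ex m (bx r s)

variable {m m' Y Z : Lw} {r s x : ℝ}

theorem bx_nonneg (r s x : ℝ) : 0 ≤ bx r s x := by unfold bx; split_ifs <;> norm_num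

theorem bx_le_one (r s x : ℝ) : bx r s x ≤ 1 := by unfold bx; split_ifs <;> norm_num

theorem bx_pos (h : |x - s| < r) : bx r s x = 1 := if_pos h

theorem bx_neg (h : ¬ |x - s| < r) : bx r s x = 0 := if_neg h

theorem bx_mono {r' s' : ℝ} (h : |x - s| < r → |x - s'| < r') : bx r s x ≤ bx r' s' x := by
  by_cases h1 : |x - s| < r
  · rw [bx_pos h1, bx_pos (h h1)]
  · rw [bx_neg h1]; exact bx_nonneg _ _ _

theorem bx_mul_le {c c' : ℝ} (h : |x - s| < r → c ≤ c') : bx r s x * c ≤ bx r s x * c' := by
  by_cases h1 : |x - s| < r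
  · rw [bx_pos h1, one_mul, one_mul]; exact h h1
  · rw [bx_neg h1, zero_mul, zero_mul]

theorem bx_eq (r x : ℝ) :
    (fun s => bx r s x) = (Set.Ioo (x - r) (x + r)).indicator fun _ => (1 : ℝ) := by
  funext s
  simp only [bx, Set.indicator, Set.mem_Ioo, abs_lt]
  refine if_congr ⟨fun h => ⟨by linarith, by linarith⟩, fun h => ⟨by linarith, by linarith⟩⟩ rfl rfl

theorem measurable_bx (r x : ℝ) : Measurable fun s => bx r s x := by
  rw [bx_eq]; exact measurable_const.indicator measurableSet_Ioo

theorem integrable_bx (r x : ℝ) : Integrable fun s => bx r s x := by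
  rw [bx_eq]
  exact (integrableOn_const (by simp)).integrable_indicator measurableSet_Ioo

theorem integral_bx (hr : 0 ≤ r) (x : ℝ) : ∫ s, bx r s x = 2 * r := by
  rw [bx_eq, integral_indicator measurableSet_Ioo, setIntegral_const, smul_eq_mul, mul_one,
    Real.volume_real_Ioo_of_le (by linarith)]
  ring

theorem integrable_ex (m : Lw) (r : ℝ) (F : ℝ → ℝ) :
    Integrable fun s => ex m fun x => bx r s x * F x :=
  integrable_finsetSum _ fun x _ => ((integrable_bx r x).mul_const _).const_mul _

theorem integral_ex (m : Lw) (hr : 0 ≤ r) (F : ℝ → ℝ) :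
    ∫ s, ex m (fun x => bx r s x * F x) = 2 * r * ex m F := by
  simp only [ex]
  rw [integral_finsetSum _ fun x _ => ((integrable_bx r x).mul_const _).const_mul _, mul_sum]
  refine sum_congr rfl fun x _ => ?_
  rw [integral_const_mul, integral_mul_const, integral_bx hr]
  ring

theorem measurable_ms (m : Lw) (r : ℝ) : Measurable (ms m r) :=
  Finset.measurable_sum _ fun x _ => (measurable_bx r x).const_mul _

theorem integrable_ms (m : Lw) (r : ℝ) : Integrable (ms m r) := by
  have := integrable_ex m r fun _ => 1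
  simp only [mul_one] at this
  exact this

theorem Pb.integral_ms (h : Pb m) (hr : 0 ≤ r) : ∫ s, ms m r s = 2 * r := by
  have := integral_ex m hr fun _ => 1
  simp only [mul_one, h.one] at this
  exact this

theorem Pb.ms_nonneg (h : Pb m) (r s : ℝ) : 0 ≤ ms m r s := h.le_ex fun _ _ => bx_nonneg _ _ _

theorem Pb.ms_le_one (h : Pb m) (r s : ℝ) : ms m r s ≤ 1 := h.ex_le fun _ _ => bx_le_one _ _ _

theorem Pb.coeff_le_ms (h : Pb m) (hx : |x - s| < r) : m.coeff x ≤ ms m r s := by
  have := h.single_le (bx_nonneg r s) x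
  rwa [bx_pos hx, mul_one] at this

theorem Pb.ms_pos (h : Pb m) (hx : x ∈ sp m) (hs : |x - s| < r) : 0 < ms m r s :=
  (h.pos hx).trans_le (h.coeff_le_ms hs)

theorem nml_ms (m : Lw) (r s : ℝ) :
    negMulLog (ms m r s) = ex m fun x => bx r s x * -log (ms m r s) := by
  rw [ex_mul'', negMulLog, neg_mul, mul_neg]; rfl

theorem Pb.integrable_nml (h : Pb m) (r : ℝ) : Integrable fun s => negMulLog (ms m r s) := by
  refine (integrable_ex m r fun x => -log (m.coeff x)).mono'
    (continuous_negMulLog.measurable.comp (measurable_ms m r)).aestronglyMeasurable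
    (.of_forall fun s => ?_)
  rw [Real.norm_of_nonneg (negMulLog_nonneg (h.ms_nonneg r s) (h.ms_le_one r s)), nml_ms]
  exact h.mono fun x hx => bx_mul_le fun hs =>
    neg_le_neg (log_le_log (h.pos hx) (h.coeff_le_ms hs))

theorem ms_add (m m' : Lw) (r s : ℝ) : ms (m + m') r s = ms m r s + ms m' r s := ex_add _ _ _

theorem ms_smul (c : ℝ) (m : Lw) (r s : ℝ) : ms (c • m) r s = c * ms m r s := ex_smul _ _ _

theorem ms_dl_mul (a : ℝ) (m : Lw) (r s : ℝ) : ms (dl a * m) r s = ms m r (s - a) := by
  simp only [ms, ex_mul, ex_dl]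
  refine ex_congr fun x _ => ?_
  simp only [bx]
  rw [show a + x - s = x - (s - a) by ring]

theorem ms_sc {c : ℝ} (hc : c ≠ 0) (m : Lw) (r s : ℝ) :
    ms (sc c m) r s = ms m (r / |c|) (s / c) := by
  simp only [ms, ex_sc]
  refine ex_congr fun x _ => ?_
  simp only [bx]
  rw [show c * x - s = c * (x - s / c) by field_simp, abs_mul]
  exact if_congr (lt_div_iff₀' (abs_pos.2 hc)).symm rfl rfl

/-! ### Entropy at a scale -/

/-- Average entropy at scale `r`. -/
noncomputable def HH (r : ℝ) (m : Lw) : ℝ := (2 * r)⁻¹ * ∫ s, negMulLog (ms m r s)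

theorem Pb.HH_nonneg (h : Pb m) (hr : 0 < r) : 0 ≤ HH r m :=
  mul_nonneg (by positivity)
    (integral_nonneg fun s => negMulLog_nonneg (h.ms_nonneg r s) (h.ms_le_one r s))

theorem Pb.gibbs (h : Pb m) (hr : 0 < r) {g c : ℝ → ℝ} (hg : Integrable g) (hg0 : ∀ s, 0 ≤ g s)
    (hc : ∀ x ∈ sp m, 0 < c x) (hcg : ∀ x ∈ sp m, ∀ s, |x - s| < r → c x ≤ g s) :
    HH r m ≤ ex m (fun x => -log (c x)) + ((2 * r)⁻¹ * (∫ s, g s) - 1) := by
  have key : ∀ s, negMulLog (ms m r s) ≤
      ex m (fun x => bx r s x * -log (c x)) + (g s - ms m r s) := fun s => by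
    have h1 := nml_le (h.ms_nonneg r s) (hg0 s) fun h0 => by
      by_contra hn
      refine h0.ne' (ex_eq_zero fun x hx => bx_neg fun hs => hn ?_)
      exact (hc x hx).trans_le (hcg x hx s hs)
    have h2 : ex m (fun x => bx r s x * -log (g s)) ≤ ex m fun x => bx r s x * -log (c x) :=
      h.mono fun x hx => bx_mul_le fun hs => neg_le_neg (log_le_log (hc x hx) (hcg x hx s hs))
    rw [ex_mul''] at h2
    rw [ms] at h1 ⊢
    linarith
  have h3 := integral_mono (h.integrable_nml r)
    ((integrable_ex m r _).add (hg.sub (integrable_ms m r))) key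
  simp only [Pi.add_apply, Pi.sub_apply] at h3
  have h4 : Integrable fun s => g s - ms m r s := hg.sub (integrable_ms m r)
  rw [integral_add (integrable_ex m r _) h4,
    integral_sub hg (integrable_ms m r), integral_ex m hr.le, h.integral_ms hr.le] at h3
  refine (mul_le_mul_of_nonneg_left h3 (by positivity)).trans_eq ?_
  field_simp

theorem Pb.le_HH (h : Pb m) (hr : 0 < r) {c : ℝ → ℝ}
    (hc : ∀ x ∈ sp m, ∀ s, |x - s| < r → ms m r s ≤ c x) :
    ex m (fun x => -log (c x)) ≤ HH r m := by
  have h3 := integral_mono (integrable_ex m r fun x => -log (c x)) (h.integrable_nml r) fun s => by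
    simp only [nml_ms]
    exact h.mono fun x hx => bx_mul_le fun hs =>
      neg_le_neg (log_le_log (h.ms_pos hx hs) (hc x hx s hs))
  rw [integral_ex m hr.le] at h3
  refine le_trans (le_of_eq ?_) (mul_le_mul_of_nonneg_left h3 (by positivity))
  field_simp

theorem Pb.HH_le_ball (h : Pb m) (hr : 0 < r) {d : ℝ} (hd : 0 < d) :
    HH r m ≤ ex m (fun x => -log (ms m d x)) + log (1 + d / r) := by
  have hκ : 0 < 1 + d / r := by positivity
  have h0 : ∀ x ∈ sp m, 0 < ms m d x := fun x hx => h.ms_pos hx (by simpa using hd)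
  have := h.gibbs hr (g := fun s => ms m (d + r) s / (1 + d / r))
    (c := fun x => ms m d x / (1 + d / r)) ((integrable_ms _ _).div_const _)
    (fun s => div_nonneg (h.ms_nonneg _ _) hκ.le) (fun x hx => div_pos (h0 x hx) hκ)
    fun x hx s hs => div_le_div_of_nonneg_right (h.mono fun y _ => bx_mono fun hy => by
      have := abs_sub_le y x s
      linarith) hκ.le
  rw [integral_div, h.integral_ms (by positivity)] at this
  refine this.trans_eq ?_
  rw [ex_congr (G := fun x => -log (ms m d x) + log (1 + d / r)) fun x hx => by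
    rw [log_div (h0 x hx).ne' hκ.ne']; ring, ex_add', h.const]
  field_simp
  ring

theorem Pb.HH_le_HH (h : Pb m) (hr : 0 < r) {ρ : ℝ} (hρ : 0 < ρ) :
    HH r m ≤ HH ρ m + log (1 + 2 * ρ / r) := by
  refine (h.HH_le_ball hr (d := 2 * ρ) (by positivity)).trans (add_le_add_left ?_ _)
  refine h.le_HH hρ fun x _ s hs => h.mono fun y _ => bx_mono fun hy => ?_
  have := abs_sub_le y s x
  rw [abs_sub_comm s x] at this
  linarith

theorem Pb.HH_le_diam (h : Pb m) (hr : 0 < r) {d : ℝ} (hd : 0 < d)
    (hm : ∀ x ∈ sp m, ∀ y ∈ sp m, |y - x| < d) : HH r m ≤ log (1 + d / r) := by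
  refine (h.HH_le_ball hr hd).trans_eq ?_
  rw [ex_eq_zero, zero_add]
  intro x hx
  rw [ms, ex_congr (G := fun _ => 1) fun y hy => bx_pos (hm x hx y hy), h.one, log_one, neg_zero]

theorem Pb.HH_le_card (h : Pb m) (hr : 0 < r) : HH r m ≤ log (sp m).card := by
  have hne : (sp m).Nonempty := by
    by_contra hn
    have := h.sum
    rw [not_nonempty_iff_eq_empty.1 hn] at this
    simp at this
  have hc : (0 : ℝ) < (sp m).card := by exact_mod_cast card_pos.2 hne
  have := h.gibbs hr (g := fun s => (∑ x ∈ sp m, bx r s x) / (sp m).card)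
    (c := fun _ => 1 / (sp m).card)
    ((integrable_finsetSum _ fun x _ => integrable_bx r x).div_const _)
    (fun s => div_nonneg (sum_nonneg fun _ _ => bx_nonneg _ _ _) hc.le)
    (fun _ _ => by positivity) fun x hx s hs => div_le_div_of_nonneg_right (by
      rw [← bx_pos hs]
      exact single_le_sum (f := fun x => bx r s x) (fun _ _ => bx_nonneg _ _ _) hx) hc.le
  rw [integral_div, integral_finsetSum _ fun x _ => integrable_bx r x, h.const] at this
  simp only [integral_bx hr.le, sum_const, nsmul_eq_mul, one_div, log_inv, neg_neg] at this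
  refine this.trans_eq ?_
  field_simp
  ring

theorem Pb.sh_le_HH (h : Pb m) (hr : 0 < r)
    (hm : ∀ x ∈ sp m, ∀ y ∈ sp m, |y - x| < 2 * r → y = x) :
    ex m (fun x => -log (m.coeff x)) ≤ HH r m := by
  refine h.le_HH hr fun x hx s hs => ?_
  rw [coeff_eq_ex]
  refine h.mono fun y hy => ?_
  by_cases h1 : |y - s| < r
  · rw [if_pos]
    · exact bx_le_one _ _ _
    · refine hm x hx y hy ?_
      have := abs_sub_le y s x
      rw [abs_sub_comm s x] at this
      linarith
  · rw [bx_neg h1]
    split_ifs <;> norm_num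

theorem HH_sc {c : ℝ} (hc : c ≠ 0) (r : ℝ) (m : Lw) : HH r (sc c m) = HH (r / |c|) m := by
  simp only [HH, ms_sc hc]
  rw [Measure.integral_comp_div (fun s => negMulLog (ms m (r / |c|) s)) c, smul_eq_mul,
    ← mul_assoc]
  congr 1
  have := abs_pos.2 hc
  field_simp

theorem good_HH (hr : 0 < r) : Good (HH r) := by
  refine ⟨⟨convex_pb, fun x hx y hy a b ha hb hab => ?_⟩, fun a m _ => ?_⟩
  · have hxy : Pb (a • x + b • y) := convex_pb hx hy ha hb hab
    have := integral_mono (((Pb.integrable_nml hx r).const_mul a).add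
      ((Pb.integrable_nml hy r).const_mul b)) (hxy.integrable_nml r) fun s => by
        simp only [Pi.add_apply, ms_add, ms_smul]
        exact concaveOn_negMulLog.2 (Pb.ms_nonneg hx r s) (Pb.ms_nonneg hy r s) ha hb hab
    simp only [Pi.add_apply] at this
    rw [integral_add ((Pb.integrable_nml hx r).const_mul a) ((Pb.integrable_nml hy r).const_mul b),
      integral_const_mul, integral_const_mul] at this
    refine le_trans (le_of_eq ?_) (mul_le_mul_of_nonneg_left this (by positivity))
    simp only [HH, smul_eq_mul]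
    ring
  · simp only [HH, ms_dl_mul]
    rw [integral_sub_right_eq_self (fun s => negMulLog (ms m r s)) a]

/-- Integrated binary entropy of two translates. -/
noncomputable def PP (r u v : ℝ) (m : Lw) : ℝ := ∫ s, psi (ms m r (s - u)) (ms m r (s - v))

theorem Pb.integrable_psi (h : Pb m) (r u v : ℝ) :
    Integrable fun s => psi (ms m r (s - u)) (ms m r (s - v)) := by
  have h1 : ∀ u : ℝ, Measurable fun s => ms m r (s - u) := fun u =>
    (measurable_ms m r).comp (by fun_prop)
  have h2 := continuous_negMulLog.measurable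
  refine ((((integrable_ms m r).comp_sub_right u).add
    ((integrable_ms m r).comp_sub_right v)).const_mul (log 2)).mono'
    (((h2.comp (h1 u)).add (h2.comp (h1 v))).sub
      (h2.comp ((h1 u).add (h1 v)))).aestronglyMeasurable (.of_forall fun s => ?_)
  rw [Real.norm_of_nonneg (psi_nonneg (h.ms_nonneg _ _) (h.ms_nonneg _ _))]
  exact psi_le_log (h.ms_nonneg _ _) (h.ms_nonneg _ _)

theorem good_PP (r u v : ℝ) : Good (PP r u v) := by
  refine ⟨⟨convex_pb, fun x hx y hy a b ha hb hab => ?_⟩, fun a m _ => ?_⟩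
  · have hxy : Pb (a • x + b • y) := convex_pb hx hy ha hb hab
    have := integral_mono (((Pb.integrable_psi hx r u v).const_mul a).add
      ((Pb.integrable_psi hy r u v).const_mul b)) (hxy.integrable_psi r u v) fun s => by
        simp only [Pi.add_apply, ms_add, ms_smul]
        exact psi_conc (Pb.ms_nonneg hx _ _) (Pb.ms_nonneg hx _ _) (Pb.ms_nonneg hy _ _)
          (Pb.ms_nonneg hy _ _) ha hb
    simp only [Pi.add_apply] at this
    rwa [integral_add ((Pb.integrable_psi hx r u v).const_mul a)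
      ((Pb.integrable_psi hy r u v).const_mul b), integral_const_mul, integral_const_mul] at this
  · simp only [PP, ms_dl_mul]
    rw [← integral_sub_right_eq_self (fun s => psi (ms m r (s - u)) (ms m r (s - v))) a]
    simp only [sub_right_comm _ a]

theorem Pb.PP_eq (h : Pb m) (hr : 0 < r) (u v : ℝ) :
    (Integrable fun s => negMulLog (ms m r (s - u) + ms m r (s - v))) ∧
    PP r u v m = 4 * r * HH r m - ∫ s, negMulLog (ms m r (s - u) + ms m r (s - v)) := by
  have h1 := (h.integrable_nml r).comp_sub_right u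
  have h2 := (h.integrable_nml r).comp_sub_right v
  have h3 : Integrable fun s => negMulLog (ms m r (s - u) + ms m r (s - v)) := by
    refine ((h1.add h2).sub (h.integrable_psi r u v)).congr (.of_forall fun s => ?_)
    simp [psi]
  refine ⟨h3, ?_⟩
  simp only [PP, psi]
  have h4 : Integrable fun s => negMulLog (ms m r (s - u)) + negMulLog (ms m r (s - v)) :=
    h1.add h2
  rw [integral_sub h4 h3, integral_add h1 h2,
    integral_sub_right_eq_self (fun s => negMulLog (ms m r s)) u,
    integral_sub_right_eq_self (fun s => negMulLog (ms m r s)) v, HH]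
  field_simp
  ring

theorem Pb.HH_half (h : Pb m) (hr : 0 < r) :
    HH (r / 2) m - HH r m = (2 * r)⁻¹ * PP (r / 2) (r / 2) (-(r / 2)) m := by
  rw [(h.PP_eq (half_pos hr) _ _).2, HH.eq_1 r]
  have : ∫ s, negMulLog (ms m r s) =
      ∫ s, negMulLog (ms m (r / 2) (s - r / 2) + ms m (r / 2) (s - -(r / 2))) := by
    refine integral_congr_ae ?_
    filter_upwards [(sp m).finite_toSet.countable.ae_notMem volume] with s hs
    congr 1
    rw [ms, ms, ms, ← ex_add']
    refine ex_congr fun x hx => ?_
    have hxs : x ≠ s := fun e => hs (e ▸ hx)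
    simp only [bx, abs_lt]
    rcases lt_or_gt_of_ne hxs with h1 | h1
    · rw [if_neg (c := _ < x - (s - -(r / 2)) ∧ _) fun e => by linarith [e.1], add_zero]
      exact if_congr ⟨fun e => ⟨by linarith, by linarith⟩, fun e => ⟨by linarith, by linarith⟩⟩
        rfl rfl
    · rw [if_neg (c := _ < x - (s - r / 2) ∧ _) fun e => by linarith [e.2], zero_add]
      exact if_congr ⟨fun e => ⟨by linarith, by linarith⟩, fun e => ⟨by linarith, by linarith⟩⟩
        rfl rfl
  rw [this]
  field_simp
  ring

theorem Pb.HH_bb (h : Pb m) (hr : 0 < r) (d : ℝ) :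
    HH r (bb d * m) - HH r m = log 2 - (4 * r)⁻¹ * PP r 0 d m := by
  obtain ⟨h1, h2⟩ := h.PP_eq hr 0 d
  have h3 : ∀ s, negMulLog (ms (bb d * m) r s) =
      2⁻¹ * negMulLog (ms m r (s - 0) + ms m r (s - d)) +
        2⁻¹ * log 2 * (ms m r (s - 0) + ms m r (s - d)) := fun s => by
    simp only [bb, add_mul, smul_mul_assoc, ms_add, ms_smul, ms_dl_mul, ← mul_add]
    rw [negMulLog_mul, negMulLog.eq_1 (1 / 2), one_div, log_inv]
    ring
  have h4 := (integrable_ms m r).comp_sub_right 0
  have h5 := (integrable_ms m r).comp_sub_right d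
  have h6 : Integrable fun s => ms m r (s - 0) + ms m r (s - d) := h4.add h5
  rw [h2, HH.eq_1 r (bb d * m)]
  simp only [h3]
  rw [integral_add (h1.const_mul _) (h6.const_mul _), integral_const_mul,
    integral_const_mul, integral_add h4 h5, integral_sub_right_eq_self (ms m r) 0,
    integral_sub_right_eq_self (ms m r) d, h.integral_ms hr.le]
  field_simp
  ring

theorem good_half (hr : 0 < r) : Good fun m => HH (r / 2) m - HH r m :=
  ((good_PP _ _ _).smul (by positivity)).congr fun _ h => (h.HH_half hr).symm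

theorem good_win (hr : 0 < r) (k : ℕ) : Good fun m => HH (r / 2 ^ k) m - HH r m := by
  induction k with
  | zero => simpa using good_const 0
  | succ k ih =>
    refine (ih.add (good_half (r := r / 2 ^ k) (by positivity))).congr fun m _ => ?_
    rw [pow_succ, ← div_div]
    ring

theorem good_bb (hr : 0 < r) (d : ℝ) : Good fun m => HH r m - HH r (bb d * m) :=
  (((good_PP r 0 d).smul (c := (4 * r)⁻¹) (by positivity)).add (good_const (-log 2))).congr
    fun _ h => by linarith [h.HH_bb hr d]

theorem Pb.half_nonneg (h : Pb m) (hr : 0 < r) : 0 ≤ HH (r / 2) m - HH r m := by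
  rw [h.HH_half hr]
  exact mul_nonneg (by positivity)
    (integral_nonneg fun s => psi_nonneg (h.ms_nonneg _ _) (h.ms_nonneg _ _))

theorem Pb.win_nonneg (h : Pb m) (hr : 0 < r) (k : ℕ) : HH r m ≤ HH (r / 2 ^ k) m := by
  induction k with
  | zero => simp
  | succ k ih =>
    have := h.half_nonneg (r := r / 2 ^ k) (by positivity)
    rw [pow_succ, ← div_div]
    linarith

theorem Pb.half_le (h : Pb m) (hr : 0 < r) : HH (r / 2) m - HH r m ≤ 1 := by
  rw [h.HH_half hr]
  have h4 := (integrable_ms m (r / 2)).comp_sub_right (r / 2)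
  have h5 := (integrable_ms m (r / 2)).comp_sub_right (-(r / 2))
  have := integral_mono (h.integrable_psi (r / 2) (r / 2) (-(r / 2)))
    ((h4.add h5).const_mul (log 2)) fun s => psi_le_log (h.ms_nonneg _ _) (h.ms_nonneg _ _)
  simp only [Pi.add_apply] at this
  rw [integral_const_mul, integral_add h4 h5, integral_sub_right_eq_self (ms m (r / 2)),
    integral_sub_right_eq_self (ms m (r / 2)), h.integral_ms (by positivity)] at this
  refine (mul_le_mul_of_nonneg_left this (by positivity)).trans ?_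
  have h6 : (2 * r)⁻¹ * (log 2 * (2 * (r / 2) + 2 * (r / 2))) = log 2 := by field_simp; ring
  rw [h6]
  linarith [log_two_lt_d9]

end Vale.Agent.P114
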