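import Vale.Agent.P114.Core
import Vale.Agent.P114.DimUp
import Vale.Agent.P114.DimLow

/-! The dimension formula. -/

namespace Vale.Agent.P114

open MeasureTheory Finset
open scoped ENNReal

section aux

variable {W : Type} [Fintype W] {a b p : W → ℝ} {μ : Measure ℝ}

theorem fi_mapProb (n : ℕ) (l : List W) : mapProb a b p n (wordMap a b l) = same a b p n l := by
  unfold mapProb same
  rw [EE_ofFn, sum_filter]
  refine sum_congr rfl fun w _ => ?_
  split_ifs <;> simp

theorem fi_log_two : 0 < Real.log 2 := Real.log_pos one_lt_two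

theorem fi_walk (n : ℕ) :
    walkEntropy a b p n * Real.log 2 = EE p n fun l => -Real.log (same a b p n l) := by
  classical
  rw [EE_ofFn, ← sum_fiberwise_of_maps_to (s := univ)
    (t := univ.image fun w : Fin n → W => wordMap a b (List.ofFn w))
    (g := fun w : Fin n → W => wordMap a b (List.ofFn w))
    fun w hw => mem_image_of_mem _ hw, walkEntropy, sum_mul]
  refine sum_congr (by ext; simp) fun g _ => ?_
  have h1 : ∀ w ∈ univ.filter fun w : Fin n → W => wordMap a b (List.ofFn w) = g,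
      (∏ k, p (w k)) * -Real.log (same a b p n (List.ofFn w)) =
        (∏ k, p (w k)) * -Real.log (mapProb a b p n g) := by
    intro w hw
    rw [← fi_mapProb, (mem_filter.1 hw).2]
  rw [sum_congr rfl h1, ← sum_mul]
  have h2 : ∑ w ∈ univ.filter (fun w : Fin n → W => wordMap a b (List.ofFn w) = g),
      ∏ k, p (w k) = mapProb a b p n g := sum_congr (by ext; simp) fun _ _ => rfl
  rw [h2, Real.logb]
  have := fi_log_two.ne'
  field_simp

theorem fi_ent_nonneg (hp : PV p) (n : ℕ) : 0 ≤ walkEntropy a b p n := by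
  have h1 : 0 ≤ EE p n fun l => -Real.log (same a b p n l) := by
    refine le_EE hp fun l _ => neg_nonneg.2 (Real.log_nonpos ?_ ?_)
    · exact le_EE hp fun l' _ => by split_ifs <;> norm_num
    · exact EE_le hp fun l' _ => by split_ifs <;> norm_num
  rw [← fi_walk] at h1
  exact nonneg_of_mul_nonneg_left h1 fi_log_two

theorem fi_bdd (hp : PV p) :
    BddBelow (Set.range fun n : ℕ => walkEntropy a b p (n + 1) / ((n + 1 : ℕ) : ℝ)) :=
  ⟨0, by rintro _ ⟨n, rfl⟩; exact div_nonneg (fi_ent_nonneg hp _) (Nat.cast_nonneg _)⟩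

theorem fi_rate_nonneg (hp : PV p) : 0 ≤ entropyRate a b p :=
  le_ciInf fun _ => div_nonneg (fi_ent_nonneg hp _) (Nat.cast_nonneg _)

theorem fi_rate_le (hp : PV p) (N : ℕ) : N * entropyRate a b p ≤ walkEntropy a b p N := by
  cases N with
  | zero => simpa using fi_ent_nonneg hp 0
  | succ n =>
    have h1 : entropyRate a b p ≤ _ := ciInf_le (fi_bdd hp) n
    rw [le_div_iff₀ (by positivity)] at h1
    rw [mul_comm]
    exact h1

omit [Fintype W] in
theorem fi_prod {m : ℕ} (w : Fin m → W) : ((List.ofFn w).map a).prod = ∏ k, a (w k) := by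
  rw [List.map_ofFn, List.prod_ofFn]
  rfl

omit [Fintype W] in
theorem fi_wordMap_block {m : ℕ} (L : List (Fin m → W)) :
    wordMap (fun w : Fin m → W => ∏ k, a (w k)) (fun w => wordMap a b (List.ofFn w) 0) L =
      wordMap a b (L.map List.ofFn).flatten := by
  induction L with
  | nil => rfl
  | cons w L ih =>
    rw [List.map_cons, List.flatten_cons, wordMap_append, ← ih]
    funext x
    simp only [wordMap, Function.comp]
    conv_rhs => rw [wordMap_apply (List.ofFn w), fi_prod]

theorem fi_ent_block (m n : ℕ) :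
    (EE (fun w : Fin m → W => ∏ k, p (w k)) n fun L => -Real.log
      (same (fun w : Fin m → W => ∏ k, a (w k)) (fun w => wordMap a b (List.ofFn w) 0)
        (fun w => ∏ k, p (w k)) n L)) = walkEntropy a b p (n * m) * Real.log 2 := by
  rw [fi_walk, EE_block]
  refine EE_congr fun L _ => ?_
  unfold same
  rw [EE_block]
  refine congrArg (fun x => -Real.log x) (EE_congr fun l' _ => ?_)
  rw [fi_wordMap_block l', fi_wordMap_block L]

theorem fi_chi_block (h : SS a b p μ) (m : ℕ) :
    ∑ w : Fin m → W, (∏ k, p (w k)) * -Real.log |∏ k, a (w k)| =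
      m * ∑ i, p i * -Real.log |a i| := by
  rw [← EE_map_sum h.pv, EE_ofFn]
  refine sum_congr rfl fun w _ => ?_
  rw [List.map_ofFn, List.sum_ofFn, abs_prod,
    Real.log_prod fun k _ => abs_ne_zero.2 (h.a0 _), ← sum_neg_distrib]
  rfl

theorem fi_chi_pos (h : SS a b p μ) : 0 < ∑ i, p i * -Real.log |a i| := by
  have := h.pv.nonempty
  exact sum_pos (fun i _ => mul_pos (h.pv.pos i)
    (neg_pos.2 (Real.log_neg (abs_pos.2 (h.a0 i)) (h.a1 i)))) univ_nonempty

theorem fi_lyap : lyapunov a p * Real.log 2 = ∑ i, p i * -Real.log |a i| := by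
  rw [lyapunov, ← sum_neg_distrib, sum_mul]
  refine sum_congr rfl fun i _ => ?_
  rw [Real.logb]
  have := fi_log_two.ne'
  field_simp

theorem fi_lyap_pos (h : SS a b p μ) : 0 < lyapunov a p := by
  have h1 := fi_chi_pos h
  rw [← fi_lyap] at h1
  exact (mul_pos_iff_of_pos_right fi_log_two).1 h1

open Classical in
theorem fi_card (m : ℕ) :
    (univ.image fun w : Fin m → W => ∏ k, a (w k)).card ≤ (m + 1) ^ Fintype.card W := by
  have h1 : (univ.image fun w : Fin m → W => ∏ k, a (w k)) ⊆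
      univ.image fun c : W → Fin (m + 1) => ∏ i, a i ^ (c i : ℕ) := by
    intro x hx
    obtain ⟨w, -, rfl⟩ := mem_image.1 hx
    refine mem_image.2 ⟨fun i => ⟨(univ.filter fun k => w k = i).card,
      Nat.lt_succ_of_le ((card_filter_le _ _).trans (by simp))⟩, mem_univ _, ?_⟩
    rw [← prod_fiberwise' univ w a]
    exact prod_congr rfl fun i _ => by rw [prod_const]
  refine (card_le_card h1).trans (card_image_le.trans ?_)
  simp

theorem fi_exists_m (N : ℕ) {ε : ℝ} (hε : 0 < ε) :
    ∃ m : ℕ, m ≠ 0 ∧ N * Real.log (m + 1) < m * ε := by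
  have hc : 0 < ε / (2 * (N + 1)) := by positivity
  obtain ⟨T, hT⟩ := Filter.eventually_atTop.1 (Real.isLittleO_log_id_atTop.bound hc)
  obtain ⟨n, hn⟩ := exists_nat_ge T
  refine ⟨n + 1, n.succ_ne_zero, ?_⟩
  have hn0 : (0 : ℝ) ≤ n := Nat.cast_nonneg n
  have hN0 : (0 : ℝ) ≤ N := Nat.cast_nonneg N
  have h1 := hT ((n + 1 : ℕ) + 1) (by push_cast; linarith)
  rw [Real.norm_eq_abs, Real.norm_eq_abs, id, abs_of_pos (a := ((n + 1 : ℕ) : ℝ) + 1)
    (by positivity)] at h1
  have h2 := (le_abs_self _).trans h1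
  have h3 : ε / (2 * (N + 1)) * (((n + 1 : ℕ) : ℝ) + 1) ≤ ε / (N + 1) * (n + 1 : ℕ) := by
    have h4 : ε / (N + 1) = ε / (2 * (N + 1)) * 2 := by field_simp
    rw [h4, mul_assoc]
    refine mul_le_mul_of_nonneg_left ?_ hc.le
    push_cast
    linarith
  have h5 : (N : ℝ) * (ε / (N + 1)) < ε := by
    rw [← mul_div_assoc, div_lt_iff₀ (by positivity)]
    nlinarith
  calc (N : ℝ) * Real.log ((n + 1 : ℕ) + 1) ≤ N * (ε / (N + 1) * (n + 1 : ℕ)) :=
        mul_le_mul_of_nonneg_left (h2.trans h3) hN0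
    _ = (n + 1 : ℕ) * (N * (ε / (N + 1))) := by ring
    _ < (n + 1 : ℕ) * ε := mul_lt_mul_of_pos_left h5 (by positivity)

theorem fi_lower (h : SS a b p μ) {s : ℝ} (hs0 : 0 < s) (hs1 : s < 1)
    (hs : s < entropyRate a b p / lyapunov a p) : ENNReal.ofReal s ≤ measureDim μ := by
  classical
  rw [lt_div_iff₀ (fi_lyap_pos h)] at hs
  have h1 : s * ∑ i, p i * -Real.log |a i| < entropyRate a b p * Real.log 2 := by
    rw [← fi_lyap, ← mul_assoc]
    exact mul_lt_mul_of_pos_right hs fi_log_two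
  obtain ⟨m, hm, hm'⟩ := fi_exists_m (Fintype.card W) (sub_pos.2 h1)
  have hB := h.block hm
  obtain ⟨K, hK1, hK⟩ := hB.exists_K
  have := hB.pv.nonempty
  refine dim_lower hB hK1 hK hs0 (core hB (h' := m * (entropyRate a b p * Real.log 2) -
    Real.log (univ.image fun w : Fin m → W => ∏ k, a (w k)).card) hK1 hK hs1 ?_ fun n => ?_)
  · rw [fi_chi_block h]
    have h2 : Real.log (univ.image fun w : Fin m → W => ∏ k, a (w k)).card ≤
        Fintype.card W * Real.log (m + 1) := by
      rw [← Real.log_pow]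
      refine Real.log_le_log (Nat.cast_pos.2 (card_pos.2 (univ_nonempty.image _))) ?_
      exact_mod_cast fi_card m
    nlinarith
  · rw [fi_ent_block, sub_add_cancel]
    have h2 := mul_le_mul_of_nonneg_right (fi_rate_le (a := a) (b := b) h.pv (n * m)) fi_log_two.le
    push_cast at h2
    nlinarith

theorem fi_upper (h : SS a b p μ) {d : ℝ} (hd : entropyRate a b p / lyapunov a p < d) :
    measureDim μ ≤ ENNReal.ofReal d := by
  classical
  have hd0 : 0 ≤ d := (div_nonneg (fi_rate_nonneg h.pv) (fi_lyap_pos h).le).trans hd.le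
  rw [div_lt_iff₀ (fi_lyap_pos h)] at hd
  obtain ⟨n, hn⟩ := exists_lt_of_ciInf_lt hd
  rw [div_lt_iff₀ (by positivity)] at hn
  have hB := h.block n.succ_ne_zero
  have hpos := hB.pv.pos
  refine dim_upper hB (q := fun w => same a b p (n + 1) (List.ofFn w)) (fun w => ?_) (fun w => ?_)
    hd0 ?_
  · rw [← fi_mapProb]
    exact sum_pos (fun w _ => hpos w) ⟨w, by simp⟩
  · rw [← fi_mapProb]
    refine sum_le_sum_of_subset_of_nonneg (fun v hv => ?_) fun v _ _ => (hpos v).le
    have h1 := (mem_filter.1 hv).2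
    refine mem_filter.2 ⟨mem_univ _, ?_, congrFun h1 0⟩
    rw [← fi_prod, ← fi_prod, ← du_slope (b := b), ← du_slope (b := b), h1]
  · rw [fi_chi_block h, ← EE_ofFn (n + 1) fun l => -Real.log (same a b p (n + 1) l), ← fi_walk,
      ← fi_lyap]
    have := mul_lt_mul_of_pos_right hn fi_log_two
    linarith

end aux

theorem dim_formula {Λ : Type} [Fintype Λ] {r t p : Λ → ℝ} {μ : Measure ℝ} (h : SS r t p μ) :
    measureDim μ = ENNReal.ofReal (min 1 (entropyRate r t p / lyapunov r p)) := by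
  refine le_antisymm ?_ (le_of_forall_lt fun c hc => ?_)
  · rw [ENNReal.ofReal_min]
    refine le_min ?_ (ENNReal.le_of_forall_pos_le_add fun ε hε _ => ?_)
    · have := h.prob
      rw [ENNReal.ofReal_one, ← Real.dimH_univ]
      exact iInf_le_of_le Set.univ (iInf_le_of_le MeasurableSet.univ (iInf_le _ (by simp)))
    · refine (fi_upper h (lt_add_of_pos_right _ (NNReal.coe_pos.2 hε))).trans ?_
      rw [ENNReal.ofReal_add (div_nonneg (fi_rate_nonneg h.pv) (fi_lyap_pos h).le) ε.coe_nonneg,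
        ENNReal.ofReal_coe_nnreal]
  · obtain ⟨s, -, h1, h2⟩ := ENNReal.lt_iff_exists_real_btwn.1 hc
    have h3 := (ENNReal.ofReal_lt_ofReal_iff'.1 h2).1
    exact h1.trans_le (fi_lower h (ENNReal.ofReal_pos.1 (zero_le.trans_lt h1))
      (h3.trans_le (min_le_left _ _)) (h3.trans_le (min_le_right _ _)))

end Vale.Agent.P114
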