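import Vale.Agent.P114.Ent

/-! Entropy gain from a two-point shift. -/

namespace Vale.Agent.P114

open Finset MeasureTheory Real

variable {m Y Z : Lw} {r d : ℝ}

/-- Entropy gain under a two-point shift. -/
noncomputable def aa (r d : ℝ) (Y : Lw) : ℝ := HH r (bb d * Y) - HH r Y

theorem aa_nonneg (hY : Pb Y) (hr : 0 < r) (d : ℝ) : 0 ≤ aa r d Y :=
  sub_nonneg.2 ((good_HH hr).le_mul (pb_bb d) hY)

theorem aa_mul_le (hZ : Pb Z) (hY : Pb Y) (hr : 0 < r) (d : ℝ) : aa r d (Z * Y) ≤ aa r d Y := by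
  have := (good_bb hr d).le_mul hZ hY
  simp only [aa]
  linarith

theorem aa_double (hY : Pb Y) (hr : 0 < r) (d : ℝ) : aa r (2 * d) Y ≤ 4 * aa r d Y := by
  have h1 := aa_mul_le (pb_bb d) hY hr d
  have h2 : bb d * (bb d * Y) = (1 / 2 : ℝ) • (dl d * Y) + (1 / 2 : ℝ) • (bb (2 * d) * Y) := by
    rw [← mul_assoc, ← smul_mul_assoc, ← smul_mul_assoc, ← add_mul]
    congr 1
    refine ext_ex fun F => ?_
    simp only [ex_mul, ex_bb, ex_add, ex_smul, ex_dl, add_zero, zero_add, two_mul]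
    ring
  have h3 := (good_HH hr).conc.2 ((pb_dl d).mul hY) ((pb_bb (2 * d)).mul hY)
    (show (0 : ℝ) ≤ 1 / 2 by norm_num) (show (0 : ℝ) ≤ 1 / 2 by norm_num) (by norm_num)
  rw [← h2, (good_HH hr).tr _ _ hY, smul_eq_mul, smul_eq_mul] at h3
  simp only [aa] at h1 ⊢
  linarith

theorem aa_pow (hY : Pb Y) (hr : 0 < r) (d : ℝ) (k : ℕ) :
    aa r (2 ^ k * d) Y ≤ 4 ^ k * aa r d Y := by
  induction k with
  | zero => simp
  | succ k ih =>
    have := aa_double hY hr (2 ^ k * d)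
    rw [pow_succ', pow_succ', mul_assoc, mul_assoc]
    linarith

/-- The uniform law on an arithmetic progression. -/
noncomputable def uu (k : ℕ) (d : ℝ) : Lw := ∑ i ∈ range (2 ^ k), (2 ^ k : ℝ)⁻¹ • dl (i * d)

theorem pb_uu (k : ℕ) (d : ℝ) : Pb (uu k d) :=
  pb_sum (fun _ _ => by positivity) (by simp) fun _ _ => pb_dl _

theorem uu_succ (k : ℕ) (d : ℝ) : uu (k + 1) d = bb (2 ^ k * d) * uu k d := by
  refine ext_ex fun F => ?_
  simp only [uu, ex_mul, ex_bb, ex_sum, ex_smul, ex_dl, zero_add]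
  rw [pow_succ 2 k, mul_two, sum_range_add, ← sum_add_distrib, ← sum_add_distrib, sum_div]
  refine sum_congr rfl fun i _ => ?_
  push_cast
  rw [add_mul, pow_succ]
  field_simp

theorem HH_uu_mul (hY : Pb Y) (hr : 0 < r) (d : ℝ) (k : ℕ) :
    HH r (uu k d * Y) - HH r Y ≤ 4 ^ k * aa r d Y := by
  have h0 := aa_nonneg hY hr d
  induction k with
  | zero => simpa [uu, dl_zero] using h0
  | succ k ih =>
    have h1 := (aa_mul_le (pb_uu k d) hY hr (2 ^ k * d)).trans (aa_pow hY hr d k)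
    have h2 : 0 ≤ 4 ^ k * aa r d Y := by positivity
    rw [uu_succ, mul_assoc, pow_succ', mul_assoc]
    rw [aa] at h1
    linarith

theorem le_HH_uu (hr : 0 < r) (hd : 2 * r ≤ d) (k : ℕ) : k * log 2 ≤ HH r (uu k d) := by
  have h1 := (pb_uu k d).le_HH hr (c := fun _ => (2 ^ k : ℝ)⁻¹) fun x _ s _ => by
    simp only [ms, uu, ex_sum, ex_smul, ex_dl, ← mul_sum, bx, sum_boole]
    refine mul_le_of_le_one_right (by positivity) ?_
    norm_cast
    refine card_le_one.2 fun i hi j hj => ?_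
    have h2 := abs_sub_le (i * d) s (j * d)
    rw [abs_sub_comm s, ← sub_mul, abs_mul, abs_of_pos (by linarith : 0 < d)] at h2
    have h3 : |(i : ℝ) - j| * d < 1 * d := by linarith [(mem_filter.1 hi).2, (mem_filter.1 hj).2]
    have h4 := lt_of_mul_lt_mul_right h3 (by linarith)
    have h5 : |(i : ℤ) - j| < 1 := by exact_mod_cast h4
    have := Int.abs_lt_one_iff.1 h5
    omega
  rwa [(pb_uu k d).const, log_inv, neg_neg, log_pow] at h1

theorem HH_uu_le (hr : 0 < r) (hd : 0 < d) (k : ℕ) :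
    HH r (uu k d) ≤ log (1 + 2 ^ k * d / r) := by
  refine (pb_uu k d).HH_le_diam hr (by positivity) fun x hx y hy => ?_
  obtain ⟨i, hi, rfl⟩ := mem_sp_sum hx
  obtain ⟨j, hj, rfl⟩ := mem_sp_sum hy
  have h1 : (i : ℝ) < 2 ^ k := by exact_mod_cast mem_range.1 hi
  have h2 : (j : ℝ) < 2 ^ k := by exact_mod_cast mem_range.1 hj
  rw [← sub_mul, abs_mul, abs_of_pos hd]
  refine mul_lt_mul_of_pos_right (abs_lt.2 ⟨?_, ?_⟩) hd
  · linarith [(Nat.cast_nonneg j : (0 : ℝ) ≤ j)]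
  · linarith [(Nat.cast_nonneg i : (0 : ℝ) ≤ i)]

theorem aa_lower (hY : Pb Y) (hr : 0 < r) (h1 : 2 * r ≤ d) (h2 : d ≤ 4 * r) (k : ℕ) :
    k * log 2 - log 2 - (HH r Y - HH (2 ^ (k + 2) * r) Y) ≤ 4 ^ k * aa r d Y := by
  have hR : 0 < 2 ^ (k + 2) * r := by positivity
  have e1 := (good_win hR (k + 2)).le_mul' (pb_uu k d) hY
  have e0 : 2 ^ (k + 2) * r / 2 ^ (k + 2) = r := by field_simp
  rw [e0] at e1
  have e2 := (good_HH hR).le_mul (pb_uu k d) hY
  have e3 := le_HH_uu hr h1 k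
  have e4 := (HH_uu_le hR (by linarith : 0 < d) k).trans (log_le_log (by
    have : 0 < d := by linarith
    positivity) (show 1 + 2 ^ k * d / (2 ^ (k + 2) * r) ≤ 2 by
      have : 2 ^ k * d / (2 ^ (k + 2) * r) ≤ 1 := by
        rw [div_le_one hR, pow_add, mul_assoc]
        gcongr
        linarith
      linarith))
  have e5 := HH_uu_mul hY hr d k
  linarith

theorem aa_le_fine (hY : Pb Y) (hr : 0 < r) (d : ℝ) (i : ℕ) : aa r d Y ≤ aa (r / 2 ^ i) d Y := by
  have := (good_win hr i).le_mul (pb_bb d) hY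
  simp only [aa]
  linarith

theorem HH_bb_le (hr : 0 < r) (hd : 0 < d) : HH r (bb d) ≤ 2 * d / r := by
  refine ((pb_bb d).HH_le_diam hr (d := 2 * d) (by positivity) fun x hx y hy => ?_).trans ?_
  · rcases mem_sp_bb hx with rfl | rfl <;> rcases mem_sp_bb hy with rfl | rfl <;>
      simp [abs_of_pos, hd]
  · linarith [log_le_sub_one_of_pos (show 0 < 1 + 2 * d / r by positivity)]

theorem le_HH_bb (hr : 0 < r) (hd : 2 * r ≤ d) : log 2 ≤ HH r (bb d) := by
  have := le_HH_uu hr hd 1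
  rw [uu_succ] at this
  simpa [uu, dl_zero] using this

theorem aa_le (hY : Pb Y) (hr : 0 < r) (hd : 0 < d) : aa r d Y ≤ 2 * d / r := by
  have h1 := aa_mul_le hY pb_one hr d
  have h2 := pb_one.HH_nonneg hr
  rw [mul_one, aa.eq_1 r d 1, mul_one] at h1
  linarith [HH_bb_le hr hd]

variable {D : Lw → ℝ}

theorem Good.mul_right (h : Good D) (hY : Pb Y) : Good fun m => D (m * Y) :=
  ⟨⟨convex_pb, fun x hx y hy a b ha hb hab => by
    simp only [add_mul, smul_mul_assoc]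
    exact h.conc.2 (Pb.mul hx hY) (Pb.mul hy hY) ha hb hab⟩,
   fun a m hm => by simp only [mul_assoc, h.tr _ _ (hm.mul hY)]⟩

theorem good_sum {ι : Type*} (s : Finset ι) {D : ι → Lw → ℝ} (h : ∀ i ∈ s, Good (D i)) :
    Good fun m => ∑ i ∈ s, D i m := by
  classical
  induction s using Finset.induction_on with
  | empty => simpa using good_const 0
  | insert a s ha ih =>
    simp only [sum_insert ha]
    exact (h a (mem_insert_self _ _)).add (ih fun i hi => h i (mem_insert_of_mem hi))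

theorem sum_window {γ : ℕ → ℝ} (h : Monotone γ) (I L : ℕ) :
    ∑ j ∈ range I, (γ (j + L) - γ j) ≤ L * (γ (I + L) - γ 0) := by
  have h1 := sum_range_add γ I L
  have h2 := sum_range_add γ L I
  rw [add_comm L I] at h2
  have h3 : ∑ i ∈ range L, (γ (I + i) - γ i) ≤ ∑ _i ∈ range L, (γ (I + L) - γ 0) :=
    sum_le_sum fun i hi => sub_le_sub (h (by have := mem_range.1 hi; omega)) (h (Nat.zero_le _))
  simp only [sum_sub_distrib, sum_const, card_range, nsmul_eq_mul, add_comm _ L] at h3 ⊢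
  rw [add_comm L I] at h3 ⊢
  linarith

end Vale.Agent.P114
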