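import Mathlib

/-! Finitely supported laws on the line, as elements of the group algebra. -/

namespace Vale.Agent.P114

open Finset

/-- Finitely supported signed measures with convolution. -/
abbrev Lw : Type := AddMonoidAlgebra ℝ ℝ

/-- Dirac mass. -/
noncomputable def dl (a : ℝ) : Lw := AddMonoidAlgebra.single a 1

/-- The support. -/
def sp (m : Lw) : Finset ℝ := m.coeff.support

/-- Integral against a law. -/
noncomputable def ex (m : Lw) (F : ℝ → ℝ) : ℝ := ∑ x ∈ sp m, m.coeff x * F x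

/-- Image under a dilation. -/
noncomputable def sc (c : ℝ) : Lw →ₐ[ℝ] Lw :=
  AddMonoidAlgebra.mapDomainAlgHom ℝ ℝ (AddMonoidHom.mulLeft c)

variable {m m' Y Z : Lw} {F G : ℝ → ℝ}

theorem ex_eq (m : Lw) (F : ℝ → ℝ) : ex m F = Finsupp.linearCombination ℝ F m.coeff := rfl

theorem ex_add (m m' : Lw) (F : ℝ → ℝ) : ex (m + m') F = ex m F + ex m' F := by
  simp [ex_eq]

theorem ex_smul (c : ℝ) (m : Lw) (F : ℝ → ℝ) : ex (c • m) F = c * ex m F := by
  simp [ex_eq]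

theorem ex_zero (F : ℝ → ℝ) : ex 0 F = 0 := by simp [ex_eq]

theorem ex_sum {ι : Type*} (s : Finset ι) (m : ι → Lw) (F : ℝ → ℝ) :
    ex (∑ i ∈ s, m i) F = ∑ i ∈ s, ex (m i) F := by
  simp [ex_eq]

theorem ex_single (a c : ℝ) (F : ℝ → ℝ) : ex (AddMonoidAlgebra.single a c) F = c * F a := by
  simp [ex_eq]

theorem ex_dl (a : ℝ) (F : ℝ → ℝ) : ex (dl a) F = F a := by rw [dl, ex_single, one_mul]

theorem dl_zero : dl 0 = 1 := rfl

theorem dl_mul (a b : ℝ) : dl a * dl b = dl (a + b) := by simp [dl]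

theorem ex_add' (m : Lw) (F G : ℝ → ℝ) : ex m (fun x => F x + G x) = ex m F + ex m G := by
  simp [ex, mul_add, sum_add_distrib]

theorem ex_sub' (m : Lw) (F G : ℝ → ℝ) : ex m (fun x => F x - G x) = ex m F - ex m G := by
  simp [ex, mul_sub, sum_sub_distrib]

theorem ex_mul' (m : Lw) (c : ℝ) (F : ℝ → ℝ) : ex m (fun x => c * F x) = c * ex m F := by
  simp [ex, mul_sum, mul_left_comm]

theorem ex_mul'' (m : Lw) (c : ℝ) (F : ℝ → ℝ) : ex m (fun x => F x * c) = ex m F * c := by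
  simp [ex, sum_mul, mul_assoc]

theorem ex_congr (h : ∀ x ∈ sp m, F x = G x) : ex m F = ex m G :=
  sum_congr rfl fun x hx => by rw [h x hx]

theorem ex_mul (m m' : Lw) (F : ℝ → ℝ) :
    ex (m * m') F = ex m fun x => ex m' fun y => F (x + y) := by
  induction m using AddMonoidAlgebra.induction_linear with
  | zero => simp [ex_zero]
  | add a b ha hb => rw [add_mul, ex_add, ex_add, ha, hb]
  | single a c =>
    rw [ex_single]
    induction m' using AddMonoidAlgebra.induction_linear with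
    | zero => simp [ex_zero]
    | add a b ha hb => rw [mul_add, ex_add, ex_add, ha, hb, mul_add]
    | single a' c' => rw [AddMonoidAlgebra.single_mul_single, ex_single, ex_single, mul_assoc]

theorem ex_sc (c : ℝ) (m : Lw) (F : ℝ → ℝ) : ex (sc c m) F = ex m fun x => F (c * x) := by
  induction m using AddMonoidAlgebra.induction_linear with
  | zero => simp [ex_zero]
  | add a b ha hb => rw [map_add, ex_add, ex_add, ha, hb]
  | single a d => simp [sc, ex_single]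

theorem coeff_eq_ex (m : Lw) (a : ℝ) : m.coeff a = ex m fun x => if x = a then 1 else 0 := by
  simp only [ex, mul_ite, mul_one, mul_zero, sum_ite_eq', sp, Finsupp.mem_support_iff]
  split_ifs with h
  · rfl
  · exact not_not.1 h

theorem ext_ex (h : ∀ F, ex m F = ex m' F) : m = m' := by
  ext a
  rw [coeff_eq_ex, coeff_eq_ex, h]

theorem sc_sc (c d : ℝ) (m : Lw) : sc c (sc d m) = sc (c * d) m :=
  ext_ex fun F => by simp only [ex_sc, mul_assoc]

theorem sc_one (m : Lw) : sc 1 m = m := ext_ex fun F => by simp only [ex_sc, one_mul]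

theorem eq_sum_dl (m : Lw) : m = ∑ x ∈ sp m, m.coeff x • dl x :=
  ext_ex fun F => by simp only [ex_sum, ex_smul, ex_dl]; rfl

theorem mem_sp {x : ℝ} : x ∈ sp m ↔ m.coeff x ≠ 0 := Finsupp.mem_support_iff

theorem mem_sp_of_ex {x : ℝ} {P : ℝ → Prop} (hx : x ∈ sp m)
    (h : ∀ F : ℝ → ℝ, (∀ y, P y → F y = 0) → ex m F = 0) : P x := by
  by_contra hn
  refine mem_sp.1 hx ?_
  rw [coeff_eq_ex]
  exact h _ fun y hy => if_neg fun h' : y = x => hn (h' ▸ hy)

theorem ex_eq_zero (h : ∀ x ∈ sp m, F x = 0) : ex m F = 0 :=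
  sum_eq_zero fun x hx => by rw [h x hx, mul_zero]

theorem mem_sp_mul {x : ℝ} (hx : x ∈ sp (m * m')) : ∃ y ∈ sp m, ∃ z ∈ sp m', x = y + z :=
  mem_sp_of_ex (P := fun x => ∃ y ∈ sp m, ∃ z ∈ sp m', x = y + z) hx fun F hF => by
    rw [ex_mul]
    exact ex_eq_zero fun y hy => ex_eq_zero fun z hz => hF _ ⟨y, hy, z, hz, rfl⟩

theorem mem_sp_sc {c x : ℝ} (hx : x ∈ sp (sc c m)) : ∃ y ∈ sp m, x = c * y :=
  mem_sp_of_ex (P := fun x => ∃ y ∈ sp m, x = c * y) hx fun F hF => by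
    rw [ex_sc]
    exact ex_eq_zero fun y hy => hF _ ⟨y, hy, rfl⟩

theorem mem_sp_sum {ι : Type*} {s : Finset ι} {w a : ι → ℝ} {x : ℝ}
    (hx : x ∈ sp (∑ i ∈ s, w i • dl (a i))) : ∃ i ∈ s, x = a i :=
  mem_sp_of_ex (P := fun x => ∃ i ∈ s, x = a i) hx fun F hF => by
    rw [ex_sum]
    exact sum_eq_zero fun i hi => by rw [ex_smul, ex_dl, hF _ ⟨i, hi, rfl⟩, mul_zero]

theorem mem_sp_one {x : ℝ} (hx : x ∈ sp 1) : x = 0 :=
  mem_sp_of_ex (P := fun x => x = 0) hx fun F hF => by rw [← dl_zero, ex_dl, hF 0 rfl]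

theorem card_sp_mul (m m' : Lw) : (sp (m * m')).card ≤ (sp m).card * (sp m').card := by
  classical
  rw [← card_product]
  refine le_trans (card_le_card fun x hx => ?_)
    (card_image_le (s := sp m ×ˢ sp m') (f := fun z => z.1 + z.2))
  obtain ⟨y, hy, z, hz, rfl⟩ := mem_sp_mul hx
  exact mem_image.2 ⟨(y, z), mem_product.2 ⟨hy, hz⟩, rfl⟩

theorem card_sp_sc (c : ℝ) (m : Lw) : (sp (sc c m)).card ≤ (sp m).card := by
  classical
  refine le_trans (card_le_card fun x hx => ?_) (card_image_le (s := sp m) (f := fun z => c * z))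
  obtain ⟨y, hy, rfl⟩ := mem_sp_sc hx
  exact mem_image.2 ⟨y, hy, rfl⟩

theorem card_sp_one : (sp 1).card ≤ 1 :=
  card_le_one.2 fun _ ha _ hb => (mem_sp_one ha).trans (mem_sp_one hb).symm

theorem card_sp_pow (m : Lw) (J : ℕ) : (sp (m ^ J)).card ≤ (J + 1) ^ (sp m).card := by
  classical
  have key : ∀ (J : ℕ) (y : ℝ), y ∈ sp (m ^ J) →
      ∃ c : ℝ → ℕ, (∀ x, c x ≤ J) ∧ y = ∑ x ∈ sp m, c x * x := by
    intro J
    induction J with
    | zero => exact fun y hy => ⟨fun _ => 0, fun _ => le_rfl, by simpa using mem_sp_one hy⟩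
    | succ J ih =>
      intro y hy
      rw [pow_succ] at hy
      obtain ⟨u, hu, z, hz, rfl⟩ := mem_sp_mul hy
      obtain ⟨c, hc, rfl⟩ := ih u hu
      refine ⟨fun x => c x + if x = z then 1 else 0, fun x => ?_, ?_⟩
      · have := hc x
        dsimp only
        split_ifs <;> omega
      · simp [add_mul, sum_add_distrib, hz]
  refine le_trans (card_le_card fun y hy => ?_) ((card_image_le
    (s := (univ : Finset (sp m → Fin (J + 1)))) (f := fun c => ∑ x : sp m, (c x : ℕ) * (x : ℝ))).trans_eq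
      (by simp))
  obtain ⟨c, hc, rfl⟩ := key J y hy
  refine mem_image.2 ⟨fun x => ⟨c x, Nat.lt_succ_of_le (hc x)⟩, mem_univ _, ?_⟩
  exact sum_coe_sort (sp m) fun x => (c x : ℝ) * x

/-- Probability laws. -/
structure Pb (m : Lw) : Prop where
  nn : ∀ x, 0 ≤ m.coeff x
  one : ex m (fun _ => 1) = 1

theorem Pb.pos (h : Pb m) {x : ℝ} (hx : x ∈ sp m) : 0 < m.coeff x :=
  (h.nn x).lt_of_ne' (mem_sp.1 hx)

theorem Pb.sum (h : Pb m) : ∑ x ∈ sp m, m.coeff x = 1 := by simpa [ex] using h.one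

theorem Pb.mono (h : Pb m) (hF : ∀ x ∈ sp m, F x ≤ G x) : ex m F ≤ ex m G :=
  sum_le_sum fun x hx => mul_le_mul_of_nonneg_left (hF x hx) (h.nn x)

theorem Pb.const (h : Pb m) (c : ℝ) : ex m (fun _ => c) = c := by
  have := ex_mul' m c fun _ => 1
  simpa [h.one] using this

theorem Pb.ex_le (h : Pb m) {c : ℝ} (hF : ∀ x ∈ sp m, F x ≤ c) : ex m F ≤ c :=
  (h.mono hF).trans_eq (h.const c)

theorem Pb.le_ex (h : Pb m) {c : ℝ} (hF : ∀ x ∈ sp m, c ≤ F x) : c ≤ ex m F :=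
  (h.const c).symm.trans_le (h.mono hF)

theorem Pb.single_le (h : Pb m) (hF : ∀ x, 0 ≤ F x) (x : ℝ) : m.coeff x * F x ≤ ex m F := by
  by_cases hx : x ∈ sp m
  · exact single_le_sum (f := fun x => m.coeff x * F x) (fun y _ => mul_nonneg (h.nn y) (hF y)) hx
  · rw [not_not.1 (mt mem_sp.2 hx), zero_mul]
    exact h.le_ex fun y _ => hF y

theorem pb_of_ex (h1 : ∀ F : ℝ → ℝ, (∀ x, 0 ≤ F x) → 0 ≤ ex m F) (h2 : ex m (fun _ => 1) = 1) :
    Pb m :=
  ⟨fun x => by rw [coeff_eq_ex]; exact h1 _ fun y => by split_ifs <;> norm_num, h2⟩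

theorem pb_dl (a : ℝ) : Pb (dl a) :=
  pb_of_ex (fun F hF => by rw [ex_dl]; exact hF a) (ex_dl _ _)

theorem pb_one : Pb 1 := pb_dl 0

theorem Pb.mul (h : Pb m) (h' : Pb m') : Pb (m * m') :=
  pb_of_ex (fun F hF => by
    rw [ex_mul]; exact h.le_ex fun x _ => h'.le_ex fun y _ => hF _)
    (by simp only [ex_mul, h'.one, h.one])

theorem Pb.pow (h : Pb m) (J : ℕ) : Pb (m ^ J) := by
  induction J with
  | zero => exact pb_one
  | succ J ih => rw [pow_succ]; exact ih.mul h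

theorem Pb.sc (h : Pb m) (c : ℝ) : Pb (sc c m) :=
  pb_of_ex (fun F hF => by rw [ex_sc]; exact h.le_ex fun x _ => hF _) (by rw [ex_sc, h.one])

theorem pb_sum {ι : Type*} {s : Finset ι} {w : ι → ℝ} {m : ι → Lw} (h0 : ∀ i ∈ s, 0 ≤ w i)
    (h1 : ∑ i ∈ s, w i = 1) (hm : ∀ i ∈ s, Pb (m i)) : Pb (∑ i ∈ s, w i • m i) :=
  pb_of_ex (fun F hF => by
    rw [ex_sum]
    exact sum_nonneg fun i hi => by
      rw [ex_smul]; exact mul_nonneg (h0 i hi) ((hm i hi).le_ex fun x _ => hF x))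
    (by
      rw [ex_sum]
      refine Eq.trans ?_ h1
      exact sum_congr rfl fun i hi => by rw [ex_smul, (hm i hi).one, mul_one])

theorem convex_pb : Convex ℝ {m : Lw | Pb m} := fun x hx y hy a b ha hb hab =>
  pb_of_ex (fun F hF => by
    rw [ex_add, ex_smul, ex_smul]
    exact add_nonneg (mul_nonneg ha (Pb.le_ex hx fun x _ => hF x))
      (mul_nonneg hb (Pb.le_ex hy fun x _ => hF x)))
    (by rw [ex_add, ex_smul, ex_smul, Pb.one hx, Pb.one hy, mul_one, mul_one, hab])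

/-- The fair two-point law. -/
noncomputable def bb (d : ℝ) : Lw := (1 / 2 : ℝ) • dl 0 + (1 / 2 : ℝ) • dl d

theorem pb_bb (d : ℝ) : Pb (bb d) :=
  convex_pb (pb_dl 0) (pb_dl d) (by norm_num) (by norm_num) (by norm_num)

theorem ex_bb (d : ℝ) (F : ℝ → ℝ) : ex (bb d) F = (F 0 + F d) / 2 := by
  simp only [bb, ex_add, ex_smul, ex_dl]; ring

theorem mem_sp_bb {d x : ℝ} (hx : x ∈ sp (bb d)) : x = 0 ∨ x = d :=
  mem_sp_of_ex (P := fun x => x = 0 ∨ x = d) hx fun F hF => by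
    rw [ex_bb, hF 0 (.inl rfl), hF d (.inr rfl)]; norm_num

/-- Concave translation invariant functionals. -/
structure Good (D : Lw → ℝ) : Prop where
  conc : ConcaveOn ℝ {m : Lw | Pb m} D
  tr : ∀ a m, Pb m → D (dl a * m) = D m

variable {D D' : Lw → ℝ}

theorem Good.add (h : Good D) (h' : Good D') : Good fun m => D m + D' m :=
  ⟨h.conc.add h'.conc, fun a m hm => by simp only [h.tr a m hm, h'.tr a m hm]⟩

theorem Good.smul (h : Good D) {c : ℝ} (hc : 0 ≤ c) : Good fun m => c * D m :=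
  ⟨h.conc.smul hc, fun a m hm => by simp only [h.tr a m hm]⟩

theorem good_const (c : ℝ) : Good fun _ => c := ⟨concaveOn_const c convex_pb, fun _ _ _ => rfl⟩

theorem Good.congr (h : Good D) (h' : ∀ m, Pb m → D m = D' m) : Good D' :=
  ⟨h.conc.congr fun m hm => h' m hm, fun a m hm => by
    rw [← h' _ ((pb_dl a).mul hm), ← h' m hm, h.tr a m hm]⟩

theorem Good.jensen (h : Good D) {ι : Type*} {s : Finset ι} {w : ι → ℝ} {m : ι → Lw}
    (h0 : ∀ i ∈ s, 0 ≤ w i) (h1 : ∑ i ∈ s, w i = 1) (hm : ∀ i ∈ s, Pb (m i)) :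
    ∑ i ∈ s, w i * D (m i) ≤ D (∑ i ∈ s, w i • m i) :=
  h.conc.le_map_sum h0 h1 hm

theorem Good.le_mul (h : Good D) (hZ : Pb Z) (hY : Pb Y) : D Y ≤ D (Z * Y) := by
  have := h.jensen (s := sp Z) (w := Z.coeff) (m := fun x => dl x * Y) (fun x _ => hZ.nn x) hZ.sum
    fun x _ => (pb_dl x).mul hY
  simp only [h.tr _ _ hY, ← sum_mul, hZ.sum, one_mul, ← smul_mul_assoc, ← eq_sum_dl] at this
  exact this

theorem Good.le_mul' (h : Good D) (hY : Pb Y) (hZ : Pb Z) : D Y ≤ D (Y * Z) := by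
  rw [mul_comm]; exact h.le_mul hZ hY

/-- A symmetric coupling of a law with itself. -/
structure Cpl (m : Lw) (π : ℝ → ℝ → ℝ) : Prop where
  nn : ∀ x y, 0 ≤ π x y
  symm : ∀ x y, π x y = π y x
  marg : ∀ x ∈ sp m, ∑ y ∈ sp m, π x y = m.coeff x

theorem Cpl.sum {π : ℝ → ℝ → ℝ} (h : Cpl m π) (hm : Pb m) :
    ∑ z ∈ sp m ×ˢ sp m, π z.1 z.2 = 1 := by
  rw [sum_product, ← hm.sum]
  exact sum_congr rfl h.marg

theorem Good.cpl (h : Good D) {π : ℝ → ℝ → ℝ} (hπ : Cpl m π) (hm : Pb m) (hY : Pb Y) :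
    ∑ z ∈ sp m ×ˢ sp m, π z.1 z.2 * D (bb |z.1 - z.2| * Y) ≤ D (m * Y) := by
  have h1 := h.jensen (s := sp m ×ˢ sp m) (w := fun z => π z.1 z.2)
    (m := fun z => dl (min z.1 z.2) * (bb |z.1 - z.2| * Y)) (fun z _ => hπ.nn _ _) (hπ.sum hm)
    fun z _ => (pb_dl _).mul ((pb_bb _).mul hY)
  simp only [h.tr _ _ ((pb_bb _).mul hY)] at h1
  refine h1.trans_eq ?_
  simp only [← mul_assoc, ← smul_mul_assoc, ← sum_mul]
  congr 2
  refine ext_ex fun F => ?_
  have h2 : ∀ x y : ℝ, ex (π x y • dl (min x y) * bb |x - y|) F =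
      π x y * F x / 2 + π y x * F y / 2 := fun x y => by
    rw [smul_mul_assoc, ex_smul, ex_mul, ex_dl, ex_bb, hπ.symm y x]
    rcases le_total x y with hxy | hxy
    · rw [min_eq_left hxy, abs_of_nonpos (sub_nonpos.2 hxy)]
      simp only [add_zero, neg_sub, add_sub_cancel]
      ring
    · rw [min_eq_right hxy, abs_of_nonneg (sub_nonneg.2 hxy)]
      simp only [add_zero, add_sub_cancel]
      ring
  have h3 : ∑ x ∈ sp m, ∑ y ∈ sp m, π x y * F x / 2 = ex m F / 2 := by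
    rw [ex, sum_div]
    exact sum_congr rfl fun x hx => by rw [← sum_div, ← sum_mul, hπ.marg x hx]
  simp only [ex_sum, h2, sum_product, sum_add_distrib]
  rw [sum_comm (f := fun x y => π y x * F y / 2), h3]
  ring

end Vale.Agent.P114
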