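import Vale.Agent.P114.Model

/-! Below full dimension the entropy rate is seen at the natural scale. -/

namespace Vale.Agent.P114

open Finset Real Filter Topology

variable {T : Type} [Fintype T] {P ρ : T → ℝ} {η : T → Lw} {K r : ℝ} {d : ℕ}

/-- Shannon entropy of a law. -/
noncomputable def Sh (m : Lw) : ℝ := ex m fun x => -log (m.coeff x)

theorem Pb.eventually_sh {m : Lw} (h : Pb m) (hr : 0 < r) :
    ∀ᶠ I : ℕ in atTop, Sh m ≤ HH (r / 2 ^ I) m := by
  have ht : Tendsto (fun I : ℕ => 2 * (r / 2 ^ I)) atTop (𝓝 0) := by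
    have := (tendsto_pow_atTop_atTop_of_one_lt (show (1 : ℝ) < 2 by norm_num)).const_div_atTop r
    simpa using this.const_mul 2
  have h1 : ∀ᶠ I : ℕ in atTop, ∀ x ∈ sp m, ∀ y ∈ sp m, |y - x| < 2 * (r / 2 ^ I) → y = x := by
    refine (eventually_all_finset _).2 fun x _ => (eventually_all_finset _).2 fun y _ => ?_
    by_cases hxy : y = x
    · exact .of_forall fun _ _ => hxy
    · filter_upwards [ht.eventually (gt_mem_nhds (abs_pos.2 (sub_ne_zero.2 hxy)))] with I hI h2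
      exact absurd h2 hI.not_gt
  filter_upwards [h1] with I hI
  exact h.sh_le_HH (by positivity) hI

/-- Entropy of the sum of a law with the scaled tail. -/
noncomputable def GG (P ρ : T → ℝ) (η : T → Lw) (M : ℕ) (R r : ℝ) (m : Lw) : ℝ :=
  EE P M fun l => HH r (m * sc R (law ρ η l))

namespace Md

theorem GG_one {R : ℝ} (hR : R ≠ 0) (M : ℕ) (r : ℝ) :
    GG P ρ η M R r 1 = FF P ρ η M (r / |R|) := by
  simp only [GG, FF, one_mul, HH_sc hR]

theorem good_GG (h : Md P ρ η K d) (hr : 0 < r) (M k : ℕ) (R : ℝ) :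
    Good fun m => GG P ρ η M R (r / 2 ^ k) m - GG P ρ η M R r m := by
  simp only [GG, ← EE_sub]
  exact good_EE h.pv M fun l => (good_win hr k).mul_right ((h.pb_law l).sc R)

theorem pair_gain (h : Md P ρ η K d) {β C : ℝ}
    (hβ : ∀ r' r, 0 < r' → r' ≤ r → ff P ρ η r' - ff P ρ η r ≤ β * log (r / r') + C) {k : ℕ}
    (hk : 1 + log 2 + (β * ((k + 2) * log 2) + C + 7) ≤ k * log 2) {M L : ℕ} {R rm D : ℝ}
    (hR : R ≠ 0) (hR1 : |R| ≤ 1) (hM : ∀ r', rm ≤ r' → ff P ρ η r' ≤ FF P ρ η M r' + 7)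
    (hr : 0 < r) (hm : rm ≤ r / 2 ^ L) (h1 : 2 * (r / 2 ^ L) ≤ D)
    (h2 : D < 2 * (r / 2 ^ (2 * k + 3))) :
    1 / (2 * 4 ^ k) ≤ (GG P ρ η M R (r / 2 ^ L) (bb D) - GG P ρ η M R r (bb D)) -
      (GG P ρ η M R (r / 2 ^ L) 1 - GG P ρ η M R r 1) := by
  have hf : 0 < r / 2 ^ L := by positivity
  have hD : 0 < D := by linarith
  have hR0 : 0 < |R| := abs_pos.2 hR
  obtain ⟨i, h3, h4⟩ := exists_nat_pow_near ((one_le_div (by positivity)).2 h1)
    (show (1 : ℝ) < 2 by norm_num)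
  rw [le_div_iff₀ (by positivity)] at h3
  rw [div_lt_iff₀ (by positivity), pow_succ] at h4
  set r₁ := 2 ^ i * (r / 2 ^ L) with hr₁
  have p1 : 0 < r₁ := by positivity
  have p2 : r / 2 ^ L ≤ r₁ := le_mul_of_one_le_left hf.le (one_le_pow₀ (by norm_num))
  have p3 : r₁ ≤ 2 ^ (k + 2) * r₁ := le_mul_of_one_le_left p1.le (one_le_pow₀ (by norm_num))
  have p4 : r₁ / 2 ^ i = r / 2 ^ L := by rw [hr₁]; field_simp
  have e1 := hβ (r₁ / |R|) (2 ^ (k + 2) * r₁ / |R|) (by positivity) (by gcongr)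
  have e2 : 2 ^ (k + 2) * r₁ / |R| / (r₁ / |R|) = 2 ^ (k + 2) := by field_simp
  rw [e2, log_pow] at e1
  push_cast at e1
  have e3 := hM (2 ^ (k + 2) * r₁ / |R|)
    (hm.trans (p2.trans (p3.trans (le_div_self (by positivity) hR0 hR1))))
  have e4 := h.FF_le_ff (r := r₁ / |R|) (by positivity) M
  have e5 : EE P M (fun l => (4 ^ k : ℝ)⁻¹ * (k * log 2 - log 2 - (HH (r₁ / |R|) (law ρ η l) -
      HH (2 ^ (k + 2) * r₁ / |R|) (law ρ η l))) - 1 / (2 * 4 ^ k)) ≤
      (GG P ρ η M R (r / 2 ^ L) (bb D) - GG P ρ η M R r (bb D)) -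
      (GG P ρ η M R (r / 2 ^ L) 1 - GG P ρ η M R r 1) := by
    simp only [GG, ← EE_sub, one_mul]
    refine EE_mono h.pv fun l _ => ?_
    have hY := (h.pb_law l).sc R
    have f1 := aa_lower hY p1 (d := D) (by linarith) (by linarith) k
    rw [HH_sc hR, HH_sc hR, ← inv_mul_le_iff₀ (by positivity)] at f1
    have f2 := aa_le_fine hY p1 D i
    rw [p4] at f2
    have f3 := aa_le hY hr hD
    have f4 : 2 * D / r ≤ 1 / (2 * 4 ^ k) := by
      have : (2 : ℝ) ^ (2 * k + 3) = 4 ^ k * 8 := by rw [pow_add, pow_mul]; norm_num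
      rw [this] at h2
      have f5 : 2 * (2 * (r / (4 ^ k * 8))) / r = 1 / (2 * 4 ^ k) := by field_simp; norm_num
      rw [← f5]
      gcongr
    simp only [aa] at f1 f2 f3
    linarith
  refine le_trans ?_ e5
  rw [EE_sub, EE_mul, EE_sub, EE_sub, EE_sub, EE_const h.pv, EE_const h.pv, EE_const h.pv]
  have e6 : 1 ≤ k * log 2 - log 2 - (FF P ρ η M (r₁ / |R|) - FF P ρ η M (2 ^ (k + 2) * r₁ / |R|)) := by
    linarith
  have e7 := mul_le_mul_of_nonneg_left e6 (show (0 : ℝ) ≤ (4 ^ k)⁻¹ by positivity)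
  have e8 : (4 ^ k : ℝ)⁻¹ * 1 = 1 / (2 * 4 ^ k) + 1 / (2 * 4 ^ k) := by field_simp; norm_num
  simp only [FF] at e7
  linarith

theorem sum_qq_le (h : Md P ρ η K d) {β C : ℝ}
    (hβ : ∀ r' r, 0 < r' → r' ≤ r → ff P ρ η r' - ff P ρ η r ≤ β * log (r / r') + C) {k : ℕ}
    (hk : 1 + log 2 + (β * ((k + 2) * log 2) + C + 7) ≤ k * log 2) {M I t : ℕ} {R : ℝ}
    (hR : R ≠ 0) (hR1 : |R| ≤ 1) (hr : 0 < r)
    (hM : ∀ r', r / 2 ^ (I + (2 * k + 3 + (2 * t + 1))) ≤ r' → ff P ρ η r' ≤ FF P ρ η M r' + 7)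
    {m : Lw} (hm : Pb m) :
    ∑ j ∈ range I, qq m (r / 2 ^ (2 * k + 3) / 2 ^ j) (1 / 4 ^ t) ≤
      2 * 4 ^ k * ((2 * k + 3 + (2 * t + 1) : ℕ) *
        ((GG P ρ η M R (r / 2 ^ (I + (2 * k + 3 + (2 * t + 1)))) m -
          GG P ρ η M R (r / 2 ^ (I + (2 * k + 3 + (2 * t + 1)))) 1) -
        (GG P ρ η M R r m - GG P ρ η M R r 1))) := by
  set L := 2 * k + 3 + (2 * t + 1) with hL
  set γ : ℕ → ℝ := fun j => GG P ρ η M R (r / 2 ^ j) m - GG P ρ η M R (r / 2 ^ j) 1 with hγ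
  have hmono : Monotone γ := monotone_nat_of_le_succ fun j => by
    have := (h.good_GG (r := r / 2 ^ j) (by positivity) M 1 R).le_mul hm pb_one
    simp only [hγ, pow_succ, ← div_div, pow_zero, mul_one, div_one] at this ⊢
    linarith
  have h1 := sum_window hmono I L
  have h2 : ∀ j ∈ range I, 1 / (2 * 4 ^ k) * qq m (r / 2 ^ (2 * k + 3) / 2 ^ j) (1 / 4 ^ t) ≤
      γ (j + L) - γ j := fun j hj => by
    have hj' : 0 < r / 2 ^ j := by positivity
    have := (h.good_GG hj' M L R).gain hm (r := r / 2 ^ (2 * k + 3) / 2 ^ j) (κ := 1 / 4 ^ t)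
      (by positivity) fun D h1 h2 => h.pair_gain hβ hk hR hR1 hM hj' (by
        rw [div_div, ← pow_add]
        exact div_le_div_of_nonneg_left hr.le (by positivity) (pow_le_pow_right₀ (by norm_num)
          (by have := mem_range.1 hj; omega))) (le_trans (le_of_eq (by
            rw [hL, pow_add, pow_add _ (2 * t), pow_mul]
            field_simp
            norm_num)) h1) (by rwa [div_right_comm])
    refine this.trans (le_of_eq ?_)
    simp only [hγ, pow_add _ j, ← div_div]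
    ring
  have h3 := (sum_le_sum h2).trans h1
  rw [← mul_sum, one_div, inv_mul_le_iff₀ (by positivity)] at h3
  simpa only [hγ, pow_zero, div_one] using h3

theorem EE_GG (n M : ℕ) (r : ℝ) :
    EE P n (fun l => GG P ρ η M (l.map ρ).prod r (law ρ η l)) = FF P ρ η (n + M) r := by
  simp only [FF, EE_append, law_append, GG]

theorem main (h : Md P ρ η K d) {β C h' : ℝ} (hβ1 : β < 1)
    (hβ : ∀ r' r, 0 < r' → r' ≤ r → ff P ρ η r' - ff P ρ η r ≤ β * log (r / r') + C)
    (hlow : ∀ ε, 0 < ε → ∃ C' : ℝ, ∀ r, 0 < r → r ≤ 1 → (β - ε) * -log r - C' ≤ ff P ρ η r)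
    (hh : ∀ n : ℕ, n * h' ≤ EE P n fun l => Sh (law ρ η l)) :
    h' ≤ β * ∑ τ, P τ * -log |ρ τ| := by
  set χ := ∑ τ, P τ * -log |ρ τ| with hχ
  set V := ∑ τ, P τ * (-log |ρ τ| - χ) ^ 2 with hV
  have hχ0 : 0 ≤ χ := h.pv.le_sum fun τ => neg_nonneg.2 (log_nonpos (abs_nonneg _) (h.r1 τ).le)
  have l2 : 0 < log 2 := log_pos (by norm_num)
  have hC : 0 ≤ C := by simpa using hβ 1 1 one_pos le_rfl
  have hK : 0 < K := by linarith [h.K1]
  obtain ⟨k, hk⟩ : ∃ k : ℕ, 1 + log 2 + (β * ((k + 2) * log 2) + C + 7) ≤ k * log 2 := by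
    obtain ⟨k, hk⟩ := exists_nat_ge ((1 + log 2 + (β * (2 * log 2) + C + 7)) / ((1 - β) * log 2))
    rw [div_le_iff₀ (mul_pos (by linarith) l2)] at hk
    exact ⟨k, by linarith⟩
  have fin : ∀ ε, 0 < ε → ∃ B : ℝ, ∀ δ, 0 < δ → h' ≤ β * χ + ε * d + B * δ := by
    intro ε hε
    obtain ⟨t, ht⟩ := count_main hε
    set L := 2 * k + 3 + (2 * t + 1) with hL
    set B : ℝ := 4 ^ t * (2 * 4 ^ k * L) with hB
    have hB0 : 0 ≤ B := by positivity
    refine ⟨B * (χ + 1), fun δ hδ => ?_⟩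
    obtain ⟨C', hC'⟩ := hlow δ hδ
    set C₄ := log (1 + 3 * K / 1)
    have key : ∀ n : ℕ, (n + 1 : ℕ) * h' ≤ (n + 1 : ℕ) * (β * χ + ε * d + B * (χ + 1) * δ) +
        ((C₄ + β * ((2 * k + 3 : ℕ) * log 2) + C + 1) +
          B * (C + 7 + C' + 7 + (C₄ + C + V / δ))) := by
      intro n
      set N := n + 1 with hN
      have hN0 : (0 : ℝ) < N := by positivity
      set r := exp (-(N * χ)) with hr
      have hr0 : 0 < r := exp_pos _
      have hr1 : r ≤ 1 := exp_le_one_iff.2 (neg_nonpos.2 (by positivity))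
      have hlr : log r = -(N * χ) := log_exp _
      obtain ⟨I, hI⟩ := ((eventually_all_finite (List.finite_length_eq T N)).2 fun l _ =>
        (h.pb_law l).eventually_sh (r := r / 2 ^ (2 * k + 3)) (by positivity)).exists
      have hre : 0 < r / 2 ^ (I + L) := by positivity
      obtain ⟨M, hM⟩ := h.approx hre
      have hrr : r / 2 ^ (I + L) ≤ r := div_le_self hr0.le (one_le_pow₀ (by norm_num))
      have e1 : EE P N (fun l => Sh (law ρ η l)) ≤ EE P N fun l =>
          HH (r / 2 ^ (2 * k + 3)) (law ρ η l) + (B *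
            ((GG P ρ η M (l.map ρ).prod (r / 2 ^ (I + L)) (law ρ η l) -
              FF P ρ η M (r / 2 ^ (I + L) / |(l.map ρ).prod|)) -
            (GG P ρ η M (l.map ρ).prod r (law ρ η l) - FF P ρ η M (r / |(l.map ρ).prod|))) +
            (ε * (N * d : ℕ) + 1)) := by
        refine EE_mono h.pv fun l hl => ?_
        have f1 := ht (law ρ η l) (N * d : ℕ) (r / 2 ^ (2 * k + 3)) I (h.pb_law l)
          (by positivity) (by positivity) fun J => hl ▸ h.log_card_le J l
        have f2 := mul_le_mul_of_nonneg_left (h.sum_qq_le hβ hk (h.prod_ne l) (h.prod_le l) hr0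
          hM (h.pb_law l)) (show (0 : ℝ) ≤ 4 ^ t by positivity)
        rw [GG_one (h.prod_ne l), GG_one (h.prod_ne l), ← mul_assoc (2 * 4 ^ k), ← mul_assoc,
          ← hL, ← hB] at f2
        have f3 := hI l hl
        linarith
      rw [EE_add, EE_add, EE_const h.pv, EE_mul, EE_sub, EE_sub, EE_sub, EE_GG, EE_GG] at e1
      have e2 : EE P N (fun l => HH (r / 2 ^ (2 * k + 3)) (law ρ η l)) ≤
          C₄ + β * (N * χ + (2 * k + 3 : ℕ) * log 2) + C := by
        have p1 : 0 < r / 2 ^ (2 * k + 3) := by positivity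
        have f1 := hβ _ 1 p1 ((div_le_self hr0.le (one_le_pow₀ (by norm_num))).trans hr1)
        rw [one_div, log_inv, log_div hr0.ne' (by positivity), hlr, log_pow] at f1
        have f2 := h.FF_le_ff p1 N
        have f3 := h.ff_le one_pos
        rw [FF] at f2
        linarith
      have e3 : FF P ρ η (N + M) (r / 2 ^ (I + L)) -
          EE P N (fun l => FF P ρ η M (r / 2 ^ (I + L) / |(l.map ρ).prod|)) ≤
          β * (N * χ) + (C + 7) := by
        rw [← EE_const h.pv (n := N) (FF P ρ η (N + M) _), ← EE_sub, hχ, ← EE_map_sum h.pv,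
          ← EE_mul, ← EE_const h.pv (n := N) (C + 7), ← EE_add]
        refine EE_mono h.pv fun l _ => ?_
        have p1 := abs_pos.2 (h.prod_ne l)
        have p2 := le_div_self hre.le p1 (h.prod_le l)
        have f1 := hβ _ _ hre p2
        rw [div_right_comm (r / 2 ^ (I + L)) _ (r / 2 ^ (I + L)), div_self hre.ne', one_div,
          log_inv, h.log_prod] at f1
        linarith [hM _ p2, h.FF_le_ff hre (N + M)]
      have e4 : EE P N (fun l => FF P ρ η M (r / |(l.map ρ).prod|)) ≤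
          C₄ + C + (V / δ + δ * N) := by
        have f0 : V / δ = (δ * N)⁻¹ * (N * V) := by field_simp
        rw [f0, hV, hχ, ← EE_var h.pv, ← EE_mul, ← EE_const h.pv (n := N) (δ * N), ← EE_add,
          ← EE_const h.pv (n := N) (C₄ + C), ← EE_add, ← hχ]
        simp only [EE_const h.pv]
        refine EE_mono h.pv fun l _ => ?_
        have p1 := abs_pos.2 (h.prod_ne l)
        have p2 : 0 < r / |(l.map ρ).prod| := by positivity
        have f1 : log (r / |(l.map ρ).prod|) = (l.map fun τ => -log |ρ τ|).sum - N * χ := by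
          rw [log_div hr0.ne' p1.ne', hlr, ← h.log_prod]
          ring
        rw [← f1]
        set v := r / |(l.map ρ).prod|
        have f2 : -log v ≤ (δ * N)⁻¹ * log v ^ 2 + δ * N ∧
            0 ≤ (δ * N)⁻¹ * log v ^ 2 + δ * N := by
          refine ⟨?_, by positivity⟩
          have : (δ * N)⁻¹ * log v ^ 2 + δ * N + log v =
              ((log v + δ * N / 2) ^ 2 + 3 / 4 * (δ * N) ^ 2) / (δ * N) := by
            field_simp
            ring
          have f3 : 0 ≤ ((log v + δ * N / 2) ^ 2 + 3 / 4 * (δ * N) ^ 2) / (δ * N) := by positivity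
          linarith
        refine (h.FF_le_ff p2 M).trans ?_
        rcases le_total v 1 with h1 | h1
        · have f3 := hβ v 1 p2 h1
          rw [one_div, log_inv] at f3
          have f4 := mul_le_of_le_one_left (neg_nonneg.2 (log_nonpos p2.le h1)) hβ1.le
          linarith [h.ff_le one_pos, f2.1]
        · have f3 : log (1 + 3 * K / v) ≤ C₄ := log_le_log (by positivity) (by gcongr)
          linarith [h.ff_le p2, f2.2]
      have e5 : (β - δ) * (N * χ) - C' - 7 ≤ FF P ρ η (N + M) r := by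
        have f1 := hC' r hr0 hr1
        rw [hlr, neg_neg] at f1
        have f2 : FF P ρ η M r ≤ FF P ρ η (N + M) r := h.FF_mono hr0 (Nat.le_add_left M N)
        linarith [hM r hrr]
      have e6 := mul_le_mul_of_nonneg_left (show (FF P ρ η (N + M) (r / 2 ^ (I + L)) -
          EE P N (fun l => FF P ρ η M (r / 2 ^ (I + L) / |(l.map ρ).prod|))) -
          (FF P ρ η (N + M) r - EE P N fun l => FF P ρ η M (r / |(l.map ρ).prod|)) ≤
          N * ((χ + 1) * δ) + (C + 7 + C' + 7 + (C₄ + C + V / δ)) by linarith) hB0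
      have e7 := hh N
      push_cast at e1 e2 e7 ⊢
      linarith
    by_contra hn
    rw [not_le, ← sub_pos] at hn
    obtain ⟨n, hn'⟩ := exists_nat_gt (((C₄ + β * ((2 * k + 3 : ℕ) * log 2) + C + 1) +
      B * (C + 7 + C' + 7 + (C₄ + C + V / δ))) / (h' - (β * χ + ε * d + B * (χ + 1) * δ)))
    rw [div_lt_iff₀ hn] at hn'
    have := key n
    push_cast at this hn'
    nlinarith
  have fin2 : ∀ {x y B : ℝ}, (∀ δ, 0 < δ → x ≤ y + B * δ) → x ≤ y := fun {x y B} hx => by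
    refine le_of_forall_pos_le_add fun e he => (hx (e / (|B| + 1)) (by positivity)).trans ?_
    have h1 : B * (e / (|B| + 1)) ≤ (|B| + 1) * (e / (|B| + 1)) :=
      mul_le_mul_of_nonneg_right (by linarith [le_abs_self B]) (by positivity)
    rw [mul_div_cancel₀ _ (by positivity)] at h1
    linarith
  refine fin2 (B := d) fun ε hε => ?_
  obtain ⟨B, hB⟩ := fin ε hε
  rw [mul_comm (d : ℝ)]
  exact fin2 hB

theorem exists_scale (h : Md P ρ η K d) {s h' : ℝ} (hs1 : s < 1)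
    (hs : s * ∑ τ, P τ * -log |ρ τ| < h')
    (hh : ∀ n : ℕ, n * h' ≤ EE P n fun l => Sh (law ρ η l)) (C : ℝ) :
    ∃ δ : ℝ, 0 < δ ∧ δ < 1 ∧ ∃ M : ℕ, s * -log δ + C ≤ FF P ρ η M δ := by
  obtain ⟨β, C₁, -, h1, h2⟩ := h.exists_beta
  have hsβ : s < β := by
    rcases lt_or_ge β 1 with h3 | h3
    · have h4 := hs.trans_le (h.main h3 h1 h2 hh)
      exact lt_of_mul_lt_mul_right h4 (h.pv.le_sum fun τ =>
        neg_nonneg.2 (log_nonpos (abs_nonneg _) (h.r1 τ).le))
    · linarith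
  obtain ⟨C', hC'⟩ := h2 ((β - s) / 2) (by linarith)
  obtain ⟨n, hn⟩ := exists_nat_gt ((C + C' + 7) / ((β - s) / 2))
  rw [div_lt_iff₀ (by linarith)] at hn
  have p1 : 0 < exp (-((n : ℝ) + 1)) := exp_pos _
  have p2 : exp (-((n : ℝ) + 1)) < 1 := exp_lt_one_iff.2 (neg_neg_of_pos (by positivity))
  obtain ⟨M, hM⟩ := h.approx p1
  refine ⟨_, p1, p2, M, ?_⟩
  have e1 := hC' _ p1 p2.le
  have e2 := hM _ le_rfl
  rw [log_exp, neg_neg] at e1 ⊢
  nlinarith

end Md

end Vale.Agent.P114
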