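import Vale.Agent.P114.Count
import Vale.Agent.P114.EE

/-! Random convolutions driven by an independent sequence of slopes. -/

namespace Vale.Agent.P114

open Finset Real Filter Topology

variable {T : Type} [Fintype T]

/-- The data: slopes with probabilities and the conditional laws of the translations. -/
structure Md (P ρ : T → ℝ) (η : T → Lw) (K : ℝ) (d : ℕ) : Prop where
  pv : PV P
  r0 : ∀ τ, ρ τ ≠ 0
  r1 : ∀ τ, |ρ τ| < 1
  pb : ∀ τ, Pb (η τ)
  bd : ∀ τ, ∀ x ∈ sp (η τ), |x| + |ρ τ| * K ≤ K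
  K1 : 1 ≤ K
  card : ∀ τ, (sp (η τ)).card ≤ d

/-- The conditional law of the translation part given the slopes. -/
noncomputable def law (ρ : T → ℝ) (η : T → Lw) : List T → Lw
  | [] => 1
  | τ :: l => η τ * sc (ρ τ) (law ρ η l)

/-- Conditional entropy at scale `r` after `M` steps. -/
noncomputable def FF (P ρ : T → ℝ) (η : T → Lw) (M : ℕ) (r : ℝ) : ℝ :=
  EE P M fun l => HH r (law ρ η l)

/-- Its limit. -/
noncomputable def ff (P ρ : T → ℝ) (η : T → Lw) (r : ℝ) : ℝ := ⨆ M, FF P ρ η M r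

variable {P ρ : T → ℝ} {η : T → Lw} {K r : ℝ} {d : ℕ}

omit [Fintype T] in
theorem law_append (l l' : List T) :
    law ρ η (l ++ l') = law ρ η l * sc (l.map ρ).prod (law ρ η l') := by
  induction l with
  | nil => simp [law, sc_one]
  | cons τ l ih => simp only [List.cons_append, law, ih, map_mul, sc_sc, List.map_cons,
      List.prod_cons, mul_assoc]

theorem good_EE (hP : PV P) (n : ℕ) {D : List T → Lw → ℝ} (h : ∀ l, Good (D l)) :
    Good fun m => EE P n fun l => D l m := by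
  simp only [EE_ofFn]
  exact good_sum _ fun w _ => (h _).smul ((hP.block n).pos w).le

theorem PV.le_sum (hP : PV P) {c : ℝ} {f : T → ℝ} (h : ∀ τ, c ≤ f τ) : c ≤ ∑ τ, P τ * f τ := by
  refine le_trans (le_of_eq ?_) (sum_le_sum fun τ _ =>
    mul_le_mul_of_nonneg_left (h τ) (hP.pos τ).le)
  rw [← sum_mul, hP.sum, one_mul]

namespace Md

theorem pb_law (h : Md P ρ η K d) (l : List T) : Pb (law ρ η l) := by
  induction l with
  | nil => exact pb_one
  | cons τ l ih => exact (h.pb τ).mul (ih.sc _)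

theorem abs_le (h : Md P ρ η K d) (l : List T) : ∀ x ∈ sp (law ρ η l), |x| ≤ K := by
  induction l with
  | nil => intro x hx; rw [mem_sp_one hx, abs_zero]; linarith [h.K1]
  | cons τ l ih =>
    intro x hx
    obtain ⟨y, hy, z, hz, rfl⟩ := mem_sp_mul hx
    obtain ⟨u, hu, rfl⟩ := mem_sp_sc hz
    have h1 := abs_add_le y (ρ τ * u)
    rw [abs_mul] at h1
    linarith [h.bd τ y hy, mul_le_mul_of_nonneg_left (ih u hu) (abs_nonneg (ρ τ))]

theorem card_le (h : Md P ρ η K d) (J : ℕ) (l : List T) :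
    (sp (law ρ η l ^ J)).card ≤ (J + 1) ^ (l.length * d) := by
  induction l with
  | nil => simpa [law] using card_sp_one
  | cons τ l ih =>
    rw [law, mul_pow, ← map_pow, List.length_cons, Nat.succ_mul, add_comm (l.length * d), pow_add]
    exact (card_sp_mul _ _).trans (Nat.mul_le_mul ((card_sp_pow _ J).trans
      (Nat.pow_le_pow_right (Nat.succ_pos J) (h.card τ))) ((card_sp_sc _ _).trans ih))

theorem log_card_le (h : Md P ρ η K d) (J : ℕ) (l : List T) :
    log (sp (law ρ η l ^ J)).card ≤ (l.length * d : ℕ) * log (J + 1) := by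
  rw [← log_pow]
  rcases Nat.eq_zero_or_pos (sp (law ρ η l ^ J)).card with h0 | h0
  · rw [h0, Nat.cast_zero, log_zero]
    exact log_nonneg (one_le_pow₀ (by linarith [(Nat.cast_nonneg J : (0 : ℝ) ≤ J)]))
  · exact log_le_log (by exact_mod_cast h0) (by exact_mod_cast h.card_le J l)

theorem prod_ne (h : Md P ρ η K d) (l : List T) : (l.map ρ).prod ≠ 0 := by
  induction l with
  | nil => simp
  | cons τ l ih => rw [List.map_cons, List.prod_cons]; exact mul_ne_zero (h.r0 τ) ih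

theorem prod_le (h : Md P ρ η K d) (l : List T) : |(l.map ρ).prod| ≤ 1 := by
  induction l with
  | nil => simp
  | cons τ l ih =>
    rw [List.map_cons, List.prod_cons, abs_mul]
    exact mul_le_one₀ (h.r1 τ).le (abs_nonneg _) ih

theorem log_prod (h : Md P ρ η K d) (l : List T) :
    -log |(l.map ρ).prod| = (l.map fun τ => -log |ρ τ|).sum := by
  induction l with
  | nil => simp
  | cons τ l ih =>
    rw [List.map_cons, List.prod_cons, abs_mul, log_mul (abs_ne_zero.2 (h.r0 τ))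
      (abs_ne_zero.2 (h.prod_ne l)), List.map_cons, List.sum_cons, ← ih, neg_add]

theorem FF_nonneg (h : Md P ρ η K d) (hr : 0 < r) (M : ℕ) : 0 ≤ FF P ρ η M r :=
  le_EE h.pv fun l _ => (h.pb_law l).HH_nonneg hr

theorem FF_le (h : Md P ρ η K d) (hr : 0 < r) (M : ℕ) : FF P ρ η M r ≤ log (1 + 3 * K / r) :=
  EE_le h.pv fun l _ => (h.pb_law l).HH_le_diam hr (by linarith [h.K1]) fun x hx y hy => by
    linarith [abs_sub y x, h.abs_le l x hx, h.abs_le l y hy, h.K1]

theorem FF_mono (h : Md P ρ η K d) (hr : 0 < r) : Monotone fun M => FF P ρ η M r := by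
  intro M M' hM
  obtain ⟨n, rfl⟩ := Nat.exists_eq_add_of_le hM
  simp only [FF, EE_append, law_append]
  exact EE_mono h.pv fun l _ => le_EE h.pv fun l' _ =>
    (good_HH hr).le_mul' (h.pb_law l) ((h.pb_law l').sc _)

theorem bdd (h : Md P ρ η K d) (hr : 0 < r) : BddAbove (Set.range fun M => FF P ρ η M r) :=
  ⟨_, by rintro _ ⟨M, rfl⟩; exact h.FF_le hr M⟩

theorem FF_le_ff (h : Md P ρ η K d) (hr : 0 < r) (M : ℕ) : FF P ρ η M r ≤ ff P ρ η r :=
  le_ciSup (h.bdd hr) M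

theorem ff_nonneg (h : Md P ρ η K d) (hr : 0 < r) : 0 ≤ ff P ρ η r :=
  (h.FF_nonneg hr 0).trans (h.FF_le_ff hr 0)

theorem ff_le (h : Md P ρ η K d) (hr : 0 < r) : ff P ρ η r ≤ log (1 + 3 * K / r) :=
  ciSup_le (h.FF_le hr)

theorem tendsto_FF (h : Md P ρ η K d) (hr : 0 < r) :
    Tendsto (fun M => FF P ρ η M r) atTop (𝓝 (ff P ρ η r)) :=
  tendsto_atTop_ciSup (h.FF_mono hr) (h.bdd hr)

theorem FF_le_FF (h : Md P ρ η K d) (hr : 0 < r) {r' : ℝ} (hr' : 0 < r') (M : ℕ) :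
    FF P ρ η M r ≤ FF P ρ η M r' + log (1 + 2 * r' / r) := by
  rw [FF, FF, ← EE_const h.pv (n := M) (log _), ← EE_add]
  exact EE_mono h.pv fun l _ => (h.pb_law l).HH_le_HH hr hr'

theorem ff_le_ff (h : Md P ρ η K d) (hr : 0 < r) {r' : ℝ} (hr' : 0 < r') :
    ff P ρ η r ≤ ff P ρ η r' + log (1 + 2 * r' / r) :=
  ciSup_le fun M => (h.FF_le_FF hr hr' M).trans (add_le_add_left (h.FF_le_ff hr' M) _)

theorem ff_le_ff' (h : Md P ρ η K d) (hr : 0 < r) {r' c : ℝ} (hr' : 0 < r') (hc : r' ≤ c * r) :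
    ff P ρ η r ≤ ff P ρ η r' + log (1 + 2 * c) := by
  refine (h.ff_le_ff hr hr').trans (add_le_add_right (log_le_log (by positivity) ?_) _)
  have : 2 * r' / r ≤ 2 * c := by rw [div_le_iff₀ hr]; linarith
  linarith

theorem step (h : Md P ρ η K d) (hr : 0 < r) (k : ℕ) :
    ∑ τ, P τ * (ff P ρ η (r / |ρ τ| / 2 ^ k) - ff P ρ η (r / |ρ τ|)) ≤
      ff P ρ η (r / 2 ^ k) - ff P ρ η r := by
  have p1 : ∀ τ, 0 < r / |ρ τ| := fun τ => div_pos hr (abs_pos.2 (h.r0 τ))
  refine le_of_tendsto_of_tendsto' (b := atTop) (tendsto_finsetSum _ fun τ _ =>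
    ((h.tendsto_FF (by have := p1 τ; positivity)).sub (h.tendsto_FF (p1 τ))).const_mul (P τ))
    (((h.tendsto_FF (by positivity)).sub (h.tendsto_FF hr)).comp (tendsto_add_atTop_nat 1))
    fun M => ?_
  simp only [Function.comp, FF, ← EE_sub]
  rw [EE_succ]
  refine sum_le_sum fun τ _ => mul_le_mul_of_nonneg_left (EE_mono h.pv fun l _ => ?_)
    (h.pv.pos τ).le
  have := (good_win hr k).le_mul (h.pb τ) ((h.pb_law l).sc (ρ τ))
  rwa [HH_sc (h.r0 τ), HH_sc (h.r0 τ), div_right_comm] at this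

theorem win_lower (h : Md P ρ η K d) : ∃ C₀ : ℝ, ∀ (k : ℕ) (r₀ r : ℝ), 0 < r → r ≤ r₀ →
    ff P ρ η (r₀ / 2 ^ k) - ff P ρ η r₀ - C₀ ≤ ff P ρ η (r / 2 ^ k) - ff P ρ η r := by
  have := h.pv.nonempty
  obtain ⟨i, -, hi⟩ := exists_max_image univ (fun i => |ρ i|) univ_nonempty
  obtain ⟨j, -, hj⟩ := exists_min_image univ (fun i => |ρ i|) univ_nonempty
  have hσ : 0 < |ρ j| := abs_pos.2 (h.r0 j)
  have hρ : 0 < |ρ i| := abs_pos.2 (h.r0 i)
  refine ⟨log (1 + 2 * 1) + log (1 + 2 * |ρ j|⁻¹), fun k r₀ => ?_⟩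
  have key : ∀ (n : ℕ) (r : ℝ), 0 < r → r ≤ r₀ → |ρ i| ^ n * (|ρ j| * r₀) ≤ r →
      ff P ρ η (r₀ / 2 ^ k) - ff P ρ η r₀ - (log (1 + 2 * 1) + log (1 + 2 * |ρ j|⁻¹)) ≤
        ff P ρ η (r / 2 ^ k) - ff P ρ η r := by
    intro n
    induction n with
    | zero =>
      intro r h0 h1 h2
      have h3 : 0 < r₀ := h0.trans_le h1
      rw [pow_zero, one_mul] at h2
      have e1 := h.ff_le_ff' (r := r₀ / 2 ^ k) (r' := r / 2 ^ k) (c := 1) (by positivity)
        (by positivity) (by rw [one_mul]; gcongr)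
      have e2 := h.ff_le_ff' (c := |ρ j|⁻¹) h0 h3 (by rw [le_inv_mul_iff₀ hσ]; exact h2)
      linarith
    | succ n ih =>
      intro r h0 h1 h2
      have h3 : 0 < r₀ := h0.trans_le h1
      rcases le_or_gt (|ρ i| ^ n * (|ρ j| * r₀)) r with h4 | h4
      · exact ih r h0 h1 h4
      refine le_trans ?_ (h.step h0 k)
      refine h.pv.le_sum fun τ => ?_
      have hτ : 0 < |ρ τ| := abs_pos.2 (h.r0 τ)
      refine ih _ (div_pos h0 hτ) ?_ ?_
      · rw [div_le_iff₀ hτ]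
        have e1 : |ρ i| ^ n * (|ρ j| * r₀) ≤ |ρ j| * r₀ :=
          mul_le_of_le_one_left (by positivity) (pow_le_one₀ hρ.le (h.r1 i).le)
        have e2 := mul_le_mul_of_nonneg_right (hj τ (mem_univ _)) h3.le
        linarith
      · rw [le_div_iff₀ hτ]
        refine le_trans ?_ h2
        rw [pow_succ, mul_right_comm _ |ρ i|]
        exact mul_le_mul_of_nonneg_left (hi τ (mem_univ _)) (by positivity)
  intro r h0 h1
  have h3 : 0 < r₀ := h0.trans_le h1
  obtain ⟨n, hn⟩ := exists_pow_lt_of_lt_one (show 0 < r / (|ρ j| * r₀) by positivity) (h.r1 i)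
  exact key n r h0 h1 ((lt_div_iff₀ (by positivity)).1 hn).le

theorem exists_beta (h : Md P ρ η K d) : ∃ β C : ℝ, 0 ≤ β ∧
    (∀ r' r, 0 < r' → r' ≤ r → ff P ρ η r' - ff P ρ η r ≤ β * log (r / r') + C) ∧
    ∀ ε, 0 < ε → ∃ C' : ℝ, ∀ r, 0 < r → r ≤ 1 → (β - ε) * -log r - C' ≤ ff P ρ η r := by
  obtain ⟨C₀, hC₀⟩ := h.win_lower
  have l2 : 0 < log 2 := log_pos (by norm_num)
  have hC : 0 ≤ C₀ := by linarith [hC₀ 0 1 1 one_pos le_rfl]
  set S : Set ℝ := insert 0 {x | ∃ (k : ℕ) (r : ℝ), 0 < r ∧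
    x = (ff P ρ η (r / 2 ^ (k + 1)) - ff P ρ η r - C₀) / ((k + 1) * log 2)} with hS
  have hb : BddAbove S := by
    refine ⟨3, ?_⟩
    rintro x (rfl | ⟨k, r, hr, rfl⟩)
    · norm_num
    rw [div_le_iff₀ (by positivity)]
    have e1 := h.ff_le_ff' (r := r / 2 ^ (k + 1)) (c := 2 ^ (k + 1)) (by positivity) hr
      (le_of_eq (by field_simp))
    have e2 : log (1 + 2 * 2 ^ (k + 1)) ≤ log (2 ^ (k + 3)) := by
      refine log_le_log (by positivity) ?_
      have : (1 : ℝ) ≤ 2 ^ k := one_le_pow₀ (by norm_num)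
      simp only [pow_succ]
      linarith
    rw [log_pow] at e2
    push_cast at e2
    nlinarith [(Nat.cast_nonneg k : (0 : ℝ) ≤ k)]
  have h0 : 0 ≤ sSup S := le_csSup hb (Set.mem_insert _ _)
  refine ⟨sSup S, C₀ + log (1 + 2 * 1) + sSup S * log 2, h0, fun r' r h1 h2 => ?_,
    fun ε hε => ?_⟩
  · have hr : 0 < r := h1.trans_le h2
    obtain ⟨n, h3, h4⟩ := exists_nat_pow_near ((one_le_div h1).2 h2) (show (1 : ℝ) < 2 by norm_num)
    have e1 := le_csSup hb (Set.mem_insert_of_mem _ ⟨n, r, hr, rfl⟩)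
    rw [div_le_iff₀ (by positivity)] at e1
    have e2 := h.ff_le_ff' (r' := r / 2 ^ (n + 1)) (c := 1) h1 (by positivity) (by
      rw [one_mul, div_le_iff₀' (by positivity)]
      exact ((div_lt_iff₀ h1).1 h4).le)
    have e3 := log_le_log (by positivity) h3
    rw [log_pow] at e3
    nlinarith [mul_le_mul_of_nonneg_left e3 h0]
  rcases lt_or_ge (sSup S - ε) 0 with h1 | h1
  · refine ⟨0, fun r hr hr1 => ?_⟩
    have := mul_nonpos_of_nonpos_of_nonneg h1.le (neg_nonneg.2 (log_nonpos hr.le hr1))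
    linarith [h.ff_nonneg hr]
  obtain ⟨x, hx, h2⟩ := exists_lt_of_lt_csSup ⟨0, Set.mem_insert _ _⟩ (sub_lt_self (sSup S) hε)
  rcases hx with rfl | ⟨k, r₀, hr₀, rfl⟩
  · linarith
  rw [lt_div_iff₀ (by positivity)] at h2
  set b := sSup S - ε
  have iter : ∀ j : ℕ, j * (b * ((k + 1) * log 2)) ≤ ff P ρ η (r₀ / (2 ^ (k + 1)) ^ j) := by
    intro j
    induction j with
    | zero => simpa using h.ff_nonneg hr₀
    | succ j ih =>
      have := hC₀ (k + 1) r₀ (r₀ / (2 ^ (k + 1)) ^ j) (by positivity)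
        (div_le_self hr₀.le (one_le_pow₀ (one_le_pow₀ (by norm_num))))
      rw [pow_succ _ j, ← div_div]
      push_cast
      linarith
  have l3 : 0 ≤ log (1 + 2 * 1) := log_nonneg (by norm_num)
  refine ⟨b * (|log r₀| + (k + 1) * log 2) + log (1 + 2 * 1), fun r hr hr1 => ?_⟩
  have e0 := mul_le_mul_of_nonneg_left (neg_le_abs (log r₀)) h1
  rcases le_total r r₀ with h3 | h3
  · obtain ⟨n, h4, h5⟩ := exists_nat_pow_near ((one_le_div hr).2 h3)
      (one_lt_pow₀ (show (1 : ℝ) < 2 by norm_num) (Nat.succ_ne_zero k))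
    have e1 := h.ff_le_ff' (r := r₀ / (2 ^ (k + 1)) ^ n) (c := 1) (by positivity) hr (by
      rw [one_mul, le_div_iff₀' (by positivity)]
      exact (le_div_iff₀ hr).1 h4)
    have e2 := log_le_log (by positivity) h5.le
    rw [log_div hr₀.ne' hr.ne', log_pow, log_pow] at e2
    push_cast at e2
    have e3 := mul_le_mul_of_nonneg_left e2 h1
    have e4 := (iter n).trans e1
    linarith
  · have e1 := mul_le_mul_of_nonneg_left (log_le_log hr₀ h3) h1
    have e2 : 0 ≤ b * ((k + 1) * log 2) := by positivity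
    linarith [h.ff_nonneg hr]

theorem approx (h : Md P ρ η K d) (hr : 0 < r) :
    ∃ M, ∀ r', r ≤ r' → ff P ρ η r' ≤ FF P ρ η M r' + 7 := by
  have hK : 0 < K := by linarith [h.K1]
  have key : ∀ N : ℕ, ∃ M, ∀ r', K / 2 ^ N ≤ r' → ff P ρ η r' ≤ FF P ρ η M r' + 7 := by
    intro N
    induction N with
    | zero =>
      refine ⟨0, fun r' h1 => ?_⟩
      rw [pow_zero, div_one] at h1
      have h2 : 0 < r' := hK.trans_le h1
      have e1 := log_le_sub_one_of_pos (show 0 < 1 + 3 * K / r' by positivity)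
      have e2 : 3 * K / r' ≤ 3 := by rw [div_le_iff₀ h2]; linarith
      linarith [h.ff_le h2, h.FF_nonneg h2 0]
    | succ N ih =>
      obtain ⟨M, hM⟩ := ih
      have h0 : 0 < K / 2 ^ (N + 1) := by positivity
      obtain ⟨M', hM'⟩ := ((h.tendsto_FF h0).eventually
        (lt_mem_nhds (sub_lt_self _ one_pos))).exists
      refine ⟨max M M', fun r' h1 => ?_⟩
      have h2 : 0 < r' := h0.trans_le h1
      rcases le_total (K / 2 ^ N) r' with h3 | h3
      · linarith [hM r' h3, h.FF_mono h2 (le_max_left M M')]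
      · have e1 := h.ff_le_ff' (c := 1) h2 h0 (by linarith)
        have e2 := h.FF_le_FF h0 h2 M'
        have e3 := log_le_sub_one_of_pos (show 0 < 1 + 2 * r' / (K / 2 ^ (N + 1)) by positivity)
        have e4 : 2 * r' / (K / 2 ^ (N + 1)) ≤ 4 := by
          rw [div_le_iff₀ h0, pow_succ, ← div_div]
          linarith
        have e5 := log_le_sub_one_of_pos (show (0 : ℝ) < 1 + 2 * 1 by norm_num)
        have e6 : FF P ρ η M' r' ≤ FF P ρ η (max M M') r' := h.FF_mono h2 (le_max_right M M')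
        have e7 := e3.trans (sub_le_sub_right (add_le_add_right e4 1) 1)
        generalize K / 2 ^ (N + 1) = z at *
        linarith
  obtain ⟨N, hN⟩ := pow_unbounded_of_one_lt (K / r) (show (1 : ℝ) < 2 by norm_num)
  obtain ⟨M, hM⟩ := key N
  refine ⟨M, fun r' h1 => hM r' (le_trans ?_ h1)⟩
  rw [div_le_iff₀' (by positivity)]
  exact ((div_lt_iff₀ hr).1 hN).le

end Md

end Vale.Agent.P114
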